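import Mathlib

/-! Grand-canonical integrals over finite configurations, as functionals of multisets of points. -/

open MeasureTheory Set
open scoped ENNReal

namespace Vale.Agent.Lib.P171

set_option linter.unusedSectionVars false

section General

variable {X : Type} [MeasureSpace X]

/-- The multiset of points of a labelled configuration. -/
def conf {n : ℕ} (x : Fin n → X) : Multiset X := (Finset.univ : Finset (Fin n)).val.map x

/-- Labelled configurations with all points in `A`. -/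
def cyl (n : ℕ) (A : Set X) : Set (Fin n → X) := {x | ∀ i, x i ∈ A}

/-- Integral of `F` over the labelled configurations of `n` points in `A`. -/
noncomputable def I (n : ℕ) (A : Set X) (F : Multiset X → ℝ≥0∞) : ℝ≥0∞ :=
  ∫⁻ x in cyl n A, F (conf x)

/-- The grand canonical integral of `F` over configurations in `A`. -/
noncomputable def G (A : Set X) (F : Multiset X → ℝ≥0∞) : ℝ≥0∞ :=
  ∑' n : ℕ, ((n.factorial : ℝ≥0∞))⁻¹ * I n A F

/-- Measurability of a functional of configurations. -/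
def Meas (F : Multiset X → ℝ≥0∞) : Prop := ∀ n : ℕ, Measurable (fun x : Fin n → X => F (conf x))

@[simp] lemma conf_zero (x : Fin 0 → X) : conf x = 0 := by
  simp [conf]

lemma conf_cons {n : ℕ} (a : X) (x : Fin n → X) : conf (Fin.cons a x : Fin (n+1) → X) = a ::ₘ conf x := by
  unfold conf
  rw [Fin.univ_succ]
  simp [Function.comp_def]

lemma mem_conf {n : ℕ} (x : Fin n → X) (a : X) : a ∈ conf x ↔ ∃ i, x i = a := by
  simp [conf]

lemma sum_conf {n : ℕ} (x : Fin n → X) (f : X → ℝ) : ((conf x).map f).sum = ∑ i, f (x i) := by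
  unfold conf
  rw [Multiset.map_map]
  rfl

lemma card_conf {n : ℕ} (x : Fin n → X) : (conf x).card = n := by
  simp [conf]

lemma exists_conf (s : Multiset X) : ∃ (n : ℕ) (x : Fin n → X), conf x = s := by
  induction s using Multiset.induction_on with
  | empty => exact ⟨0, fun i => i.elim0, by simp⟩
  | cons a s ih =>
    obtain ⟨n, x, hx⟩ := ih
    exact ⟨n + 1, Fin.cons a x, by rw [conf_cons, hx]⟩

lemma measurableSet_cyl (n : ℕ) {A : Set X} (hA : MeasurableSet A) : MeasurableSet (cyl n A) := by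
  have : cyl n A = Set.pi Set.univ (fun _ : Fin n => A) := by
    ext x; simp [cyl]
  rw [this]
  exact MeasurableSet.univ_pi (fun _ => hA)

lemma Meas.mul {F₁ F₂ : Multiset X → ℝ≥0∞} (h₁ : Meas F₁) (h₂ : Meas F₂) :
    Meas (fun s => F₁ s * F₂ s) := fun n => (h₁ n).mul (h₂ n)

lemma meas_one : Meas (fun _ : Multiset X => (1 : ℝ≥0∞)) := fun _ => measurable_const

lemma Meas.prod {ι : Type} (C : Finset ι) (F : ι → Multiset X → ℝ≥0∞) (h : ∀ c ∈ C, Meas (F c)) :
    Meas (fun s => ∏ c ∈ C, F c s) := fun n =>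
  Finset.measurable_prod C (fun c hc => h c hc n)

lemma meas_cons_joint {F : Multiset X → ℝ≥0∞} (hF : Meas F) (n : ℕ) :
    Measurable (fun p : X × (Fin n → X) => F (p.1 ::ₘ conf p.2)) := by
  have h1 : Measurable (fun p : X × (Fin n → X) => (Fin.cons p.1 p.2 : Fin (n+1) → X)) := by
    refine measurable_pi_iff.2 (fun i => ?_)
    refine Fin.cases ?_ (fun j => ?_) i
    · simpa using measurable_fst
    · simp only [Fin.cons_succ]
      exact (measurable_pi_apply j).comp measurable_snd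
  have h2 := (hF (n+1)).comp h1
  simpa [Function.comp_def, conf_cons] using h2

lemma Meas.cons {F : Multiset X → ℝ≥0∞} (hF : Meas F) (a : X) : Meas (fun s => F (a ::ₘ s)) := by
  intro n
  exact (meas_cons_joint hF n).comp (measurable_const.prodMk measurable_id)

variable [SigmaFinite (volume : Measure X)]

lemma I_zero (A : Set X) (F : Multiset X → ℝ≥0∞) : I 0 A F = F 0 := by
  unfold I
  have : cyl 0 A = Set.univ := by
    ext x; simp [cyl]
  rw [this, Measure.restrict_univ]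
  have h : (volume : Measure (Fin 0 → X)) = Measure.dirac default := by
    rw [volume_pi]
    exact Measure.pi_of_empty _ _
  rw [h, lintegral_dirac]
  simp

lemma I_succ (n : ℕ) {A : Set X} (hA : MeasurableSet A) {F : Multiset X → ℝ≥0∞} (hF : Meas F) :
    I (n+1) A F = ∫⁻ a in A, I n A (fun s => F (a ::ₘ s)) := by
  unfold I
  have hmp := (volume_preserving_piFinSuccAbove (fun _ : Fin (n+1) => X) 0).symm
  have h1 := hmp.setLIntegral_comp_preimage (measurableSet_cyl (n+1) hA) (hF (n+1))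
  rw [← h1]
  have h2 : (MeasurableEquiv.piFinSuccAbove (fun _ : Fin (n+1) => X) 0).symm ⁻¹' (cyl (n+1) A)
      = A ×ˢ cyl n A := by
    ext ⟨a, x⟩
    simp only [cyl, Set.mem_preimage, Set.mem_ofPred_eq, Set.mem_prod]
    rw [Fin.forall_fin_succ]
    simp [MeasurableEquiv.piFinSuccAbove]
  rw [h2]
  have h3 : (volume : Measure (X × (Fin n → X))).restrict (A ×ˢ cyl n A)
      = ((volume : Measure X).restrict A).prod ((volume : Measure (Fin n → X)).restrict (cyl n A)) := by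
    rw [Measure.prod_restrict]; rfl
  have h4 : ∀ p : X × (Fin n → X), F (conf ((MeasurableEquiv.piFinSuccAbove (fun _ : Fin (n+1) => X) 0).symm p))
      = F (p.1 ::ₘ conf p.2) := by
    intro p
    rw [← conf_cons]
    congr 2
    ext i
    simp [MeasurableEquiv.piFinSuccAbove]
  simp_rw [h4]
  rw [h3, lintegral_prod]
  exact (meas_cons_joint hF n).aemeasurable

lemma measurable_I_cons (n : ℕ) (A : Set X) {F : Multiset X → ℝ≥0∞} (hF : Meas F) :
    Measurable (fun a => I n A (fun s => F (a ::ₘ s))) := by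
  unfold I
  exact (meas_cons_joint hF n).lintegral_prod_right'

/-- Splitting of the labelled integral of a product functional over two disjoint regions. -/
lemma I_mul {A B : Set X} (hA : MeasurableSet A) (hB : MeasurableSet B) (hd : Disjoint A B) :
    ∀ (n : ℕ) (F₁ F₂ : Multiset X → ℝ≥0∞), Meas F₁ → Meas F₂ →
      (∀ x ∈ B, ∀ s, F₁ (x ::ₘ s) = F₁ s) → (∀ x ∈ A, ∀ s, F₂ (x ::ₘ s) = F₂ s) →
      I n (A ∪ B) (fun s => F₁ s * F₂ s)
        = ∑ p ∈ Finset.HasAntidiagonal.antidiagonal n, (n.choose p.1 : ℝ≥0∞) * (I p.1 A F₁ * I p.2 B F₂) := by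
  intro n
  induction n with
  | zero =>
    intro F₁ F₂ _ _ _ _
    simp [I_zero]
  | succ n ih =>
    intro F₁ F₂ h₁ h₂ hB₁ hA₂
    rw [I_succ n (hA.union hB) (h₁.mul h₂), lintegral_union hB hd]
    have eA : ∀ a ∈ A, I n (A ∪ B) (fun s => F₁ (a ::ₘ s) * F₂ (a ::ₘ s))
        = ∑ p ∈ Finset.HasAntidiagonal.antidiagonal n, (n.choose p.1 : ℝ≥0∞) *
            (I p.1 A (fun s => F₁ (a ::ₘ s)) * I p.2 B F₂) := by
      intro a ha
      have : (fun s => F₁ (a ::ₘ s) * F₂ (a ::ₘ s)) = (fun s => (fun s => F₁ (a ::ₘ s)) s * F₂ s) := by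
        funext s; simp [hA₂ a ha s]
      rw [this]
      refine ih (fun s => F₁ (a ::ₘ s)) F₂ (h₁.cons a) h₂ ?_ hA₂
      intro x hx s
      rw [Multiset.cons_swap, hB₁ x hx]
    have eB : ∀ a ∈ B, I n (A ∪ B) (fun s => F₁ (a ::ₘ s) * F₂ (a ::ₘ s))
        = ∑ p ∈ Finset.HasAntidiagonal.antidiagonal n, (n.choose p.1 : ℝ≥0∞) *
            (I p.1 A F₁ * I p.2 B (fun s => F₂ (a ::ₘ s))) := by
      intro a ha
      have : (fun s => F₁ (a ::ₘ s) * F₂ (a ::ₘ s)) = (fun s => F₁ s * (fun s => F₂ (a ::ₘ s)) s) := by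
        funext s; simp [hB₁ a ha s]
      rw [this]
      refine ih F₁ (fun s => F₂ (a ::ₘ s)) h₁ (h₂.cons a) hB₁ ?_
      intro x hx s
      rw [Multiset.cons_swap, hA₂ x hx]
    rw [setLIntegral_congr_fun hA eA, setLIntegral_congr_fun hB eB]
    have mA : ∀ k : ℕ, Measurable (fun a => I k A (fun s => F₁ (a ::ₘ s))) := fun k =>
      measurable_I_cons k A h₁
    have mB : ∀ k : ℕ, Measurable (fun a => I k B (fun s => F₂ (a ::ₘ s))) := fun k =>
      measurable_I_cons k B h₂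
    rw [lintegral_finsetSum _ (fun p _ => (((mA p.1).mul_const _).const_mul _)),
      lintegral_finsetSum _ (fun p _ => (((mB p.2).const_mul _).const_mul _))]
    have e1 : ∀ p ∈ Finset.HasAntidiagonal.antidiagonal n, ∫⁻ a in A, (n.choose p.1 : ℝ≥0∞) *
            (I p.1 A (fun s => F₁ (a ::ₘ s)) * I p.2 B F₂)
        = (n.choose p.1 : ℝ≥0∞) * (I (p.1 + 1) A F₁ * I p.2 B F₂) := by
      intro p _
      rw [lintegral_const_mul _ ((mA p.1).mul_const _), lintegral_mul_const _ (mA p.1), ← I_succ _ hA h₁]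
    have e2 : ∀ p ∈ Finset.HasAntidiagonal.antidiagonal n, ∫⁻ a in B, (n.choose p.1 : ℝ≥0∞) *
            (I p.1 A F₁ * I p.2 B (fun s => F₂ (a ::ₘ s)))
        = (n.choose p.1 : ℝ≥0∞) * (I p.1 A F₁ * I (p.2 + 1) B F₂) := by
      intro p _
      rw [lintegral_const_mul _ ((mB p.2).const_mul _), lintegral_const_mul _ (mB p.2), ← I_succ _ hB h₂]
    rw [Finset.sum_congr rfl e1, Finset.sum_congr rfl e2]
    have hp := Finset.sum_antidiagonal_choose_succ_mul (fun i j => I i A F₁ * I j B F₂) n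
    rw [hp, add_comm]
    congr 1
    refine Finset.sum_congr rfl (fun p hp => ?_)
    rw [Finset.HasAntidiagonal.mem_antidiagonal] at hp
    rw [Nat.choose_symm_of_eq_add hp.symm]

lemma G_mul {A B : Set X} (hA : MeasurableSet A) (hB : MeasurableSet B) (hd : Disjoint A B)
    (F₁ F₂ : Multiset X → ℝ≥0∞) (h₁ : Meas F₁) (h₂ : Meas F₂)
    (hB₁ : ∀ x ∈ B, ∀ s, F₁ (x ::ₘ s) = F₁ s) (hA₂ : ∀ x ∈ A, ∀ s, F₂ (x ::ₘ s) = F₂ s) :
    G (A ∪ B) (fun s => F₁ s * F₂ s) = G A F₁ * G B F₂ := by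
  unfold G
  rw [← ENNReal.tsum_mul_right]
  simp_rw [← ENNReal.tsum_mul_left]
  rw [← ENNReal.tsum_prod, ← (Finset.HasAntidiagonal.sigmaAntidiagonalEquivProd (A := ℕ)).tsum_eq, ENNReal.tsum_sigma']
  refine tsum_congr (fun n => ?_)
  rw [I_mul hA hB hd n F₁ F₂ h₁ h₂ hB₁ hA₂, tsum_fintype, Finset.univ_eq_attach, Finset.mul_sum,
    ← Finset.sum_attach]
  refine Finset.sum_congr rfl (fun p _ => ?_)
  obtain ⟨⟨k, l⟩, hp⟩ := p
  simp only [Finset.HasAntidiagonal.sigmaAntidiagonalEquivProd_apply]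
  rw [Finset.HasAntidiagonal.mem_antidiagonal] at hp
  simp only at hp
  subst hp
  have hk : ((k.factorial : ℕ) : ℝ≥0∞) ≠ 0 := by exact_mod_cast k.factorial_ne_zero
  have hl : ((l.factorial : ℕ) : ℝ≥0∞) ≠ 0 := by exact_mod_cast l.factorial_ne_zero
  have hkl : (((k+l).factorial : ℕ) : ℝ≥0∞) ≠ 0 := by exact_mod_cast (k+l).factorial_ne_zero
  have hk' : ((k.factorial : ℕ) : ℝ≥0∞) ≠ ⊤ := ENNReal.natCast_ne_top _
  have hl' : ((l.factorial : ℕ) : ℝ≥0∞) ≠ ⊤ := ENNReal.natCast_ne_top _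
  have hkl' : (((k+l).factorial : ℕ) : ℝ≥0∞) ≠ ⊤ := ENNReal.natCast_ne_top _
  have key : (((k+l).factorial : ℕ) : ℝ≥0∞)⁻¹ * ((k+l).choose k : ℝ≥0∞)
      = ((k.factorial : ℕ) : ℝ≥0∞)⁻¹ * ((l.factorial : ℕ) : ℝ≥0∞)⁻¹ := by
    rw [← ENNReal.mul_inv (Or.inl hk) (Or.inl hk')]
    rw [← ENNReal.mul_right_inj (a := (((k+l).factorial : ℕ) : ℝ≥0∞)) hkl hkl', ← mul_assoc,
      ENNReal.mul_inv_cancel hkl hkl', one_mul]
    have hc : ((k+l).choose k : ℝ≥0∞) * ((k.factorial : ℝ≥0∞) * (l.factorial : ℝ≥0∞)) = ((k+l).factorial : ℝ≥0∞) := by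
      have := Nat.add_choose_mul_factorial_mul_factorial k l
      rw [mul_assoc, Nat.choose_symm_add.symm] at this
      exact_mod_cast this
    have hprod : ((k.factorial : ℝ≥0∞) * (l.factorial : ℝ≥0∞)) ≠ 0 := mul_ne_zero hk hl
    have hprod' : ((k.factorial : ℝ≥0∞) * (l.factorial : ℝ≥0∞)) ≠ ⊤ := ENNReal.mul_ne_top hk' hl'
    rw [← hc, mul_assoc, ENNReal.mul_inv_cancel hprod hprod', mul_one]
  calc (((k+l).factorial : ℕ) : ℝ≥0∞)⁻¹ * (((k+l).choose k : ℝ≥0∞) * (I k A F₁ * I l B F₂))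
      = ((((k+l).factorial : ℕ) : ℝ≥0∞)⁻¹ * ((k+l).choose k : ℝ≥0∞)) * (I k A F₁ * I l B F₂) := by ring
    _ = (((k.factorial : ℕ) : ℝ≥0∞)⁻¹ * ((l.factorial : ℕ) : ℝ≥0∞)⁻¹) * (I k A F₁ * I l B F₂) := by rw [key]
    _ = ((k.factorial : ℕ) : ℝ≥0∞)⁻¹ * I k A F₁ * (((l.factorial : ℕ) : ℝ≥0∞)⁻¹ * I l B F₂) := by ring

lemma I_empty_succ (n : ℕ) (F : Multiset X → ℝ≥0∞) : I (n+1) (∅ : Set X) F = 0 := by
  unfold I
  have : cyl (n+1) (∅ : Set X) = ∅ := by
    ext x
    simp only [cyl, Set.mem_ofPred_eq, Set.mem_empty_iff_false, iff_false, not_forall]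
    exact ⟨0, fun h => h⟩
  rw [this]
  simp

lemma G_empty (F : Multiset X → ℝ≥0∞) : G (∅ : Set X) F = F 0 := by
  unfold G
  rw [tsum_eq_single 0]
  · simp [I_zero]
  · intro n hn
    obtain ⟨m, rfl⟩ := Nat.exists_eq_succ_of_ne_zero hn
    simp [I_empty_succ]

/-- Factorization of the grand canonical integral over finitely many disjoint regions. -/
lemma G_prod {ι : Type} [DecidableEq ι] (C : Finset ι) (A : ι → Set X)
    (hA : ∀ c ∈ C, MeasurableSet (A c))
    (hd : ∀ c ∈ C, ∀ d ∈ C, c ≠ d → Disjoint (A c) (A d))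
    (F : ι → Multiset X → ℝ≥0∞) (hF : ∀ c ∈ C, Meas (F c))
    (hloc : ∀ c ∈ C, ∀ x ∉ A c, ∀ s, F c (x ::ₘ s) = F c s) :
    G (⋃ c ∈ C, A c) (fun s => ∏ c ∈ C, F c s) = ∏ c ∈ C, G (A c) (F c) := by
  induction C using Finset.induction_on with
  | empty => simp [G_empty]
  | insert c C hc ih =>
    have hA' : ∀ d ∈ C, MeasurableSet (A d) := fun d hd => hA d (Finset.mem_insert_of_mem hd)
    have hd' : ∀ d ∈ C, ∀ e ∈ C, d ≠ e → Disjoint (A d) (A e) := fun d h1 e h2 =>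
      hd d (Finset.mem_insert_of_mem h1) e (Finset.mem_insert_of_mem h2)
    have hF' : ∀ d ∈ C, Meas (F d) := fun d hd => hF d (Finset.mem_insert_of_mem hd)
    have hloc' : ∀ d ∈ C, ∀ x ∉ A d, ∀ s, F d (x ::ₘ s) = F d s := fun d hd =>
      hloc d (Finset.mem_insert_of_mem hd)
    have hcc := Finset.mem_insert_self c C
    have hu : (⋃ d ∈ insert c C, A d) = A c ∪ ⋃ d ∈ C, A d := by
      rw [Finset.set_biUnion_insert]
    rw [hu, Finset.prod_insert hc, ← ih hA' hd' hF' hloc']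
    simp_rw [Finset.prod_insert hc]
    refine G_mul (hA c hcc) (Finset.measurableSet_biUnion C hA') ?_ _ _ (hF c hcc) (Meas.prod C F hF') ?_ ?_
    · rw [Set.disjoint_iUnion₂_right]
      intro d hdC
      exact hd c hcc d (Finset.mem_insert_of_mem hdC) (fun h => hc (h ▸ hdC))
    · intro x hx s
      refine hloc c hcc x ?_ s
      intro hxc
      simp only [Set.mem_iUnion] at hx
      obtain ⟨d, hdC, hxd⟩ := hx
      exact Set.disjoint_left.1 (hd c hcc d (Finset.mem_insert_of_mem hdC) (fun h => hc (h ▸ hdC))) hxc hxd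
    · intro x hx s
      refine Finset.prod_congr rfl (fun d hdC => ?_)
      refine hloc' d hdC x ?_ s
      intro hxd
      exact Set.disjoint_left.1 (hd c hcc d (Finset.mem_insert_of_mem hdC) (fun h => hc (h ▸ hdC))) hx hxd

/-- Monotonicity, with injective labelled configurations only. -/
lemma I_mono {n : ℕ} {A B : Set X} (hA : MeasurableSet A) (hAB : A ⊆ B)
    {F F' : Multiset X → ℝ≥0∞}
    (hinj : ∀ᵐ x : Fin n → X, Function.Injective x)
    (h : ∀ x : Fin n → X, Function.Injective x → (∀ i, x i ∈ A) → F (conf x) ≤ F' (conf x)) :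
    I n A F ≤ I n B F' := by
  unfold I
  calc ∫⁻ x in cyl n A, F (conf x) ≤ ∫⁻ x in cyl n A, F' (conf x) := by
        refine lintegral_mono_ae ?_
        rw [ae_restrict_iff' (measurableSet_cyl n hA)]
        filter_upwards [hinj] with x hx hxA
        exact h x hx hxA
    _ ≤ ∫⁻ x in cyl n B, F' (conf x) := by
        refine lintegral_mono_set ?_
        intro x hx i
        exact hAB (hx i)

lemma G_mono {A B : Set X} (hA : MeasurableSet A) (hAB : A ⊆ B)
    {F F' : Multiset X → ℝ≥0∞}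
    (hinj : ∀ n, ∀ᵐ x : Fin n → X, Function.Injective x)
    (h : ∀ s : Multiset X, s.Nodup → (∀ x ∈ s, x ∈ A) → F s ≤ F' s) :
    G A F ≤ G B F' := by
  unfold G
  refine ENNReal.tsum_le_tsum (fun n => ?_)
  gcongr
  refine I_mono hA hAB (hinj n) ?_
  intro x hx hxA
  refine h _ ?_ ?_
  · unfold conf
    exact Multiset.Nodup.map hx (Finset.univ.nodup)
  · intro y hy
    obtain ⟨i, rfl⟩ := (mem_conf x y).1 hy
    exact hxA i

lemma G_linear {A : Set X} (F₁ F₂ : Multiset X → ℝ≥0∞) (h₁ : Meas F₁) (a b : ℝ≥0∞) (ha : a ≠ ⊤) (hb : b ≠ ⊤) :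
    G A (fun s => a * F₁ s + b * F₂ s) = a * G A F₁ + b * G A F₂ := by
  unfold G
  rw [← ENNReal.tsum_mul_left, ← ENNReal.tsum_mul_left, ← ENNReal.tsum_add]
  refine tsum_congr (fun n => ?_)
  unfold I
  rw [lintegral_add_left ((h₁ n).const_mul a), lintegral_const_mul' _ _ ha, lintegral_const_mul' _ _ hb]
  ring

/-- Weighted arithmetic-geometric bound replacing the Hoelder inequality. -/
lemma G_convex {A : Set X} (H₁ H₂ : Multiset X → ℝ)
    (hm₁ : Meas (fun s => ENNReal.ofReal (Real.exp (H₁ s))))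
    {c₁ c₂ : ℝ} (h₁ : G A (fun s => ENNReal.ofReal (Real.exp (H₁ s))) ≤ ENNReal.ofReal (Real.exp c₁))
    (h₂ : G A (fun s => ENNReal.ofReal (Real.exp (H₂ s))) ≤ ENNReal.ofReal (Real.exp c₂))
    {θ : ℝ} (hθ0 : 0 ≤ θ) (hθ1 : θ ≤ 1) :
    G A (fun s => ENNReal.ofReal (Real.exp ((1 - θ) * H₁ s + θ * H₂ s)))
      ≤ ENNReal.ofReal (Real.exp ((1 - θ) * c₁ + θ * c₂)) := by
  have hpt : ∀ s : Multiset X, ENNReal.ofReal (Real.exp ((1 - θ) * H₁ s + θ * H₂ s))
      ≤ ENNReal.ofReal ((1 - θ) * Real.exp ((1 - θ) * c₁ + θ * c₂ - c₁)) * ENNReal.ofReal (Real.exp (H₁ s))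
        + ENNReal.ofReal (θ * Real.exp ((1 - θ) * c₁ + θ * c₂ - c₂)) * ENNReal.ofReal (Real.exp (H₂ s)) := by
    intro s
    rw [← ENNReal.ofReal_mul (by positivity [sub_nonneg.2 hθ1]), ← ENNReal.ofReal_mul (by positivity),
      ← ENNReal.ofReal_add (by positivity) (by positivity)]
    refine ENNReal.ofReal_le_ofReal ?_
    have hc := convexOn_exp.2 (Set.mem_univ (H₁ s - c₁)) (Set.mem_univ (H₂ s - c₂))
      (sub_nonneg.2 hθ1) hθ0 (by ring)
    simp only [smul_eq_mul] at hc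
    have e1 : (1 - θ) * H₁ s + θ * H₂ s = ((1 - θ) * c₁ + θ * c₂) + ((1 - θ) * (H₁ s - c₁) + θ * (H₂ s - c₂)) := by ring
    rw [e1, Real.exp_add]
    calc Real.exp ((1 - θ) * c₁ + θ * c₂) * Real.exp ((1 - θ) * (H₁ s - c₁) + θ * (H₂ s - c₂))
        ≤ Real.exp ((1 - θ) * c₁ + θ * c₂) * ((1 - θ) * Real.exp (H₁ s - c₁) + θ * Real.exp (H₂ s - c₂)) := by
          gcongr
      _ = (1 - θ) * Real.exp ((1 - θ) * c₁ + θ * c₂ - c₁) * Real.exp (H₁ s)
          + θ * Real.exp ((1 - θ) * c₁ + θ * c₂ - c₂) * Real.exp (H₂ s) := by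
          simp only [Real.exp_sub]
          have := (Real.exp_pos c₁).ne'
          have := (Real.exp_pos c₂).ne'
          field_simp
  have e0 : G A (fun s => ENNReal.ofReal (Real.exp ((1 - θ) * H₁ s + θ * H₂ s)))
      ≤ G A (fun s => ENNReal.ofReal ((1 - θ) * Real.exp ((1 - θ) * c₁ + θ * c₂ - c₁)) * ENNReal.ofReal (Real.exp (H₁ s))
        + ENNReal.ofReal (θ * Real.exp ((1 - θ) * c₁ + θ * c₂ - c₂)) * ENNReal.ofReal (Real.exp (H₂ s))) := by
    unfold G
    refine ENNReal.tsum_le_tsum (fun n => ?_)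
    gcongr
    unfold I
    exact lintegral_mono (fun x => hpt _)
  refine e0.trans ?_
  rw [G_linear _ _ hm₁ _ _ ENNReal.ofReal_ne_top ENNReal.ofReal_ne_top]
  calc ENNReal.ofReal ((1 - θ) * Real.exp ((1 - θ) * c₁ + θ * c₂ - c₁)) * G A (fun s => ENNReal.ofReal (Real.exp (H₁ s)))
        + ENNReal.ofReal (θ * Real.exp ((1 - θ) * c₁ + θ * c₂ - c₂)) * G A (fun s => ENNReal.ofReal (Real.exp (H₂ s)))
      ≤ ENNReal.ofReal ((1 - θ) * Real.exp ((1 - θ) * c₁ + θ * c₂ - c₁)) * ENNReal.ofReal (Real.exp c₁)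
        + ENNReal.ofReal (θ * Real.exp ((1 - θ) * c₁ + θ * c₂ - c₂)) * ENNReal.ofReal (Real.exp c₂) := by
        gcongr
    _ = ENNReal.ofReal (Real.exp ((1 - θ) * c₁ + θ * c₂)) := by
        have h1θ : 0 ≤ 1 - θ := sub_nonneg.2 hθ1
        rw [← ENNReal.ofReal_mul (by positivity), ← ENNReal.ofReal_mul (by positivity),
          ← ENNReal.ofReal_add (by positivity) (by positivity)]
        congr 1
        simp only [Real.exp_sub]
        have := (Real.exp_pos c₁).ne'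
        have := (Real.exp_pos c₂).ne'
        field_simp
        ring

end General

end Vale.Agent.Lib.P171
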