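import Mathlib

/-! Counting inequalities for pairs of indices. -/

open Finset

namespace Vale.Agent.Lib.P171

lemma sum_comp_count {ι κ : Type} [Fintype ι] [DecidableEq κ] (c : ι → κ) (f : κ → ℝ) :
    ∑ i, f (c i) = ∑ k ∈ univ.image c, ((univ.filter (fun i => c i = k)).card : ℝ) * f k := by
  rw [Finset.sum_comp f c]
  simp [nsmul_eq_mul]

/-- A Schur test for sums over pairs. -/
lemma schur {ι κ : Type} [Fintype ι] [DecidableEq κ] (c : ι → κ) (M : κ → κ → ℝ)
    (hsymm : ∀ k k', M k k' = M k' k) (hnn : ∀ k k', 0 ≤ M k k') (D : κ → ℝ)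
    (hD : ∀ i, ∑ k' ∈ univ.image c, M (c i) k' ≤ D (c i)) :
    ∑ i, ∑ j, M (c i) (c j) ≤ ∑ i, ∑ j, if c i = c j then D (c i) else 0 := by
  set N : κ → ℝ := fun k => ((univ.filter (fun i => c i = k)).card : ℝ) with hN
  set T := univ.image c with hT
  have hNnn : ∀ k, 0 ≤ N k := fun k => Nat.cast_nonneg _
  have e1 : ∑ i, ∑ j, M (c i) (c j) = ∑ k ∈ T, ∑ k' ∈ T, N k * N k' * M k k' := by
    have h1 : ∀ i, ∑ j, M (c i) (c j) = ∑ k' ∈ T, N k' * M (c i) k' := fun i =>
      sum_comp_count c (fun k' => M (c i) k')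
    simp_rw [h1]
    rw [sum_comp_count c (fun k => ∑ k' ∈ T, N k' * M k k')]
    refine sum_congr rfl (fun k _ => ?_)
    rw [mul_sum]
    refine sum_congr rfl (fun k' _ => ?_)
    ring
  have e2 : ∑ i, ∑ j, (if c i = c j then D (c i) else 0) = ∑ k ∈ T, N k * N k * D k := by
    have h1 : ∀ i, ∑ j, (if c i = c j then D (c i) else 0) = N (c i) * D (c i) := by
      intro i
      rw [← sum_filter, sum_const, nsmul_eq_mul]
      congr 2
      simp only [eq_comm]
    simp_rw [h1]
    rw [sum_comp_count c (fun k => N k * D k)]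
    refine sum_congr rfl (fun k _ => ?_)
    ring
  rw [e1, e2]
  have e3 : ∑ k ∈ T, ∑ k' ∈ T, N k * N k' * M k k'
      ≤ ∑ k ∈ T, ∑ k' ∈ T, ((N k)^2 + (N k')^2)/2 * M k k' := by
    refine sum_le_sum (fun k _ => sum_le_sum (fun k' _ => ?_))
    refine mul_le_mul_of_nonneg_right ?_ (hnn k k')
    nlinarith [sq_nonneg (N k - N k')]
  have e4 : ∑ k ∈ T, ∑ k' ∈ T, ((N k)^2 + (N k')^2)/2 * M k k'
      = ∑ k ∈ T, (N k)^2 * ∑ k' ∈ T, M k k' := by
    have a1 : ∑ k ∈ T, ∑ k' ∈ T, ((N k)^2 + (N k')^2)/2 * M k k'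
      = (∑ k ∈ T, ∑ k' ∈ T, (N k)^2/2 * M k k') + ∑ k ∈ T, ∑ k' ∈ T, (N k')^2/2 * M k k' := by
      rw [← sum_add_distrib]
      refine sum_congr rfl (fun k _ => ?_)
      rw [← sum_add_distrib]
      refine sum_congr rfl (fun k' _ => ?_)
      ring
    have a2 : ∑ k ∈ T, ∑ k' ∈ T, (N k')^2/2 * M k k' = ∑ k ∈ T, ∑ k' ∈ T, (N k)^2/2 * M k k' := by
      rw [sum_comm]
      refine sum_congr rfl (fun k _ => sum_congr rfl (fun k' _ => ?_))
      rw [hsymm]
    rw [a1, a2, ← sum_add_distrib]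
    refine sum_congr rfl (fun k _ => ?_)
    rw [mul_sum, ← sum_add_distrib]
    refine sum_congr rfl (fun k' _ => ?_)
    ring
  refine e3.trans (e4.le.trans ?_)
  refine sum_le_sum (fun k hk => ?_)
  obtain ⟨i, _, rfl⟩ := mem_image.1 hk
  calc (N (c i))^2 * ∑ k' ∈ T, M (c i) k' ≤ (N (c i))^2 * D (c i) :=
        mul_le_mul_of_nonneg_left (hD i) (sq_nonneg _)
    _ = N (c i) * N (c i) * D (c i) := by ring

/-- Closeness of cube labels. -/
def near (M : ℕ) (k k' : Fin 3 → ℤ) : Prop := ∀ i, |k i - k' i| ≤ (M : ℤ)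

instance (M : ℕ) (k k' : Fin 3 → ℤ) : Decidable (near M k k') := by
  unfold near; infer_instance

lemma near_symm {M : ℕ} {k k' : Fin 3 → ℤ} : near M k k' ↔ near M k' k := by
  unfold near
  constructor <;> intro h i <;> rw [abs_sub_comm] <;> exact h i

lemma card_near (M : ℕ) (k : Fin 3 → ℤ) (T : Finset (Fin 3 → ℤ)) :
    (T.filter (fun k' => near M k k')).card ≤ (2 * M + 1)^3 := by
  have hsub : T.filter (fun k' => near M k k') ⊆ Finset.Icc (fun i => k i - M) (fun i => k i + M) := by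
    intro k' hk'
    rw [mem_filter] at hk'
    rw [mem_Icc]
    constructor
    · intro i
      have := abs_le.1 (hk'.2 i)
      simp only
      omega
    · intro i
      have := abs_le.1 (hk'.2 i)
      simp only
      omega
  refine (card_le_card hsub).trans ?_
  rw [Pi.card_Icc]
  simp only [Int.card_Icc]
  have : ∀ i : Fin 3, (k i + (M:ℤ) + 1 - (k i - (M:ℤ))).toNat = 2 * M + 1 := by
    intro i; omega
  simp_rw [this]
  simp

/-- Schur test with a relation between nearby cubes. -/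
lemma schur_near {ι : Type} [Fintype ι] (c : ι → Fin 3 → ℤ) (M : ℕ)
    (S : (Fin 3 → ℤ) → (Fin 3 → ℤ) → Prop) [∀ k k', Decidable (S k k')]
    (hS : ∀ k k', S k k' → S k' k)
    (Bd : (Fin 3 → ℤ) → Prop) [DecidablePred Bd]
    (hBd : ∀ k k', near M k k' → S k k' → Bd k) :
    ∑ i, ∑ j, (if near M (c i) (c j) ∧ S (c i) (c j) then (1:ℝ) else 0)
      ≤ ((2 * M + 1)^3 : ℕ) * ∑ i, ∑ j, if c i = c j ∧ Bd (c i) then (1:ℝ) else 0 := by
  have h := schur c (fun k k' => if near M k k' ∧ S k k' then (1:ℝ) else 0)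
    (by
      intro k k'
      congr 1
      rw [eq_iff_iff]
      constructor
      · rintro ⟨h1, h2⟩; exact ⟨near_symm.1 h1, hS _ _ h2⟩
      · rintro ⟨h1, h2⟩; exact ⟨near_symm.1 h1, hS _ _ h2⟩)
    (by intro k k'; positivity)
    (fun k => if Bd k then (((2 * M + 1)^3 : ℕ) : ℝ) else 0)
    (by
      intro i
      by_cases hb : Bd (c i)
      · simp only [hb, if_true]
        rw [← sum_filter, sum_const, nsmul_eq_mul, mul_one]
        have : (filter (fun k' => near M (c i) k' ∧ S (c i) k') (univ.image c)).card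
            ≤ ((univ.image c).filter (fun k' => near M (c i) k')).card := by
          refine card_le_card ?_
          intro k' hk'
          rw [mem_filter] at hk' ⊢
          exact ⟨hk'.1, hk'.2.1⟩
        exact_mod_cast this.trans (card_near M (c i) _)
      · simp only [hb, if_false]
        refine (sum_eq_zero ?_).le
        intro k' _
        rw [if_neg]
        rintro ⟨h1, h2⟩
        exact hb (hBd _ _ h1 h2))
  refine h.trans (le_of_eq ?_)
  rw [mul_sum]
  refine sum_congr rfl (fun i _ => ?_)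
  rw [mul_sum]
  refine sum_congr rfl (fun j _ => ?_)
  by_cases h1 : c i = c j <;> by_cases h2 : Bd (c i) <;> simp [h1, h2]

end Vale.Agent.Lib.P171
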