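import Mathlib
import Vale.Agent.Lib.P171.Config
import Vale.Agent.Lib.P171.Schur

/-! Geometry of cubes in three-dimensional Euclidean space. -/

open MeasureTheory Set
open scoped ENNReal

namespace Vale.Agent.Lib.P171

abbrev E3 := EuclideanSpace ℝ (Fin 3)

/-- label of the cube of side `h` containing `x` -/
noncomputable def cb (h : ℝ) (x : E3) : Fin 3 → ℤ := fun i => ⌊x i / h⌋

lemma measurable_coord (i : Fin 3) : Measurable (fun x : E3 => x i) := by
  exact (EuclideanSpace.proj (𝕜 := ℝ) i).continuous.measurable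

lemma measurable_cb (h : ℝ) : Measurable (cb h) := by
  refine measurable_pi_iff.2 (fun i => ?_)
  exact ((measurable_coord i).div_const h).floor

lemma abs_coord_le (x y : E3) (i : Fin 3) : |x i - y i| ≤ dist x y := by
  have := PiLp.norm_apply_le (x - y) i
  rw [dist_eq_norm]
  simpa using this

lemma cb_near {h : ℝ} (hh : 0 < h) {M : ℕ} {x y : E3} (hd : dist x y < M * h) : near M (cb h x) (cb h y) := by
  intro i
  have h1 := (abs_coord_le x y i).trans_lt hd
  have h2 : |x i / h - y i / h| < M := by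
    rw [← sub_div, abs_div, abs_of_pos hh, div_lt_iff₀ hh]
    exact h1
  unfold cb
  rw [abs_lt] at h2
  rw [abs_le]
  have a1 := Int.floor_le (x i / h)
  have a2 := Int.lt_floor_add_one (x i / h)
  have b1 := Int.floor_le (y i / h)
  have b2 := Int.lt_floor_add_one (y i / h)
  constructor
  · have : (-(M:ℝ)) - 1 < (⌊x i / h⌋ : ℝ) - ⌊y i / h⌋ := by linarith
    have h3 : (-(M:ℤ)) - 1 < ⌊x i / h⌋ - ⌊y i / h⌋ := by exact_mod_cast this
    omega
  · have : (⌊x i / h⌋ : ℝ) - ⌊y i / h⌋ < M + 1 := by linarith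
    have h3 : ⌊x i / h⌋ - ⌊y i / h⌋ < (M:ℤ) + 1 := by exact_mod_cast this
    omega

lemma dist_sq (x y : E3) : dist x y ^ 2 = ∑ i, (x i - y i)^2 := by
  rw [EuclideanSpace.dist_eq, Real.sq_sqrt (Finset.sum_nonneg (fun i _ => sq_nonneg _))]
  refine Finset.sum_congr rfl (fun i _ => ?_)
  rw [Real.dist_eq, sq_abs]

lemma dist_sq_le {x y : E3} {b : ℝ} (hb : ∀ i, |x i - y i| ≤ b) : dist x y ^ 2 ≤ 3 * b^2 := by
  rw [dist_sq]
  have : ∀ i, (x i - y i)^2 ≤ b^2 := by
    intro i
    rw [← sq_abs]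
    exact pow_le_pow_left₀ (abs_nonneg _) (hb i) 2
  calc ∑ i, (x i - y i)^2 ≤ ∑ _i : Fin 3, b^2 := Finset.sum_le_sum (fun i _ => this i)
    _ = 3 * b^2 := by simp

lemma cb_eq_abs {h : ℝ} (hh : 0 < h) {x y : E3} (he : cb h x = cb h y) (i : Fin 3) : |x i - y i| ≤ h := by
  have h0 : ⌊x i / h⌋ = ⌊y i / h⌋ := congrFun he i
  have a1 := Int.floor_le (x i / h)
  have a2 := Int.lt_floor_add_one (x i / h)
  have b1 := Int.floor_le (y i / h)
  have b2 := Int.lt_floor_add_one (y i / h)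
  rw [h0] at a1 a2
  have h2 : |x i / h - y i / h| ≤ 1 := by
    rw [abs_le]; constructor <;> linarith
  rw [← sub_div, abs_div, abs_of_pos hh, div_le_iff₀ hh, one_mul] at h2
  exact h2

/-- labels of cells in terms of labels of unit cubes -/
lemma cb_nat (l : ℕ) (x : E3) : cb l x = fun i => cb 1 x i / (l : ℤ) := by
  funext i
  unfold cb
  rw [div_one]
  exact Int.floor_div_natCast (x i) l

/-- The repulsive core of the potential. -/
noncomputable def phi0 (r : ℝ) : ℝ := if 0 < r ∧ r < 1 then (r^4)⁻¹ else 0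

/-- The attractive kernels. -/
noncomputable def ker (j : ℕ) (r : ℝ) : ℝ := if 0 < r ∧ r < 6 * ((j:ℝ) + 1) then (((j:ℝ) + 1)^3)⁻¹ else 0

/-- The potential with coefficients `a`. -/
noncomputable def phi (a : ℕ → ℝ) (r : ℝ) : ℝ := phi0 r - ∑' j, a j * ker j r

lemma phi0_nonneg (r : ℝ) : 0 ≤ phi0 r := by
  unfold phi0; split_ifs <;> positivity

lemma ker_nonneg (j : ℕ) (r : ℝ) : 0 ≤ ker j r := by
  unfold ker; split_ifs <;> positivity

lemma ker_le (j : ℕ) (r : ℝ) : ker j r ≤ (((j:ℝ) + 1)^3)⁻¹ := by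
  unfold ker; split_ifs
  · exact le_rfl
  · positivity

lemma ker_le_one (j : ℕ) (r : ℝ) : ker j r ≤ 1 := by
  refine (ker_le j r).trans ?_
  refine inv_le_one_of_one_le₀ ?_
  have : (1:ℝ) ≤ (j:ℝ) + 1 := by linarith [Nat.cast_nonneg (α := ℝ) j]
  exact one_le_pow₀ this

lemma measurable_phi0 : Measurable phi0 := by
  unfold phi0
  refine Measurable.ite ?_ ?_ measurable_const
  · exact (measurableSet_Ioi (a := (0:ℝ))).inter (measurableSet_Iio (a := (1:ℝ)))
  · exact (measurable_id.pow_const 4).inv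

lemma measurable_ker (j : ℕ) : Measurable (ker j) := by
  unfold ker
  refine Measurable.ite ?_ measurable_const measurable_const
  exact (measurableSet_Ioi (a := (0:ℝ))).inter (measurableSet_Iio (a := (6 * ((j:ℝ) + 1))))

end Vale.Agent.Lib.P171
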