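import Mathlib
import Vale.Agent.Lib.P171.Config

/-! Restriction of configurations to regions. -/

open MeasureTheory Set
open scoped ENNReal

namespace Vale.Agent.Lib.P171

set_option linter.unusedSectionVars false

section General

variable {X : Type} [MeasureSpace X]

open Classical in
/-- The part of a configuration in the region `A`. -/
noncomputable def res (A : Set X) (s : Multiset X) : Multiset X := s.filter (fun x => x ∈ A)

@[simp] lemma res_zero (A : Set X) : res A (0 : Multiset X) = 0 := by
  unfold res; simp

lemma res_cons_mem {A : Set X} {x : X} (h : x ∈ A) (s : Multiset X) : res A (x ::ₘ s) = x ::ₘ res A s := by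
  classical
  unfold res; exact Multiset.filter_cons_of_pos s h

lemma res_cons_not_mem {A : Set X} {x : X} (h : x ∉ A) (s : Multiset X) : res A (x ::ₘ s) = res A s := by
  classical
  unfold res; exact Multiset.filter_cons_of_neg s h

lemma res_eq_self {A : Set X} {s : Multiset X} (h : ∀ x ∈ s, x ∈ A) : res A s = s := by
  classical
  unfold res; exact Multiset.filter_eq_self.2 h

lemma mem_res {A : Set X} {s : Multiset X} {x : X} : x ∈ res A s ↔ x ∈ s ∧ x ∈ A := by
  classical
  unfold res; exact Multiset.mem_filter

lemma nodup_res {A : Set X} {s : Multiset X} (h : s.Nodup) : (res A s).Nodup := by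
  classical
  unfold res; exact Multiset.Nodup.filter _ h

open Classical in
lemma sum_res (A : Set X) (s : Multiset X) (f : X → ℝ) :
    ((res A s).map f).sum = (s.map (fun x => if x ∈ A then f x else 0)).sum := by
  induction s using Multiset.induction_on with
  | empty => simp
  | cons a s ih =>
    by_cases h : a ∈ A
    · rw [res_cons_mem h]; simp [h, ih]
    · rw [res_cons_not_mem h]; simp [h, ih]

open Classical in
lemma sum_res_conf {n : ℕ} (A : Set X) (x : Fin n → X) (f : X → ℝ) :
    ((res A (conf x)).map f).sum = ∑ i, if x i ∈ A then f (x i) else 0 := by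
  rw [sum_res, sum_conf]

open Classical in
lemma card_res_conf {n : ℕ} (A : Set X) (x : Fin n → X) :
    ((res A (conf x)).card : ℝ) = ∑ i, if x i ∈ A then (1:ℝ) else 0 := by
  rw [← sum_res_conf A x (fun _ => 1)]
  simp

lemma meas_add_joint {F : Multiset X → ℝ≥0∞} (hF : Meas F) {A : Set X} (hA : MeasurableSet A) :
    ∀ n k : ℕ, Measurable (fun p : (Fin k → X) × (Fin n → X) => F (conf p.1 + res A (conf p.2))) := by
  intro n
  induction n with
  | zero =>
    intro k
    have : (fun p : (Fin k → X) × (Fin 0 → X) => F (conf p.1 + res A (conf p.2)))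
        = (fun x : Fin k → X => F (conf x)) ∘ Prod.fst := by
      funext p; simp
    rw [this]
    exact (hF k).comp measurable_fst
  | succ n ih =>
    intro k
    have hfun : (fun p : (Fin k → X) × (Fin (n+1) → X) => F (conf p.1 + res A (conf p.2)))
        = fun p => @ite _ (p.2 0 ∈ A) (Classical.dec _)
            (F (conf (Fin.cons (p.2 0) p.1 : Fin (k+1) → X) + res A (conf (fun i => p.2 i.succ))))
            (F (conf p.1 + res A (conf (fun i => p.2 i.succ)))) := by
      funext p
      have hp : conf p.2 = p.2 0 ::ₘ conf (fun i : Fin n => p.2 i.succ) := by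
        rw [← conf_cons]
        congr 1
        exact (Fin.cons_self_tail p.2).symm
      by_cases h : p.2 0 ∈ A
      · rw [if_pos h, hp, res_cons_mem h, conf_cons]
        congr 1
        rw [Multiset.add_cons, Multiset.cons_add]
      · rw [if_neg h, hp, res_cons_not_mem h]
    rw [hfun]
    have m0 : Measurable (fun p : (Fin k → X) × (Fin (n+1) → X) => p.2 0) :=
      (measurable_pi_apply 0).comp measurable_snd
    have mt : Measurable (fun p : (Fin k → X) × (Fin (n+1) → X) => (fun i : Fin n => p.2 i.succ)) := by
      refine measurable_pi_iff.2 (fun i => ?_)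
      exact (measurable_pi_apply i.succ).comp measurable_snd
    have mc : Measurable (fun p : (Fin k → X) × (Fin (n+1) → X) => (Fin.cons (p.2 0) p.1 : Fin (k+1) → X)) := by
      refine measurable_pi_iff.2 (fun i => ?_)
      refine Fin.cases ?_ (fun j => ?_) i
      · simpa using m0
      · simp only [Fin.cons_succ]
        exact (measurable_pi_apply j).comp measurable_fst
    refine Measurable.ite (m0 hA) ?_ ?_
    · exact (ih (k+1)).comp (mc.prodMk mt)
    · exact (ih k).comp (measurable_fst.prodMk mt)

lemma Meas.res {F : Multiset X → ℝ≥0∞} (hF : Meas F) {A : Set X} (hA : MeasurableSet A) :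
    Meas (fun s => F (Vale.Agent.Lib.P171.res A s)) := by
  intro n
  have h := (meas_add_joint hF hA n 0).comp (measurable_const (a := (fun i : Fin 0 => i.elim0)).prodMk measurable_id)
  simpa [Function.comp_def] using h

variable [SigmaFinite (volume : Measure X)]

lemma I_congr {n : ℕ} {A : Set X} (hA : MeasurableSet A) {F F' : Multiset X → ℝ≥0∞}
    (h : ∀ s : Multiset X, (∀ x ∈ s, x ∈ A) → F s = F' s) : I n A F = I n A F' := by
  unfold I
  refine setLIntegral_congr_fun (measurableSet_cyl n hA) ?_
  intro x hx
  refine h _ ?_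
  intro y hy
  obtain ⟨i, rfl⟩ := (mem_conf x y).1 hy
  exact hx i

lemma G_congr {A : Set X} (hA : MeasurableSet A) {F F' : Multiset X → ℝ≥0∞}
    (h : ∀ s : Multiset X, (∀ x ∈ s, x ∈ A) → F s = F' s) : G A F = G A F' := by
  unfold G
  refine tsum_congr (fun n => ?_)
  rw [I_congr hA h]

lemma G_prod_res {ι : Type} [DecidableEq ι] (C : Finset ι) (A : ι → Set X)
    (hA : ∀ c ∈ C, MeasurableSet (A c))
    (hd : ∀ c ∈ C, ∀ d ∈ C, c ≠ d → Disjoint (A c) (A d))
    (F : ι → Multiset X → ℝ≥0∞) (hF : ∀ c ∈ C, Meas (F c)) :
    G (⋃ c ∈ C, A c) (fun s => ∏ c ∈ C, F c (res (A c) s)) = ∏ c ∈ C, G (A c) (F c) := by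
  rw [G_prod C A hA hd (fun c s => F c (res (A c) s)) (fun c hc => (hF c hc).res (hA c hc))
    (fun c _ x hx s => by simp only [res_cons_not_mem hx])]
  refine Finset.prod_congr rfl (fun c hc => ?_)
  refine G_congr (hA c hc) (fun s hs => ?_)
  rw [res_eq_self hs]

end General

end Vale.Agent.Lib.P171
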