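import Mathlib
import Vale.Agent.Lib.P171.Restrict
import Vale.Agent.Lib.P171.Geom

/-! Quadratic functionals of configurations and their grand canonical integrals. -/

open MeasureTheory Set
open scoped ENNReal

namespace Vale.Agent.Lib.P171

/-- Sum of a kernel over all ordered pairs of points. -/
noncomputable def pS (K : E3 → E3 → ℝ) (s : Multiset E3) : ℝ :=
  (s.map (fun x => (s.map (fun y => K x y)).sum)).sum

/-- Exponential of a quadratic functional. -/
noncomputable def Ex (μ : ℝ) (K : E3 → E3 → ℝ) (s : Multiset E3) : ℝ≥0∞ :=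
  ENNReal.ofReal (Real.exp (μ * s.card + pS K s))

lemma pS_conf (K : E3 → E3 → ℝ) {n : ℕ} (x : Fin n → E3) :
    pS K (conf x) = ∑ i, ∑ j, K (x i) (x j) := by
  unfold pS
  rw [sum_conf]
  refine Finset.sum_congr rfl (fun i _ => ?_)
  rw [sum_conf]

open Classical in
lemma pS_res_conf (K : E3 → E3 → ℝ) (A : Set E3) {n : ℕ} (x : Fin n → E3) :
    pS K (res A (conf x)) = ∑ i, ∑ j, if x i ∈ A ∧ x j ∈ A then K (x i) (x j) else 0 := by
  unfold pS
  rw [sum_res_conf]
  refine Finset.sum_congr rfl (fun i _ => ?_)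
  by_cases hi : x i ∈ A
  · rw [if_pos hi, sum_res_conf]
    simp [hi]
  · simp [hi]

lemma Ex_conf (μ : ℝ) (K : E3 → E3 → ℝ) {n : ℕ} (x : Fin n → E3) :
    Ex μ K (conf x) = ENNReal.ofReal (Real.exp (μ * n + ∑ i, ∑ j, K (x i) (x j))) := by
  unfold Ex
  rw [card_conf, pS_conf]

lemma meas_Ex (μ : ℝ) {K : E3 → E3 → ℝ} (hK : Measurable (Function.uncurry K)) : Meas (Ex μ K) := by
  intro n
  simp_rw [Ex_conf]
  refine ENNReal.measurable_ofReal.comp (Real.measurable_exp.comp (measurable_const.add ?_))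
  refine Finset.measurable_fun_sum _ (fun i _ => Finset.measurable_fun_sum _ (fun j _ => ?_))
  have h2 : Measurable (fun x : Fin n → E3 => (x i, x j)) := (measurable_pi_apply i).prodMk (measurable_pi_apply j)
  exact hK.comp h2

/-- Splitting of quadratic functionals over disjoint labelled regions. -/
lemma sum_split {κ : Type} [DecidableEq κ] (C : Finset κ) (A : κ → Set E3) (lab : E3 → κ)
    (hA : ∀ e ∈ C, ∀ x ∈ A e, lab x = e) {n : ℕ} (x : Fin n → E3)
    (hx : ∀ i, ∃ e ∈ C, x i ∈ A e) (μ : ℝ) (K : E3 → E3 → ℝ) :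
    ∑ e ∈ C, (μ * (res (A e) (conf x)).card + pS K (res (A e) (conf x)))
      = μ * n + ∑ i, ∑ j, if lab (x i) = lab (x j) then K (x i) (x j) else 0 := by
  classical
  have hmem : ∀ i, ∀ e ∈ C, (x i ∈ A e ↔ lab (x i) = e) := by
    intro i e he
    constructor
    · exact hA e he (x i)
    · intro hl
      obtain ⟨e', he', hx'⟩ := hx i
      have := hA e' he' _ hx'
      rw [hl] at this
      subst this
      exact hx'
  have hlabC : ∀ i, lab (x i) ∈ C := by
    intro i
    obtain ⟨e', he', hx'⟩ := hx i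
    rw [hA e' he' _ hx']
    exact he'
  rw [Finset.sum_add_distrib, ← Finset.mul_sum]
  congr 1
  · congr 1
    have h1 : ∀ e ∈ C, ((res (A e) (conf x)).card : ℝ) = ∑ i, if lab (x i) = e then (1:ℝ) else 0 := by
      intro e he
      rw [card_res_conf]
      refine Finset.sum_congr rfl (fun i _ => ?_)
      simp only [hmem i e he]
    rw [Finset.sum_congr rfl h1, Finset.sum_comm]
    have h2 : ∀ i ∈ (Finset.univ : Finset (Fin n)), ∑ e ∈ C, (if lab (x i) = e then (1:ℝ) else 0) = 1 := by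
      intro i _
      rw [Finset.sum_ite_eq C (lab (x i)) (fun _ => (1:ℝ)), if_pos (hlabC i)]
    rw [Finset.sum_congr rfl h2]
    simp
  · have h1 : ∀ e ∈ C, pS K (res (A e) (conf x))
        = ∑ i, ∑ j, if lab (x i) = e then (if lab (x j) = e then K (x i) (x j) else 0) else 0 := by
      intro e he
      rw [pS_res_conf]
      refine Finset.sum_congr rfl (fun i _ => Finset.sum_congr rfl (fun j _ => ?_))
      simp only [hmem i e he, hmem j e he, ite_and]
    rw [Finset.sum_congr rfl h1, Finset.sum_comm]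
    refine Finset.sum_congr rfl (fun i _ => ?_)
    rw [Finset.sum_comm]
    refine Finset.sum_congr rfl (fun j _ => ?_)
    rw [Finset.sum_ite_eq C (lab (x i)) (fun e => if lab (x j) = e then K (x i) (x j) else 0), if_pos (hlabC i)]
    simp only [eq_comm]

lemma prod_Ex_res {κ : Type} [DecidableEq κ] (C : Finset κ) (A : κ → Set E3) (lab : E3 → κ)
    (hA : ∀ e ∈ C, ∀ x ∈ A e, lab x = e) {n : ℕ} (x : Fin n → E3)
    (hx : ∀ i, ∃ e ∈ C, x i ∈ A e) (μ : ℝ) (K : E3 → E3 → ℝ) :
    ∏ e ∈ C, Ex μ K (res (A e) (conf x))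
      = ENNReal.ofReal (Real.exp (μ * n + ∑ i, ∑ j, if lab (x i) = lab (x j) then K (x i) (x j) else 0)) := by
  unfold Ex
  rw [← ENNReal.ofReal_prod_of_nonneg (fun e _ => (Real.exp_pos _).le), ← Real.exp_sum,
    sum_split C A lab hA x hx μ K]

/-- labelled configurations are almost surely injective -/
lemma ae_inj (n : ℕ) : ∀ᵐ x : Fin n → E3, Function.Injective x := by
  have h : ∀ i j : Fin n, i ≠ j → ∀ᵐ x : Fin n → E3, x i ≠ x j := by
    intro i j hij
    set s : Submodule ℝ (Fin n → E3) :=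
      LinearMap.ker ((LinearMap.proj i : (Fin n → E3) →ₗ[ℝ] E3) - (LinearMap.proj j : (Fin n → E3) →ₗ[ℝ] E3)) with hs
    have hne : s ≠ ⊤ := by
      intro htop
      have : (Pi.single i (EuclideanSpace.single 0 1) : Fin n → E3) ∈ s := by rw [htop]; trivial
      rw [hs, LinearMap.mem_ker] at this
      simp only [LinearMap.sub_apply, LinearMap.proj_apply, Pi.single_eq_same] at this
      rw [Pi.single_eq_of_ne hij.symm, sub_zero] at this
      have h0 := congrArg (fun v : E3 => v 0) this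
      simp at h0
    have h0 := Measure.addHaar_submodule (volume : Measure (Fin n → E3)) s hne
    rw [ae_iff]
    convert h0 using 2
    ext x
    simp [hs, sub_eq_zero]
  have h2 : ∀ᵐ x : Fin n → E3, ∀ i j : Fin n, i ≠ j → x i ≠ x j := by
    rw [ae_all_iff]; intro i
    rw [ae_all_iff]; intro j
    by_cases hij : i = j
    · simp [hij]
    · filter_upwards [h i j hij] with x hx _ using hx
  filter_upwards [h2] with x hx i j hij
  by_contra hne
  exact hx i j hne hij

/-- Upper decoupling. -/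
lemma G_le_prod {κ : Type} [DecidableEq κ] (C : Finset κ) (A : κ → Set E3) (lab : E3 → κ)
    (hAm : ∀ e ∈ C, MeasurableSet (A e)) (hA : ∀ e ∈ C, ∀ x ∈ A e, lab x = e) (μ : ℝ)
    (K K' : E3 → E3 → ℝ) (hK' : Measurable (Function.uncurry K'))
    (h : ∀ (n : ℕ) (x : Fin n → E3), Function.Injective x → (∀ i, ∃ e ∈ C, x i ∈ A e) →
      ∑ i, ∑ j, K (x i) (x j) ≤ ∑ i, ∑ j, if lab (x i) = lab (x j) then K' (x i) (x j) else 0) :
    G (⋃ e ∈ C, A e) (Ex μ K) ≤ ∏ e ∈ C, G (A e) (Ex μ K') := by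
  have hd : ∀ c ∈ C, ∀ d ∈ C, c ≠ d → Disjoint (A c) (A d) := by
    intro c hc d hd hcd
    rw [Set.disjoint_left]
    intro x hxc hxd
    exact hcd ((hA c hc x hxc).symm.trans (hA d hd x hxd))
  rw [← G_prod_res C A hAm hd (fun _ => Ex μ K') (fun _ _ => meas_Ex μ hK')]
  refine G_mono (Finset.measurableSet_biUnion C hAm) (subset_refl _) ae_inj ?_
  intro s hs hsA
  obtain ⟨n, x, rfl⟩ := exists_conf s
  have hx : ∀ i, ∃ e ∈ C, x i ∈ A e := by
    intro i
    have := hsA (x i) ((mem_conf x _).2 ⟨i, rfl⟩)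
    simpa using this
  have hinj : Function.Injective x := by
    intro i j hij
    exact (Multiset.inj_on_of_nodup_map hs) i (by simp) j
      (by simp) hij
  rw [prod_Ex_res C A lab hA x hx μ K', Ex_conf]
  refine ENNReal.ofReal_le_ofReal (Real.exp_le_exp.2 ?_)
  linarith [h n x hinj hx]

/-- Lower decoupling. -/
lemma prod_le_G {κ : Type} [DecidableEq κ] (C : Finset κ) (A : κ → Set E3) (lab : E3 → κ)
    (hAm : ∀ e ∈ C, MeasurableSet (A e)) (hA : ∀ e ∈ C, ∀ x ∈ A e, lab x = e) (μ : ℝ)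
    (K K' : E3 → E3 → ℝ) (hK' : Measurable (Function.uncurry K'))
    (h : ∀ (n : ℕ) (x : Fin n → E3), Function.Injective x → (∀ i, ∃ e ∈ C, x i ∈ A e) →
      ∑ i, ∑ j, (if lab (x i) = lab (x j) then K' (x i) (x j) else 0) ≤ ∑ i, ∑ j, K (x i) (x j)) :
    ∏ e ∈ C, G (A e) (Ex μ K') ≤ G (⋃ e ∈ C, A e) (Ex μ K) := by
  have hd : ∀ c ∈ C, ∀ d ∈ C, c ≠ d → Disjoint (A c) (A d) := by
    intro c hc d hd hcd
    rw [Set.disjoint_left]
    intro x hxc hxd
    exact hcd ((hA c hc x hxc).symm.trans (hA d hd x hxd))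
  rw [← G_prod_res C A hAm hd (fun _ => Ex μ K') (fun _ _ => meas_Ex μ hK')]
  refine G_mono (Finset.measurableSet_biUnion C hAm) (subset_refl _) ae_inj ?_
  intro s hs hsA
  obtain ⟨n, x, rfl⟩ := exists_conf s
  have hx : ∀ i, ∃ e ∈ C, x i ∈ A e := by
    intro i
    have := hsA (x i) ((mem_conf x _).2 ⟨i, rfl⟩)
    simpa using this
  have hinj : Function.Injective x := by
    intro i j hij
    exact (Multiset.inj_on_of_nodup_map hs) i (by simp) j
      (by simp) hij
  rw [prod_Ex_res C A lab hA x hx μ K', Ex_conf]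
  refine ENNReal.ofReal_le_ofReal (Real.exp_le_exp.2 ?_)
  linarith [h n x hinj hx]

end Vale.Agent.Lib.P171
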