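import Mathlib
import Vale.Agent.Lib.P171.Func

/-! Boxes, cells, translations, volumes. -/

open MeasureTheory Set
open scoped ENNReal

namespace Vale.Agent.Lib.P171

/-- cell with label `e` at scale `h` -/
def Q (h : ℝ) (e : Fin 3 → ℤ) : Set E3 := {x | cb h x = e}

/-- half-open box of side `n` -/
def B (n : ℕ) : Set E3 := {x | ∀ t, 0 ≤ x t ∧ x t < n}

/-- labels of the cells in a box -/
noncomputable def cubes (n : ℕ) : Finset (Fin 3 → ℤ) := Fintype.piFinset (fun _ => Finset.Ico (0:ℤ) n)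

lemma mem_cubes {n : ℕ} {k : Fin 3 → ℤ} : k ∈ cubes n ↔ ∀ t, 0 ≤ k t ∧ k t < n := by
  simp [cubes]

lemma card_cubes (n : ℕ) : (cubes n).card = n^3 := by
  simp [cubes, Fintype.card_piFinset]

lemma measurableSet_Q (h : ℝ) (e : Fin 3 → ℤ) : MeasurableSet (Q h e) :=
  measurable_cb h (measurableSet_singleton e)

lemma measurableSet_B (n : ℕ) : MeasurableSet (B n) := by
  have : B n = ⋂ t, ((fun x : E3 => x t) ⁻¹' (Set.Ico 0 (n:ℝ))) := by
    ext x; simp [B]
  rw [this]
  exact MeasurableSet.iInter (fun t => measurable_coord t measurableSet_Ico)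

lemma mem_Q {h : ℝ} (hh : 0 < h) {e : Fin 3 → ℤ} {x : E3} :
    x ∈ Q h e ↔ ∀ t, h * e t ≤ x t ∧ x t < h * e t + h := by
  unfold Q cb
  simp only [Set.mem_ofPred_eq, funext_iff, Int.floor_eq_iff]
  refine forall_congr' (fun t => ?_)
  rw [le_div_iff₀ hh, div_lt_iff₀ hh]
  constructor <;> rintro ⟨h1, h2⟩ <;> constructor <;> linarith

lemma B_eq_biUnion (q l : ℕ) (hl : 0 < l) : B (q * l) = ⋃ e ∈ cubes q, Q l e := by
  have hl' : (0:ℝ) < l := by exact_mod_cast hl
  ext x
  simp only [Set.mem_iUnion, exists_prop]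
  constructor
  · intro hx
    refine ⟨cb l x, ?_, rfl⟩
    rw [mem_cubes]
    intro t
    obtain ⟨h1, h2⟩ := hx t
    unfold cb
    constructor
    · exact Int.floor_nonneg.2 (div_nonneg h1 hl'.le)
    · rw [Int.floor_lt, div_lt_iff₀ hl']
      push_cast at h2 ⊢
      exact h2
  · rintro ⟨e, he, hx⟩ t
    rw [mem_Q hl'] at hx
    obtain ⟨h1, h2⟩ := hx t
    obtain ⟨h3, h4⟩ := mem_cubes.1 he t
    have h3' : (0:ℝ) ≤ e t := by exact_mod_cast h3
    have h4' : (e t : ℝ) + 1 ≤ q := by exact_mod_cast h4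
    constructor
    · exact (mul_nonneg hl'.le h3').trans h1
    · push_cast
      calc x t < l * e t + l := h2
        _ = l * (e t + 1) := by ring
        _ ≤ l * q := by gcongr
        _ = q * l := by ring

/-- integer multiple vector -/
noncomputable def vec (h : ℝ) (e : Fin 3 → ℤ) : E3 := WithLp.toLp 2 (fun t => h * e t)

@[simp] lemma vec_apply (h : ℝ) (e : Fin 3 → ℤ) (t : Fin 3) : vec h e t = h * e t := rfl

lemma Q_eq_translate (l : ℕ) (hl : 0 < l) (e : Fin 3 → ℤ) : Q l e = {x | x - vec l e ∈ B l} := by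
  have hl' : (0:ℝ) < l := by exact_mod_cast hl
  ext x
  rw [mem_Q hl']
  simp only [B, Set.mem_ofPred_eq, PiLp.sub_apply, vec_apply]
  refine forall_congr' (fun t => ?_)
  constructor <;> rintro ⟨h1, h2⟩ <;> constructor <;> linarith

lemma G_translate {A : Set E3} (hA : MeasurableSet A) (v : E3) {F : Multiset E3 → ℝ≥0∞} (hF : Meas F) :
    G {x | x - v ∈ A} F = G A (fun s => F (s.map (fun x => x + v))) := by
  unfold G
  refine tsum_congr (fun n => ?_)
  congr 1
  unfold I
  have hmp : MeasurePreserving (fun x : Fin n → E3 => x + (fun _ => v)) volume volume :=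
    measurePreserving_add_right volume (fun _ => v)
  have hm : MeasurableSet (cyl n {x | x - v ∈ A}) := by
    refine measurableSet_cyl n ?_
    exact (measurable_id.sub_const v) hA
  rw [← hmp.setLIntegral_comp_preimage hm (hF n)]
  have h1 : (fun x : Fin n → E3 => x + (fun _ => v)) ⁻¹' (cyl n {x | x - v ∈ A}) = cyl n A := by
    ext x
    simp [cyl]
  rw [h1]
  refine lintegral_congr (fun x => ?_)
  congr 1
  unfold conf
  rw [Multiset.map_map]
  rfl

lemma pS_translate (K : E3 → E3 → ℝ) (v : E3) (hK : ∀ x y, K (x + v) (y + v) = K x y) (s : Multiset E3) :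
    pS K (s.map (fun x => x + v)) = pS K s := by
  unfold pS
  simp [Multiset.map_map, hK]

lemma G_Ex_translate {A : Set E3} (hA : MeasurableSet A) (v : E3) (μ : ℝ) {K : E3 → E3 → ℝ}
    (hKm : Measurable (Function.uncurry K)) (hK : ∀ x y, K (x + v) (y + v) = K x y) :
    G {x | x - v ∈ A} (Ex μ K) = G A (Ex μ K) := by
  rw [G_translate hA v (meas_Ex μ hKm)]
  congr 1
  funext s
  unfold Ex
  rw [pS_translate K v hK, Multiset.card_map]

lemma volume_Q_one (k : Fin 3 → ℤ) : volume (Q 1 k) = 1 := by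
  have h1 : Q 1 k = (@WithLp.ofLp 2 (Fin 3 → ℝ)) ⁻¹' (Set.pi Set.univ (fun t => Set.Ico (k t : ℝ) (k t + 1))) := by
    ext x
    rw [mem_Q one_pos]
    simp
  rw [h1, (PiLp.volume_preserving_ofLp (Fin 3)).measure_preimage, volume_pi_pi]
  · simp
  · exact (MeasurableSet.univ_pi (fun _ => measurableSet_Ico)).nullMeasurableSet

/-- Poisson type integrals. -/
lemma G_card {A : Set E3} (hA : MeasurableSet A) (hv : volume A = 1) (b : ℝ) :
    G A (Ex b (fun _ _ => 0)) = ENNReal.ofReal (Real.exp (Real.exp b)) := by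
  unfold G
  have h1 : ∀ n : ℕ, I n A (Ex b (fun _ _ => 0)) = ENNReal.ofReal (Real.exp b ^ n) := by
    intro n
    unfold I
    have : ∀ x : Fin n → E3, Ex b (fun _ _ => 0) (conf x) = ENNReal.ofReal (Real.exp b ^ n) := by
      intro x
      rw [Ex_conf]
      simp only [Finset.sum_const_zero, add_zero]
      rw [mul_comm, Real.exp_nat_mul]
    simp_rw [this]
    rw [setLIntegral_const]
    have hc : cyl n A = Set.pi Set.univ (fun _ : Fin n => A) := by
      ext x; simp [cyl]
    rw [hc, volume_pi_pi]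
    simp [hv]
  simp_rw [h1]
  have h2 : ∀ n : ℕ, ((n.factorial : ℝ≥0∞))⁻¹ * ENNReal.ofReal (Real.exp b ^ n)
      = ENNReal.ofReal (Real.exp b ^ n / n.factorial) := by
    intro n
    rw [div_eq_inv_mul, ENNReal.ofReal_mul (by positivity), ENNReal.ofReal_inv_of_pos (by positivity),
      ENNReal.ofReal_natCast]
  simp_rw [h2]
  rw [← ENNReal.ofReal_tsum_of_nonneg (fun n => by positivity) (Real.summable_pow_div_factorial _)]
  congr 1
  rw [Real.exp_eq_exp_ℝ]
  exact (congrFun (NormedSpace.exp_eq_tsum_div (𝔸 := ℝ)) _).symm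

end Vale.Agent.Lib.P171
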