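import Mathlib
import Vale.Agent.Lib.P171.Geom

/-! Deterministic energy inequalities. -/

open MeasureTheory Set
open scoped ENNReal

namespace Vale.Agent.Lib.P171

/-- The Schur constant. -/
noncomputable def KK : ℝ := 2197 / 2

lemma pair_bound {n : ℕ} (x : Fin n → E3) {h : ℝ} (hh : 0 < h) (M : ℕ) {κ : ℝ} (hκ : 0 ≤ κ)
    (f : ℝ → ℝ) (hf : ∀ r, 0 ≤ r → f r ≤ κ) (hf0 : ∀ r, M * h ≤ r → f r ≤ 0)
    (S : (Fin 3 → ℤ) → (Fin 3 → ℤ) → Prop) [∀ k k', Decidable (S k k')]
    (hS : ∀ k k', S k k' → S k' k)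
    (Bd : (Fin 3 → ℤ) → Prop) [DecidablePred Bd]
    (hBd : ∀ k k', near M k k' → S k k' → Bd k) :
    ∑ i, ∑ j, (if S (cb h (x i)) (cb h (x j)) then f (dist (x i) (x j)) else 0)
      ≤ κ * ((2 * M + 1)^3 : ℕ) * ∑ i, ∑ j, if cb h (x i) = cb h (x j) ∧ Bd (cb h (x i)) then (1:ℝ) else 0 := by
  have h1 := schur_near (fun i => cb h (x i)) M S hS Bd hBd
  have h2 : ∑ i, ∑ j, (if S (cb h (x i)) (cb h (x j)) then f (dist (x i) (x j)) else 0)
      ≤ κ * ∑ i, ∑ j, (if near M (cb h (x i)) (cb h (x j)) ∧ S (cb h (x i)) (cb h (x j)) then (1:ℝ) else 0) := by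
    rw [Finset.mul_sum]
    refine Finset.sum_le_sum (fun i _ => ?_)
    rw [Finset.mul_sum]
    refine Finset.sum_le_sum (fun j _ => ?_)
    by_cases hSS : S (cb h (x i)) (cb h (x j))
    · by_cases hd : dist (x i) (x j) < M * h
      · have hn := cb_near hh hd
        simp only [hSS, hn, and_self, if_true, mul_one]
        exact hf _ dist_nonneg
      · push Not at hd
        rw [if_pos hSS]
        refine (hf0 _ hd).trans ?_
        positivity
    · simp [hSS]
  calc _ ≤ _ := h2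
    _ ≤ κ * (((2 * M + 1)^3 : ℕ) * ∑ i, ∑ j, if cb h (x i) = cb h (x j) ∧ Bd (cb h (x i)) then (1:ℝ) else 0) :=
        mul_le_mul_of_nonneg_left h1 hκ
    _ = _ := by ring

lemma ker_zero_of_le {j : ℕ} {r : ℝ} (h : 6 * ((j:ℝ) + 1) ≤ r) : ker j r = 0 := by
  unfold ker
  rw [if_neg]
  rintro ⟨_, h2⟩
  linarith

lemma ker_const (j : ℕ) : (((j:ℝ) + 1)^3)⁻¹ * (((2 * (6 * (j+1)) + 1)^3 : ℕ) : ℝ) ≤ 2197 := by
  have hj : (0:ℝ) ≤ j := Nat.cast_nonneg j
  rw [inv_mul_le_iff₀ (by positivity)]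
  push_cast
  have : (2 * (6 * ((j:ℝ)+1)) + 1) ≤ 13 * ((j:ℝ) + 1) := by linarith
  calc (2 * (6 * ((j:ℝ)+1)) + 1)^3 ≤ (13 * ((j:ℝ) + 1))^3 := by gcongr
    _ = ((j:ℝ) + 1)^3 * 2197 := by ring

/-- Bound of the attractive interaction at unit scale, with a relation `S`. -/
lemma ker_pair_bound {n : ℕ} (x : Fin n → E3) (j : ℕ)
    (S : (Fin 3 → ℤ) → (Fin 3 → ℤ) → Prop) [∀ k k', Decidable (S k k')]
    (hS : ∀ k k', S k k' → S k' k)
    (Bd : (Fin 3 → ℤ) → Prop) [DecidablePred Bd]
    (hBd : ∀ k k', near (6 * (j+1)) k k' → S k k' → Bd k) :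
    ∑ i, ∑ i', (if S (cb 1 (x i)) (cb 1 (x i')) then ker j (dist (x i) (x i')) else 0)
      ≤ 2197 * ∑ i, ∑ i', if cb 1 (x i) = cb 1 (x i') ∧ Bd (cb 1 (x i)) then (1:ℝ) else 0 := by
  have h := pair_bound x one_pos (6 * (j+1)) (κ := (((j:ℝ) + 1)^3)⁻¹) (by positivity) (ker j)
    (fun r _ => ker_le j r) (fun r hr => (ker_zero_of_le (by push_cast at hr; linarith)).le) S hS Bd hBd
  refine h.trans (mul_le_mul_of_nonneg_right (ker_const j) ?_)
  exact Finset.sum_nonneg (fun i _ => Finset.sum_nonneg (fun j _ => by positivity))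

/-- Bound of the attractive interaction at scale `j+1`. -/
lemma ker_cell_bound {n : ℕ} (x : Fin n → E3) (j : ℕ) :
    ∑ i, ∑ i', ker j (dist (x i) (x i'))
      ≤ 2197 * (((j:ℝ) + 1)^3)⁻¹ * ∑ i, ∑ i', if cb (j+1) (x i) = cb (j+1) (x i') then (1:ℝ) else 0 := by
  have h := pair_bound x (h := (j:ℝ)+1) (by positivity) 6 (κ := (((j:ℝ) + 1)^3)⁻¹) (by positivity) (ker j)
    (fun r _ => ker_le j r) (fun r hr => (ker_zero_of_le (by push_cast at hr; linarith)).le)
    (fun _ _ => True) (fun _ _ _ => trivial) (fun _ => True) (fun _ _ _ _ => trivial)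
  simp only [if_true, and_true] at h
  refine h.trans (le_of_eq ?_)
  have e : (((2 * 6 + 1)^3 : ℕ) : ℝ) = 2197 := by norm_num
  rw [e, mul_comm (2197:ℝ)]

/-- phi0 is large for two distinct points in a small cube. -/
lemma phi0_large {m : ℕ} (hm : 2 ≤ m) {x y : E3} (hxy : x ≠ y) (h : ∀ i, |x i - y i| ≤ 1 / (m:ℝ)) :
    (m:ℝ)^4 / 9 ≤ phi0 (dist x y) := by
  have hmpos : (0:ℝ) < m := by positivity
  have hd0 : 0 < dist x y := dist_pos.2 hxy
  have hd := dist_sq_le h
  have hm2 : (2:ℝ) ≤ m := by exact_mod_cast hm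
  have hd2 : dist x y ^ 2 ≤ 3 / (m:ℝ)^2 := by
    calc dist x y ^ 2 ≤ 3 * (1 / (m:ℝ))^2 := hd
      _ = 3 / (m:ℝ)^2 := by ring
  have hlt : dist x y < 1 := by
    have : dist x y ^ 2 < 1 := by
      refine hd2.trans_lt ?_
      rw [div_lt_one (by positivity)]
      nlinarith
    by_contra hcon
    push Not at hcon
    nlinarith
  unfold phi0
  rw [if_pos ⟨hd0, hlt⟩]
  rw [div_le_iff₀ (by norm_num), ← div_eq_inv_mul, le_div_iff₀ (by positivity)]
  have h4 : dist x y ^ 4 ≤ 9 / (m:ℝ)^4 := by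
    calc dist x y ^ 4 = (dist x y ^ 2)^2 := by ring
      _ ≤ (3 / (m:ℝ)^2)^2 := by gcongr
      _ = 9 / (m:ℝ)^4 := by ring
  calc (m:ℝ)^4 * dist x y ^ 4 ≤ (m:ℝ)^4 * (9 / (m:ℝ)^4) := by gcongr
    _ = 9 := by field_simp

/-- Superstability with cube dependent constants. -/
lemma superstable {n : ℕ} (x : Fin n → E3) (hx : Function.Injective x) (m : (Fin 3 → ℤ) → ℕ)
    (hm : ∀ k, 2 ≤ m k) :
    ∑ i, ∑ j, (if cb 1 (x i) = cb 1 (x j) then (m (cb 1 (x i)) : ℝ) else 0)
      ≤ 9 * ∑ i, ∑ j, phi0 (dist (x i) (x j)) + ∑ i, (m (cb 1 (x i)) : ℝ)^4 := by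
  classical
  set d : Fin n → (Fin 3 → ℤ) × (Fin 3 → ℤ) :=
    fun i => (cb 1 (x i), fun t => ⌊(m (cb 1 (x i)) : ℝ) * x i t⌋) with hd
  have h := schur d (fun p q => if p.1 = q.1 then (m p.1 : ℝ) else 0)
    (by
      intro p q
      by_cases hpq : p.1 = q.1
      · simp [hpq]
      · have : ¬ q.1 = p.1 := fun h => hpq h.symm
        simp [hpq, this])
    (by intro p q; positivity)
    (fun p => (m p.1 : ℝ)^4)
    (by
      intro i
      rw [← Finset.sum_filter, Finset.sum_const, nsmul_eq_mul]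
      have hcard : ((Finset.univ.image d).filter (fun q => (d i).1 = q.1)).card ≤ (m (d i).1)^3 := by
        have hsub : (Finset.univ.image d).filter (fun q => (d i).1 = q.1)
            ⊆ (Finset.Icc (fun t => (m (d i).1 : ℤ) * (d i).1 t) (fun t => (m (d i).1 : ℤ) * (d i).1 t + (m (d i).1 : ℤ) - 1)).image
              (fun u => ((d i).1, u)) := by
          intro q hq
          rw [Finset.mem_filter, Finset.mem_image] at hq
          obtain ⟨⟨j, _, rfl⟩, hij⟩ := hq
          rw [Finset.mem_image]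
          refine ⟨(d j).2, ?_, ?_⟩
          · rw [Finset.mem_Icc]
            have hmj : (0:ℝ) < (m (cb 1 (x j)) : ℝ) := by
              have := hm (cb 1 (x j)); positivity
            rw [hij]
            constructor
            · intro t
              simp only [hd, cb, div_one]
              rw [Int.le_floor]
              push_cast
              exact mul_le_mul_of_nonneg_left (Int.floor_le _) (Nat.cast_nonneg _)
            · intro t
              simp only [hd, cb, div_one]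
              rw [Int.le_sub_one_iff, Int.floor_lt]
              push_cast
              have := Int.lt_floor_add_one (x j t)
              have hmj' : (0:ℝ) < (m (fun i => ⌊x j i⌋) : ℝ) := by
                have := hm (fun i => ⌊x j i⌋); positivity
              nlinarith
          · exact Prod.ext hij rfl
        refine (Finset.card_le_card hsub).trans (Finset.card_image_le.trans ?_)
        rw [Pi.card_Icc]
        simp only [Int.card_Icc]
        have : ∀ t : Fin 3, ((m (d i).1 : ℤ) * (d i).1 t + (m (d i).1 : ℤ) - 1 + 1 - (m (d i).1 : ℤ) * (d i).1 t).toNat = m (d i).1 := by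
          intro t; ring_nf; simp
        simp_rw [this]
        simp
      calc (((Finset.univ.image d).filter (fun q => (d i).1 = q.1)).card : ℝ) * (m (d i).1 : ℝ)
          ≤ ((m (d i).1)^3 : ℕ) * (m (d i).1 : ℝ) := by
            gcongr
        _ = (m (d i).1 : ℝ)^4 := by push_cast; ring)
  have h0 : ∑ i, ∑ j, (if cb 1 (x i) = cb 1 (x j) then (m (cb 1 (x i)) : ℝ) else 0)
      ≤ ∑ i, ∑ j, if d i = d j then (m (cb 1 (x i)) : ℝ)^4 else 0 := h
  refine h0.trans ?_
  rw [Finset.mul_sum, ← Finset.sum_add_distrib]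
  refine Finset.sum_le_sum (fun i _ => ?_)
  rw [Finset.mul_sum]
  have hsplit : ∑ j, (if d i = d j then (m (cb 1 (x i)) : ℝ)^4 else 0)
      ≤ ∑ j, (9 * phi0 (dist (x i) (x j)) + if i = j then (m (cb 1 (x i)) : ℝ)^4 else 0) := by
    refine Finset.sum_le_sum (fun j _ => ?_)
    by_cases hij : i = j
    · subst hij
      simp only [if_true]
      have := phi0_nonneg (dist (x i) (x i))
      linarith
    · by_cases hdd : d i = d j
      · rw [if_pos hdd, if_neg hij, add_zero]
        have hne : x i ≠ x j := fun h => hij (hx h)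
        have h1 : cb 1 (x i) = cb 1 (x j) := congrArg Prod.fst hdd
        have h2 : ∀ t, ⌊(m (cb 1 (x i)) : ℝ) * x i t⌋ = ⌊(m (cb 1 (x i)) : ℝ) * x j t⌋ := by
          intro t
          have := congrFun (congrArg Prod.snd hdd) t
          simp only [hd] at this
          rw [← h1] at this
          exact this
        have hmi : (0:ℝ) < (m (cb 1 (x i)) : ℝ) := by
          have := hm (cb 1 (x i)); positivity
        have h3 : ∀ t, |x i t - x j t| ≤ 1 / (m (cb 1 (x i)) : ℝ) := by
          intro t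
          have a1 := Int.floor_le ((m (cb 1 (x i)) : ℝ) * x i t)
          have a2 := Int.lt_floor_add_one ((m (cb 1 (x i)) : ℝ) * x i t)
          have b1 := Int.floor_le ((m (cb 1 (x i)) : ℝ) * x j t)
          have b2 := Int.lt_floor_add_one ((m (cb 1 (x i)) : ℝ) * x j t)
          rw [h2 t] at a1 a2
          have : |(m (cb 1 (x i)) : ℝ) * (x i t - x j t)| ≤ 1 := by
            rw [abs_le]; constructor <;> linarith
          rw [abs_mul, abs_of_pos hmi] at this
          rw [le_div_iff₀ hmi]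
          linarith
        have := phi0_large (hm (cb 1 (x i))) hne h3
        linarith
      · rw [if_neg hdd, if_neg hij, add_zero]
        have := phi0_nonneg (dist (x i) (x j))
        linarith
  refine hsplit.trans (le_of_eq ?_)
  rw [Finset.sum_add_distrib]
  simp

end Vale.Agent.Lib.P171
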