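import Mathlib
import Vale.Agent.Lib.P171.Ineq

/-! Energy inequalities for the full potential. -/

open MeasureTheory Set
open scoped ENNReal

namespace Vale.Agent.Lib.P171

/-- Admissible coefficient sequences. -/
structure Adm (a : ℕ → ℝ) : Prop where
  nn : ∀ j, 0 ≤ a j
  sm : Summable a

/-- Total mass. -/
noncomputable def mass (a : ℕ → ℝ) : ℝ := ∑' j, a j

lemma mass_nonneg {a : ℕ → ℝ} (h : Adm a) : 0 ≤ mass a := tsum_nonneg h.nn

/-- The attractive part of the potential. -/
noncomputable def psi (a : ℕ → ℝ) (r : ℝ) : ℝ := ∑' j, a j * ker j r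

lemma phi_eq (a : ℕ → ℝ) (r : ℝ) : phi a r = phi0 r - psi a r := rfl

lemma summable_ker {a : ℕ → ℝ} (h : Adm a) (r : ℝ) : Summable (fun j => a j * ker j r) := by
  refine Summable.of_nonneg_of_le (fun j => mul_nonneg (h.nn j) (ker_nonneg j r)) (fun j => ?_) h.sm
  exact mul_le_of_le_one_right (h.nn j) (ker_le_one j r)

lemma psi_nonneg {a : ℕ → ℝ} (h : Adm a) (r : ℝ) : 0 ≤ psi a r :=
  tsum_nonneg (fun j => mul_nonneg (h.nn j) (ker_nonneg j r))

lemma psi_le {a : ℕ → ℝ} (h : Adm a) (r : ℝ) : psi a r ≤ mass a :=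
  (summable_ker h r).tsum_le_tsum (fun j => mul_le_of_le_one_right (h.nn j) (ker_le_one j r)) h.sm

lemma sum_psi {a : ℕ → ℝ} (h : Adm a) {n : ℕ} (x : Fin n → E3) (S : Fin n → Fin n → Prop)
    [∀ i j, Decidable (S i j)] :
    ∑ i, ∑ i', (if S i i' then psi a (dist (x i) (x i')) else 0)
      = ∑' j, a j * ∑ i, ∑ i', (if S i i' then ker j (dist (x i) (x i')) else 0) := by
  have h1 : ∀ i i', (if S i i' then psi a (dist (x i) (x i')) else 0)
      = ∑' j, a j * (if S i i' then ker j (dist (x i) (x i')) else 0) := by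
    intro i i'
    split_ifs
    · rfl
    · simp
  have hs : ∀ i i', Summable (fun j => a j * (if S i i' then ker j (dist (x i) (x i')) else 0)) := by
    intro i i'
    split_ifs
    · exact summable_ker h _
    · simp
  simp_rw [h1]
  have h2 : ∀ i, ∑ i', ∑' j, a j * (if S i i' then ker j (dist (x i) (x i')) else 0)
      = ∑' j, ∑ i', a j * (if S i i' then ker j (dist (x i) (x i')) else 0) := by
    intro i
    exact (Summable.tsum_finsetSum (fun i' _ => hs i i')).symm
  simp_rw [h2]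
  rw [← Summable.tsum_finsetSum (fun i _ => summable_sum (fun i' _ => hs i i'))]
  refine tsum_congr (fun j => ?_)
  simp_rw [Finset.mul_sum]

lemma sum_psi_summable {a : ℕ → ℝ} (h : Adm a) {n : ℕ} (x : Fin n → E3) (S : Fin n → Fin n → Prop)
    [∀ i j, Decidable (S i j)] :
    Summable (fun j => a j * ∑ i, ∑ i', (if S i i' then ker j (dist (x i) (x i')) else 0)) := by
  have hs : ∀ i i', Summable (fun j => a j * (if S i i' then ker j (dist (x i) (x i')) else 0)) := by
    intro i i'
    split_ifs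
    · exact summable_ker h _
    · simp
  have : (fun j => a j * ∑ i, ∑ i', (if S i i' then ker j (dist (x i) (x i')) else 0))
      = fun j => ∑ i, ∑ i', a j * (if S i i' then ker j (dist (x i) (x i')) else 0) := by
    funext j
    simp_rw [Finset.mul_sum]
  rw [this]
  exact summable_sum (fun i _ => summable_sum (fun i' _ => hs i i'))

/-- Total attraction bounded by the number of pairs in common unit cubes. -/
lemma psi_total {a : ℕ → ℝ} (h : Adm a) {n : ℕ} (x : Fin n → E3) :
    ∑ i, ∑ i', psi a (dist (x i) (x i'))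
      ≤ 2197 * mass a * ∑ i, ∑ i', if cb 1 (x i) = cb 1 (x i') then (1:ℝ) else 0 := by
  have h0 := sum_psi h x (fun _ _ => True)
  have hs := sum_psi_summable h x (fun _ _ => True)
  simp only [if_true] at h0 hs
  rw [h0]
  have hb : ∀ j, a j * ∑ i, ∑ i', ker j (dist (x i) (x i'))
      ≤ a j * (2197 * ∑ i, ∑ i', if cb 1 (x i) = cb 1 (x i') then (1:ℝ) else 0) := by
    intro j
    refine mul_le_mul_of_nonneg_left ?_ (h.nn j)
    have := ker_pair_bound x j (fun _ _ => True) (fun _ _ _ => trivial) (fun _ => True) (fun _ _ _ _ => trivial)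
    simpa only [if_true, and_true] using this
  refine (hs.tsum_le_tsum hb (h.sm.mul_right _)).trans (le_of_eq ?_)
  rw [tsum_mul_right]
  unfold mass
  ring

/-- Stability with an additional quadratic term. -/
lemma stab {a : ℕ → ℝ} (h : Adm a) {n : ℕ} (x : Fin n → E3) (hx : Function.Injective x)
    (v : (Fin 3 → ℤ) → ℝ) (m : (Fin 3 → ℤ) → ℕ)
    (hm : ∀ k, 2 ≤ m k) (hmv : ∀ k, 18 * (KK * mass a + v k) ≤ m k) :
    -(1/2) * ∑ i, ∑ i', phi a (dist (x i) (x i')) + ∑ i, ∑ i', (if cb 1 (x i) = cb 1 (x i') then v (cb 1 (x i)) else 0)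
      ≤ (1/18) * ∑ i, (m (cb 1 (x i)) : ℝ)^4 := by
  have h1 := superstable x hx m hm
  have h2 := psi_total h x
  have h3 : ∑ i, ∑ i', phi a (dist (x i) (x i'))
      = ∑ i, ∑ i', phi0 (dist (x i) (x i')) - ∑ i, ∑ i', psi a (dist (x i) (x i')) := by
    simp_rw [phi_eq, Finset.sum_sub_distrib]
  have h4 : KK * mass a * (∑ i, ∑ i', if cb 1 (x i) = cb 1 (x i') then (1:ℝ) else 0)
      + ∑ i, ∑ i', (if cb 1 (x i) = cb 1 (x i') then v (cb 1 (x i)) else 0)
      ≤ (1/18) * ∑ i, ∑ j, (if cb 1 (x i) = cb 1 (x j) then (m (cb 1 (x i)) : ℝ) else 0) := by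
    rw [Finset.mul_sum, Finset.mul_sum, ← Finset.sum_add_distrib]
    refine Finset.sum_le_sum (fun i _ => ?_)
    rw [Finset.mul_sum, Finset.mul_sum, ← Finset.sum_add_distrib]
    refine Finset.sum_le_sum (fun j _ => ?_)
    by_cases hc : cb 1 (x i) = cb 1 (x j)
    · simp only [hc, if_true]
      have := hmv (cb 1 (x j))
      linarith
    · simp [hc]
  rw [h3]
  unfold KK at h4
  linarith

open Classical in
/-- unit cubes near the boundary of their cell -/
def Bdl (l : ℕ) (D : ℕ) (k : Fin 3 → ℤ) : Prop :=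
  ∃ k', near D k k' ∧ (fun i => k i / (l:ℤ)) ≠ (fun i => k' i / (l:ℤ))

/-- tail of the coefficients -/
noncomputable def tailA (a : ℕ → ℝ) (D : ℕ) : ℝ := ∑' j, if D < 6 * (j+1) then a j else 0

lemma summable_tailA {a : ℕ → ℝ} (h : Adm a) (D : ℕ) :
    Summable (fun j => if D < 6 * (j+1) then a j else 0) := by
  refine Summable.of_nonneg_of_le (fun j => ?_) (fun j => ?_) h.sm
  · split_ifs
    · exact h.nn j
    · exact le_rfl
  · split_ifs
    · exact le_rfl
    · exact h.nn j

lemma tailA_nonneg {a : ℕ → ℝ} (h : Adm a) (D : ℕ) : 0 ≤ tailA a D := by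
  refine tsum_nonneg (fun j => ?_)
  split_ifs
  · exact h.nn j
  · exact le_rfl

open Classical in
/-- weight of unit cubes in the decoupling inequality -/
noncomputable def ww (a : ℕ → ℝ) (l D : ℕ) (k : Fin 3 → ℤ) : ℝ :=
  KK * ((if Bdl l D k then mass a else 0) + tailA a D)

lemma ww_nonneg {a : ℕ → ℝ} (h : Adm a) (l D : ℕ) (k : Fin 3 → ℤ) : 0 ≤ ww a l D k := by
  unfold ww KK
  have := tailA_nonneg h D
  have := mass_nonneg h
  split_ifs <;> positivity

/-- Cross-cell attraction. -/
lemma psi_cross {a : ℕ → ℝ} (h : Adm a) {n : ℕ} (x : Fin n → E3) (l D : ℕ) :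
    (1/2) * ∑ i, ∑ i', (if cb l (x i) ≠ cb l (x i') then psi a (dist (x i) (x i')) else 0)
      ≤ ∑ i, ∑ i', (if cb 1 (x i) = cb 1 (x i') then ww a l D (cb 1 (x i)) else 0) := by
  classical
  rw [sum_psi h x (fun i i' => cb l (x i) ≠ cb l (x i'))]
  have hs := sum_psi_summable h x (fun i i' => cb l (x i) ≠ cb l (x i'))
  set Q : ℝ := ∑ i, ∑ i', if cb 1 (x i) = cb 1 (x i') ∧ Bdl l D (cb 1 (x i)) then (1:ℝ) else 0 with hQ
  set R : ℝ := ∑ i, ∑ i', if cb 1 (x i) = cb 1 (x i') then (1:ℝ) else 0 with hR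
  have hR0 : 0 ≤ R := Finset.sum_nonneg (fun i _ => Finset.sum_nonneg (fun j _ => by positivity))
  have hb : ∀ j, a j * ∑ i, ∑ i', (if cb l (x i) ≠ cb l (x i') then ker j (dist (x i) (x i')) else 0)
      ≤ (a j) * (2197 * Q) + (if D < 6 * (j+1) then a j else 0) * (2197 * R) := by
    intro j
    have h1 := ker_pair_bound x j (fun k k' => (fun i => k i / (l:ℤ)) ≠ (fun i => k' i / (l:ℤ)))
      (fun k k' hk => hk.symm) (Bdl l (6 * (j+1))) (fun k k' hn hk => ⟨k', hn, hk⟩)
    have h2 : ∀ i i', (cb l (x i) ≠ cb l (x i')) ↔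
        ((fun t => cb 1 (x i) t / (l:ℤ)) ≠ (fun t => cb 1 (x i') t / (l:ℤ))) := by
      intro i i'
      rw [cb_nat l (x i), cb_nat l (x i')]
    have h3 : ∑ i, ∑ i', (if cb l (x i) ≠ cb l (x i') then ker j (dist (x i) (x i')) else 0)
        ≤ 2197 * ∑ i, ∑ i', if cb 1 (x i) = cb 1 (x i') ∧ Bdl l (6 * (j+1)) (cb 1 (x i)) then (1:ℝ) else 0 := by
      refine le_trans (le_of_eq ?_) h1
      refine Finset.sum_congr rfl (fun i _ => Finset.sum_congr rfl (fun i' _ => ?_))
      simp only [h2 i i']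
    by_cases hD : D < 6 * (j+1)
    · rw [if_pos hD]
      have h4 : ∑ i, ∑ i', (if cb 1 (x i) = cb 1 (x i') ∧ Bdl l (6 * (j+1)) (cb 1 (x i)) then (1:ℝ) else 0) ≤ R := by
        refine Finset.sum_le_sum (fun i _ => Finset.sum_le_sum (fun i' _ => ?_))
        by_cases hc : cb 1 (x i) = cb 1 (x i')
        · simp only [hc, true_and, if_true]
          split_ifs <;> norm_num
        · simp [hc]
      have hQ0 : 0 ≤ Q := Finset.sum_nonneg (fun i _ => Finset.sum_nonneg (fun j _ => by positivity))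
      have := h.nn j
      calc a j * ∑ i, ∑ i', (if cb l (x i) ≠ cb l (x i') then ker j (dist (x i) (x i')) else 0)
          ≤ a j * (2197 * R) := by
            refine mul_le_mul_of_nonneg_left (h3.trans ?_) (h.nn j)
            linarith
        _ ≤ _ := by
            have : 0 ≤ a j * (2197 * Q) := by positivity
            linarith
    · rw [if_neg hD, zero_mul, add_zero]
      refine mul_le_mul_of_nonneg_left (h3.trans ?_) (h.nn j)
      refine mul_le_mul_of_nonneg_left ?_ (by norm_num)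
      refine Finset.sum_le_sum (fun i _ => Finset.sum_le_sum (fun i' _ => ?_))
      by_cases hc : cb 1 (x i) = cb 1 (x i')
      · by_cases hB : Bdl l (6 * (j+1)) (cb 1 (x i))
        · have hB' : Bdl l D (cb 1 (x i)) := by
            obtain ⟨k', hk', hne⟩ := hB
            refine ⟨k', fun t => (hk' t).trans ?_, hne⟩
            push Not at hD
            exact_mod_cast hD
          rw [if_pos ⟨hc, hB⟩, if_pos ⟨hc, hB'⟩]
        · simp only [hB, and_false, if_false]
          positivity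
      · simp [hc]
  have hsum : Summable (fun j => (a j) * (2197 * Q) + (if D < 6 * (j+1) then a j else 0) * (2197 * R)) :=
    (h.sm.mul_right _).add ((summable_tailA h D).mul_right _)
  have h5 := hs.tsum_le_tsum hb hsum
  rw [(h.sm.mul_right _).tsum_add ((summable_tailA h D).mul_right _), tsum_mul_right, tsum_mul_right] at h5
  have h6 : ∑ i, ∑ i', (if cb 1 (x i) = cb 1 (x i') then ww a l D (cb 1 (x i)) else 0)
      = KK * (mass a * Q + tailA a D * R) := by
    rw [hQ, hR]
    simp_rw [Finset.mul_sum, ← Finset.sum_add_distrib, Finset.mul_sum]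
    refine Finset.sum_congr rfl (fun i _ => Finset.sum_congr rfl (fun i' _ => ?_))
    by_cases hc : cb 1 (x i) = cb 1 (x i') <;> by_cases hB : Bdl l D (cb 1 (x i)) <;> simp [hc, ww]

  rw [h6]
  unfold KK
  unfold mass tailA
  linarith

end Vale.Agent.Lib.P171
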