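import Mathlib
import Vale.Agent.Lib.P171.Boxes
import Vale.Agent.Lib.P171.Energy

/-! The pressure. -/

open MeasureTheory Set Filter Topology
open scoped ENNReal

namespace Vale.Agent.Lib.P171

lemma measurable_psi {a : ℕ → ℝ} (h : Adm a) : Measurable (psi a) := by
  refine measurable_of_tendsto_metrizable (f := fun n r => ∑ j ∈ Finset.range n, a j * ker j r) ?_ ?_
  · intro n
    exact Finset.measurable_fun_sum _ (fun j _ => (measurable_ker j).const_mul _)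
  · rw [tendsto_pi_nhds]
    intro r
    exact (summable_ker h r).hasSum.tendsto_sum_nat

lemma measurable_phi {a : ℕ → ℝ} (h : Adm a) : Measurable (phi a) :=
  measurable_phi0.sub (measurable_psi h)

/-- The interaction kernel. -/
noncomputable def Kphi (a : ℕ → ℝ) (x y : E3) : ℝ := -(1/2) * phi a (dist x y)

lemma measurable_Kphi {a : ℕ → ℝ} (h : Adm a) : Measurable (Function.uncurry (Kphi a)) := by
  unfold Kphi Function.uncurry
  exact ((measurable_phi h).comp (measurable_fst.dist measurable_snd)).const_mul _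

lemma Kphi_translate (a : ℕ → ℝ) (v x y : E3) : Kphi a (x + v) (y + v) = Kphi a x y := by
  unfold Kphi; rw [dist_add_right]

/-- Kernel seeing only pairs in a common unit cube. -/
noncomputable def Kcube (w : (Fin 3 → ℤ) → ℝ) (x y : E3) : ℝ := if cb 1 x = cb 1 y then w (cb 1 x) else 0

lemma measurable_Kcube (w : (Fin 3 → ℤ) → ℝ) : Measurable (Function.uncurry (Kcube w)) := by
  unfold Kcube Function.uncurry
  refine Measurable.ite ?_ ?_ measurable_const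
  · exact measurableSet_eq_fun ((measurable_cb 1).comp measurable_fst) ((measurable_cb 1).comp measurable_snd)
  · exact (measurable_of_countable w).comp ((measurable_cb 1).comp measurable_fst)

lemma sum_card_split {κ : Type} [DecidableEq κ] (C : Finset κ) (A : κ → Set E3) (lab : E3 → κ)
    (hA : ∀ e ∈ C, ∀ x ∈ A e, lab x = e) {n : ℕ} (x : Fin n → E3)
    (hx : ∀ i, ∃ e ∈ C, x i ∈ A e) (b : κ → ℝ) :
    ∑ e ∈ C, b e * (res (A e) (conf x)).card = ∑ i, b (lab (x i)) := by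
  classical
  have hmem : ∀ i, ∀ e ∈ C, (x i ∈ A e ↔ lab (x i) = e) := by
    intro i e he
    constructor
    · exact hA e he (x i)
    · intro hl
      obtain ⟨e', he', hx'⟩ := hx i
      have := hA e' he' _ hx'
      rw [hl] at this
      subst this
      exact hx'
  have hlabC : ∀ i, lab (x i) ∈ C := by
    intro i
    obtain ⟨e', he', hx'⟩ := hx i
    rw [hA e' he' _ hx']
    exact he'
  have h1 : ∀ e ∈ C, b e * ((res (A e) (conf x)).card : ℝ) = ∑ i, if lab (x i) = e then b e else 0 := by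
    intro e he
    rw [card_res_conf, Finset.mul_sum]
    refine Finset.sum_congr rfl (fun i _ => ?_)
    simp only [hmem i e he, mul_ite, mul_one, mul_zero]
  rw [Finset.sum_congr rfl h1, Finset.sum_comm]
  refine Finset.sum_congr rfl (fun i _ => ?_)
  rw [Finset.sum_ite_eq C (lab (x i)) (fun e => b e), if_pos (hlabC i)]

/-- Poisson type upper bound. -/
lemma G_poisson (C : Finset (Fin 3 → ℤ)) (μ : ℝ) (K : E3 → E3 → ℝ) (b : (Fin 3 → ℤ) → ℝ)
    (h : ∀ (n : ℕ) (x : Fin n → E3), Function.Injective x → (∀ i, ∃ e ∈ C, x i ∈ Q 1 e) →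
      μ * n + ∑ i, ∑ j, K (x i) (x j) ≤ ∑ i, b (cb 1 (x i))) :
    G (⋃ e ∈ C, Q 1 e) (Ex μ K) ≤ ENNReal.ofReal (Real.exp (∑ e ∈ C, Real.exp (b e))) := by
  have hA : ∀ e ∈ C, ∀ x ∈ Q 1 e, cb 1 x = e := fun e _ x hx => hx
  have hd : ∀ c ∈ C, ∀ d ∈ C, c ≠ d → Disjoint (Q 1 c) (Q 1 d) := by
    intro c _ d _ hcd
    rw [Set.disjoint_left]
    intro x hxc hxd
    exact hcd (hxc.symm.trans hxd)
  have h0 : ∏ e ∈ C, G (Q 1 e) (Ex (b e) (fun _ _ => 0)) = ENNReal.ofReal (Real.exp (∑ e ∈ C, Real.exp (b e))) := by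
    rw [Real.exp_sum, ENNReal.ofReal_prod_of_nonneg (fun e _ => (Real.exp_pos _).le)]
    refine Finset.prod_congr rfl (fun e _ => ?_)
    exact G_card (measurableSet_Q 1 e) (volume_Q_one e) (b e)
  rw [← h0, ← G_prod_res C (Q 1) (fun e _ => measurableSet_Q 1 e) hd (fun e => Ex (b e) (fun _ _ => 0))
    (fun e _ => meas_Ex (b e) measurable_const)]
  refine G_mono (Finset.measurableSet_biUnion C (fun e _ => measurableSet_Q 1 e)) (subset_refl _) ae_inj ?_
  intro s hs hsA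
  obtain ⟨n, x, rfl⟩ := exists_conf s
  have hx : ∀ i, ∃ e ∈ C, x i ∈ Q 1 e := by
    intro i
    have := hsA (x i) ((mem_conf x _).2 ⟨i, rfl⟩)
    simpa using this
  have hinj : Function.Injective x := by
    intro i j hij
    exact (Multiset.inj_on_of_nodup_map hs) i (by simp) j (by simp) hij
  have h1 : ∏ e ∈ C, Ex (b e) (fun _ _ => 0) (res (Q 1 e) (conf x))
      = ENNReal.ofReal (Real.exp (∑ i, b (cb 1 (x i)))) := by
    unfold Ex
    rw [← ENNReal.ofReal_prod_of_nonneg (fun e _ => (Real.exp_pos _).le), ← Real.exp_sum,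
      ← sum_card_split C (Q 1) (cb 1) hA x hx b]
    congr 2
    refine Finset.sum_congr rfl (fun e _ => ?_)
    simp [pS]
  rw [h1, Ex_conf]
  exact ENNReal.ofReal_le_ofReal (Real.exp_le_exp.2 (h n x hinj hx))

/-- The stability bound for grand canonical integrals, with cube dependent quadratic terms. -/
lemma G_stab {a : ℕ → ℝ} (ha : Adm a) (C : Finset (Fin 3 → ℤ)) (μ : ℝ) (v : (Fin 3 → ℤ) → ℝ)
    (m : (Fin 3 → ℤ) → ℕ) (hm : ∀ k, 2 ≤ m k) (hmv : ∀ k, 18 * (KK * mass a + v k) ≤ m k) :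
    G (⋃ e ∈ C, Q 1 e) (Ex μ (fun x y => Kphi a x y + Kcube v x y))
      ≤ ENNReal.ofReal (Real.exp (∑ e ∈ C, Real.exp (μ + (1/18) * (m e : ℝ)^4))) := by
  refine G_poisson C μ _ (fun e => μ + (1/18) * (m e : ℝ)^4) ?_
  intro n x hx _
  have h := stab ha x hx v m hm hmv
  have e1 : ∑ i, ∑ j, (Kphi a (x i) (x j) + Kcube v (x i) (x j))
      = -(1/2) * ∑ i, ∑ i', phi a (dist (x i) (x i')) + ∑ i, ∑ i', (if cb 1 (x i) = cb 1 (x i') then v (cb 1 (x i)) else 0) := by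
    simp_rw [Finset.sum_add_distrib, Finset.mul_sum]
    rfl
  rw [e1, Finset.sum_add_distrib, ← Finset.mul_sum]
  simp only [Finset.sum_const, Finset.card_univ, Fintype.card_fin, nsmul_eq_mul]
  linarith

/-- The grand canonical partition function of the box of side `n`. -/
noncomputable def Xi (a : ℕ → ℝ) (μ : ℝ) (n : ℕ) : ℝ≥0∞ := G (B n) (Ex μ (Kphi a))

lemma Xi_ge_one (a : ℕ → ℝ) (μ : ℝ) (n : ℕ) : 1 ≤ Xi a μ n := by
  unfold Xi G
  refine le_trans ?_ (ENNReal.le_tsum 0)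
  rw [I_zero]
  simp [Ex, pS]

/-- A uniform stability constant. -/
noncomputable def mst (a : ℕ → ℝ) (c : ℝ) : ℕ := ⌈18 * (KK * mass a + c)⌉₊ + 2

lemma mst_ge_two (a : ℕ → ℝ) (c : ℝ) : 2 ≤ mst a c := by unfold mst; omega

lemma mst_ge (a : ℕ → ℝ) (c : ℝ) : 18 * (KK * mass a + c) ≤ mst a c := by
  unfold mst
  push_cast
  linarith [Nat.le_ceil (18 * (KK * mass a + c))]

/-- exponential of the one-body stability bound -/
noncomputable def zst (a : ℕ → ℝ) (μ c : ℝ) : ℝ := Real.exp (μ + (1/18) * (mst a c : ℝ)^4)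

lemma B_eq_unit (n : ℕ) : B n = ⋃ e ∈ cubes n, Q 1 e := by
  have := B_eq_biUnion n 1 one_pos
  simpa using this

lemma Xi_le {a : ℕ → ℝ} (ha : Adm a) (μ : ℝ) (n : ℕ) :
    Xi a μ n ≤ ENNReal.ofReal (Real.exp ((n:ℝ)^3 * zst a μ 0)) := by
  unfold Xi
  have h := G_stab ha (cubes n) μ (fun _ => 0) (fun _ => mst a 0) (fun _ => mst_ge_two a 0) (fun _ => mst_ge a 0)
  have e1 : (fun x y => Kphi a x y + Kcube (fun _ => 0) x y) = Kphi a := by
    funext x y; simp [Kcube]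
  rw [e1, ← B_eq_unit] at h
  refine h.trans (le_of_eq ?_)
  simp [card_cubes, zst]

lemma Xi_ne_top {a : ℕ → ℝ} (ha : Adm a) (μ : ℝ) (n : ℕ) : Xi a μ n ≠ ⊤ :=
  ne_top_of_le_ne_top ENNReal.ofReal_ne_top (Xi_le ha μ n)

/-- logarithm of the partition function -/
noncomputable def lnXi (a : ℕ → ℝ) (μ : ℝ) (n : ℕ) : ℝ := Real.log (Xi a μ n).toReal

lemma Xi_toReal_ge_one {a : ℕ → ℝ} (ha : Adm a) (μ : ℝ) (n : ℕ) : 1 ≤ (Xi a μ n).toReal := by
  have := ENNReal.toReal_mono (Xi_ne_top ha μ n) (Xi_ge_one a μ n)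
  simpa using this

lemma lnXi_nonneg {a : ℕ → ℝ} (ha : Adm a) (μ : ℝ) (n : ℕ) : 0 ≤ lnXi a μ n :=
  Real.log_nonneg (Xi_toReal_ge_one ha μ n)

lemma Xi_eq_exp {a : ℕ → ℝ} (ha : Adm a) (μ : ℝ) (n : ℕ) : Xi a μ n = ENNReal.ofReal (Real.exp (lnXi a μ n)) := by
  unfold lnXi
  rw [Real.exp_log (lt_of_lt_of_le one_pos (Xi_toReal_ge_one ha μ n)), ENNReal.ofReal_toReal (Xi_ne_top ha μ n)]

lemma lnXi_le_iff {a : ℕ → ℝ} (ha : Adm a) (μ : ℝ) (n : ℕ) (c : ℝ) :
    lnXi a μ n ≤ c ↔ Xi a μ n ≤ ENNReal.ofReal (Real.exp c) := by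
  rw [Xi_eq_exp ha]
  rw [ENNReal.ofReal_le_ofReal_iff (Real.exp_pos _).le, Real.exp_le_exp]

lemma le_lnXi_iff {a : ℕ → ℝ} (ha : Adm a) (μ : ℝ) (n : ℕ) (c : ℝ) :
    c ≤ lnXi a μ n ↔ ENNReal.ofReal (Real.exp c) ≤ Xi a μ n := by
  rw [Xi_eq_exp ha]
  rw [ENNReal.ofReal_le_ofReal_iff (Real.exp_pos _).le, Real.exp_le_exp]

lemma lnXi_le {a : ℕ → ℝ} (ha : Adm a) (μ : ℝ) (n : ℕ) : lnXi a μ n ≤ (n:ℝ)^3 * zst a μ 0 :=
  (lnXi_le_iff ha μ n _).2 (Xi_le ha μ n)

/-- The pressure. -/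
noncomputable def P (a : ℕ → ℝ) (μ : ℝ) : ℝ := ⨆ n : ℕ, lnXi a μ n / ((n:ℝ) + 1)^3

lemma zst_pos (a : ℕ → ℝ) (μ c : ℝ) : 0 < zst a μ c := Real.exp_pos _

lemma ratio_le {a : ℕ → ℝ} (ha : Adm a) (μ : ℝ) (n : ℕ) : lnXi a μ n / ((n:ℝ) + 1)^3 ≤ zst a μ 0 := by
  rw [div_le_iff₀ (by positivity)]
  refine (lnXi_le ha μ n).trans ?_
  rw [mul_comm]
  refine mul_le_mul_of_nonneg_left ?_ (zst_pos a μ 0).le
  gcongr
  linarith

lemma bdd {a : ℕ → ℝ} (ha : Adm a) (μ : ℝ) : BddAbove (range (fun n : ℕ => lnXi a μ n / ((n:ℝ) + 1)^3)) := by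
  refine ⟨zst a μ 0, ?_⟩
  rintro _ ⟨n, rfl⟩
  exact ratio_le ha μ n

lemma le_P {a : ℕ → ℝ} (ha : Adm a) (μ : ℝ) (n : ℕ) : lnXi a μ n ≤ ((n:ℝ) + 1)^3 * P a μ := by
  have := le_ciSup (bdd ha μ) n
  rw [mul_comm, ← div_le_iff₀ (by positivity)]
  exact this

lemma P_nonneg {a : ℕ → ℝ} (ha : Adm a) (μ : ℝ) : 0 ≤ P a μ := by
  have h1 := le_P ha μ 0
  have h2 := lnXi_nonneg ha μ 0
  simp only [CharP.cast_eq_zero, zero_add, one_pow, one_mul] at h1
  linarith

lemma Xi_mono (a : ℕ → ℝ) (μ : ℝ) {n n' : ℕ} (h : n ≤ n') : Xi a μ n ≤ Xi a μ n' := by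
  unfold Xi
  refine G_mono (measurableSet_B n) ?_ ae_inj (fun s _ _ => le_rfl)
  intro x hx t
  have hc : (n:ℝ) ≤ (n':ℝ) := Nat.cast_le.2 h
  exact ⟨(hx t).1, (hx t).2.trans_le hc⟩

lemma lnXi_mono {a : ℕ → ℝ} (ha : Adm a) (μ : ℝ) {n n' : ℕ} (h : n ≤ n') : lnXi a μ n ≤ lnXi a μ n' := by
  rw [lnXi_le_iff ha, ← Xi_eq_exp ha]
  exact Xi_mono a μ h

lemma phi_nonpos {a : ℕ → ℝ} (ha : Adm a) {r : ℝ} (hr : 1 ≤ r) : phi a r ≤ 0 := by
  rw [phi_eq]
  have h1 : phi0 r = 0 := by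
    unfold phi0
    rw [if_neg]
    rintro ⟨_, h⟩
    linarith
  rw [h1]
  linarith [psi_nonneg ha r]

/-- Superadditivity. -/
lemma superadd {a : ℕ → ℝ} (ha : Adm a) (μ : ℝ) (q m : ℕ) :
    (q:ℝ)^3 * lnXi a μ m ≤ lnXi a μ (q * (m+1)) := by
  rw [le_lnXi_iff ha]
  have hm1 : (0:ℝ) < ((m+1 : ℕ) : ℝ) := by positivity
  set A : (Fin 3 → ℤ) → Set E3 := fun e => {x | x - vec ((m+1 : ℕ) : ℝ) e ∈ B m} with hA
  have hAm : ∀ e ∈ cubes q, MeasurableSet (A e) := fun e _ => (measurable_id.sub_const _) (measurableSet_B m)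
  have hlab : ∀ e ∈ cubes q, ∀ x ∈ A e, cb ((m+1 : ℕ) : ℝ) x = e := by
    intro e _ x hx
    have : x ∈ Q ((m+1 : ℕ) : ℝ) e := by
      rw [mem_Q hm1]
      intro t
      have := hx t
      simp only [PiLp.sub_apply, vec_apply] at this
      push_cast at this ⊢
      constructor
      · linarith [this.1]
      · linarith [this.2]
    exact this
  have h1 := prod_le_G (cubes q) A (cb ((m+1 : ℕ) : ℝ)) hAm hlab μ (Kphi a) (Kphi a) (measurable_Kphi ha)
    (by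
      intro n x _ hx
      refine Finset.sum_le_sum (fun i _ => Finset.sum_le_sum (fun j _ => ?_))
      split_ifs with hc
      · exact le_rfl
      · unfold Kphi
        have hd : 1 ≤ dist (x i) (x j) := by
          obtain ⟨e, he, hxe⟩ := hx i
          obtain ⟨e', he', hxe'⟩ := hx j
          rw [hlab e he _ hxe, hlab e' he' _ hxe'] at hc
          obtain ⟨t, ht⟩ := Function.ne_iff.1 hc
          refine le_trans ?_ (abs_coord_le (x i) (x j) t)
          have hi := hxe t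
          have hj := hxe' t
          simp only [PiLp.sub_apply, vec_apply] at hi hj
          push_cast at hi hj
          rcases lt_or_gt_of_ne ht with hlt | hgt
          · have : (e t : ℝ) + 1 ≤ e' t := by exact_mod_cast hlt
            rw [le_abs]
            right
            nlinarith [hi.2, hj.1]
          · have : (e' t : ℝ) + 1 ≤ e t := by exact_mod_cast hgt
            rw [le_abs]
            left
            nlinarith [hi.1, hj.2]
        have := phi_nonpos ha hd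
        linarith)
  have h2 : ∀ e ∈ cubes q, G (A e) (Ex μ (Kphi a)) = Xi a μ m := by
    intro e _
    unfold Xi
    exact G_Ex_translate (measurableSet_B m) _ μ (measurable_Kphi ha) (fun x y => Kphi_translate a _ x y)
  rw [Finset.prod_congr rfl h2, Finset.prod_const, card_cubes] at h1
  have h3 : ENNReal.ofReal (Real.exp ((q:ℝ)^3 * lnXi a μ m)) = (Xi a μ m)^(q^3) := by
    rw [Xi_eq_exp ha, ← ENNReal.ofReal_pow (Real.exp_pos _).le, ← Real.exp_nat_mul]
    push_cast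
    rfl
  rw [h3]
  refine h1.trans ?_
  unfold Xi
  refine G_mono (Finset.measurableSet_biUnion _ hAm) ?_ ae_inj (fun s _ _ => le_rfl)
  rw [B_eq_biUnion q (m+1) (by omega)]
  intro x hx
  simp only [Set.mem_iUnion, exists_prop] at hx ⊢
  obtain ⟨e, he, hxe⟩ := hx
  exact ⟨e, he, hlab e he x hxe⟩

/-- Convergence of the finite volume pressures. -/
lemma tendsto_lnXi {a : ℕ → ℝ} (ha : Adm a) (μ : ℝ) :
    Tendsto (fun n : ℕ => lnXi a μ n / (n:ℝ)^3) atTop (𝓝 (P a μ)) := by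
  rw [Metric.tendsto_atTop]
  intro ε hε
  obtain ⟨m, hm⟩ : ∃ m : ℕ, P a μ - ε / 2 < lnXi a μ m / ((m:ℝ) + 1)^3 :=
    exists_lt_of_lt_ciSup (by unfold P; linarith)
  -- upper part
  have hup : Tendsto (fun n : ℕ => (((n:ℝ) + 1)/n)^3 * P a μ) atTop (𝓝 (1^3 * P a μ)) := by
    refine Tendsto.mul_const _ (Tendsto.pow ?_ 3)
    have : (fun n : ℕ => ((n:ℝ) + 1)/n) =ᶠ[atTop] fun n : ℕ => 1 + 1 / (n:ℝ) := by
      filter_upwards [eventually_gt_atTop 0] with n hn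
      have : (0:ℝ) < n := by exact_mod_cast hn
      field_simp
    refine Tendsto.congr' this.symm ?_
    simpa using (tendsto_const_nhds (x := (1:ℝ))).add tendsto_one_div_atTop_nhds_zero_nat
  have hlo : Tendsto (fun n : ℕ => ((1:ℝ) - (m+1)/n)^3 * (P a μ - ε/2)) atTop (𝓝 ((1 - 0)^3 * (P a μ - ε/2))) := by
    refine Tendsto.mul_const _ (Tendsto.pow ?_ 3)
    exact tendsto_const_nhds.sub (tendsto_const_div_atTop_nhds_zero_nat _)
  have e1 := hup.eventually (eventually_lt_nhds (b := P a μ + ε) (by linarith))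
  have e2 := hlo.eventually_const_lt (show P a μ - ε < (1 - 0)^3 * (P a μ - ε/2) by linarith)
  obtain ⟨N, hN⟩ := (e1.and (e2.and (eventually_ge_atTop (m+1)))).exists_forall_of_atTop
  refine ⟨N + 1, fun n hn => ?_⟩
  obtain ⟨h1, h2, h3⟩ := hN n (by omega)
  have hn0 : (0:ℝ) < n := by
    have : 0 < n := by omega
    exact_mod_cast this
  rw [Real.dist_eq, abs_lt]
  have hupper : lnXi a μ n / (n:ℝ)^3 ≤ (((n:ℝ) + 1)/n)^3 * P a μ := by
    rw [div_pow, div_mul_eq_mul_div]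
    exact div_le_div_of_nonneg_right (le_P ha μ n) (by positivity)
  constructor
  · -- lower bound
    set q : ℕ := n / (m+1) with hq
    have hqn : q * (m+1) ≤ n := Nat.div_mul_le_self n (m+1)
    have hqn' : n < (q+1) * (m+1) := by
      have := Nat.lt_div_mul_add (a := n) (b := m+1) (by omega)
      calc n < n / (m+1) * (m+1) + (m+1) := this
        _ = (q+1) * (m+1) := by rw [hq]; ring
    have s1 : (q:ℝ)^3 * lnXi a μ m ≤ lnXi a μ n := (superadd ha μ q m).trans (lnXi_mono ha μ hqn)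
    have s2 : (1:ℝ) - (m+1)/n ≤ q * (m+1) / n := by
      rw [sub_le_iff_le_add, ← add_div, le_div_iff₀ hn0, one_mul]
      have : (n:ℝ) < (q+1) * (m+1) := by exact_mod_cast hqn'
      nlinarith
    have s0 : (0:ℝ) ≤ 1 - (m+1)/n := by
      rw [sub_nonneg, div_le_one hn0]
      exact_mod_cast h3
    have s3 : ((1:ℝ) - (m+1)/n)^3 * (lnXi a μ m / ((m:ℝ) + 1)^3) ≤ lnXi a μ n / (n:ℝ)^3 := by
      have hr : 0 ≤ lnXi a μ m / ((m:ℝ) + 1)^3 := div_nonneg (lnXi_nonneg ha μ m) (by positivity)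
      calc ((1:ℝ) - (m+1)/n)^3 * (lnXi a μ m / ((m:ℝ) + 1)^3)
          ≤ (q * (m+1) / n)^3 * (lnXi a μ m / ((m:ℝ) + 1)^3) :=
            mul_le_mul_of_nonneg_right (pow_le_pow_left₀ s0 s2 3) hr
        _ = ((q:ℝ)^3 * lnXi a μ m) / (n:ℝ)^3 := by
            have : (0:ℝ) < (m:ℝ) + 1 := by positivity
            field_simp
        _ ≤ lnXi a μ n / (n:ℝ)^3 := div_le_div_of_nonneg_right s1 (by positivity)
    have s4 : ((1:ℝ) - (m+1)/n)^3 * (P a μ - ε/2) ≤ ((1:ℝ) - (m+1)/n)^3 * (lnXi a μ m / ((m:ℝ) + 1)^3) :=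
      mul_le_mul_of_nonneg_left hm.le (pow_nonneg s0 3)
    linarith
  · linarith

end Vale.Agent.Lib.P171
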