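import Mathlib
import Vale.Agent.Lib.P171.Pressure

/-! Lower bound of the pressure by a trial arrangement. -/

open MeasureTheory Set Filter Topology
open scoped ENNReal

namespace Vale.Agent.Lib.P171

/-- Unit cubes with spacing two. -/
def T2 (e : Fin 3 → ℤ) : Set E3 := {x | x - vec 2 e ∈ B 1}

lemma measurableSet_T2 (e : Fin 3 → ℤ) : MeasurableSet (T2 e) :=
  (measurable_id.sub_const _) (measurableSet_B 1)

lemma mem_T2 {e : Fin 3 → ℤ} {x : E3} : x ∈ T2 e ↔ ∀ t, 2 * (e t : ℝ) ≤ x t ∧ x t < 2 * e t + 1 := by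
  unfold T2 B
  simp only [Set.mem_ofPred_eq, PiLp.sub_apply, vec_apply, Nat.cast_one]
  refine forall_congr' (fun t => ?_)
  constructor <;> rintro ⟨h1, h2⟩ <;> constructor <;> linarith

lemma T2_eq_Q (e : Fin 3 → ℤ) : T2 e = Q 1 (fun t => 2 * e t) := by
  ext x
  rw [mem_T2, mem_Q one_pos]
  simp

lemma lab_T2 {e : Fin 3 → ℤ} {x : E3} (hx : x ∈ T2 e) : cb 2 x = e := by
  have : x ∈ Q 2 e := by
    rw [mem_Q two_pos]
    intro t
    obtain ⟨h1, h2⟩ := mem_T2.1 hx t
    constructor <;> linarith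
  exact this

lemma volume_T2 (e : Fin 3 → ℤ) : volume (T2 e) = 1 := by
  rw [T2_eq_Q, volume_Q_one]

open Classical in
/-- indicator of one particle -/
noncomputable def one1 (s : Multiset E3) : ℝ≥0∞ := if s.card = 1 then 1 else 0

lemma meas_one1 : Meas one1 := by
  intro n
  simp only [one1, card_conf]
  exact measurable_const

lemma G_one1 (e : Fin 3 → ℤ) : G (T2 e) one1 = 1 := by
  unfold G
  rw [tsum_eq_single 1]
  · unfold I
    simp only [one1, card_conf, if_true]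
    rw [setLIntegral_const]
    have hc : cyl 1 (T2 e) = Set.pi Set.univ (fun _ : Fin 1 => T2 e) := by
      ext x; simp [cyl]
    rw [hc, volume_pi_pi]
    simp [volume_T2]
  · intro n hn
    unfold I
    simp only [one1, card_conf, if_neg hn]
    simp

lemma phi_zero (a : ℕ → ℝ) : phi a 0 = 0 := by
  unfold phi phi0 ker
  simp

/-- counting pairs in the trial arrangement -/
lemma count_pairs (q r : ℕ) (hr : 1 ≤ r) (hq : r ≤ q) :
    ((q - r : ℕ) : ℝ)^3 * (r:ℝ)^3 ≤ ∑ k ∈ cubes q, ∑ k' ∈ cubes q,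
      if (∀ t, k t ≤ k' t ∧ k' t ≤ k t + r) ∧ k ≠ k' then (1:ℝ) else 0 := by
  classical
  have hsub : cubes (q - r) ⊆ cubes q := by
    intro k hk
    rw [mem_cubes] at hk ⊢
    intro t
    obtain ⟨h1, h2⟩ := hk t
    constructor
    · exact h1
    · push_cast [hq] at h2
      omega
  have h1 : ∑ k ∈ cubes (q - r), ∑ k' ∈ cubes q,
        (if (∀ t, k t ≤ k' t ∧ k' t ≤ k t + r) ∧ k ≠ k' then (1:ℝ) else 0)
      ≤ ∑ k ∈ cubes q, ∑ k' ∈ cubes q,
        if (∀ t, k t ≤ k' t ∧ k' t ≤ k t + r) ∧ k ≠ k' then (1:ℝ) else 0 :=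
    Finset.sum_le_sum_of_subset_of_nonneg hsub
      (fun _ _ _ => Finset.sum_nonneg (fun _ _ => by positivity))
  refine le_trans ?_ h1
  have h2 : ∀ k ∈ cubes (q - r), (r:ℝ)^3 ≤ ∑ k' ∈ cubes q,
        (if (∀ t, k t ≤ k' t ∧ k' t ≤ k t + r) ∧ k ≠ k' then (1:ℝ) else 0) := by
    intro k hk
    rw [← Finset.sum_filter, Finset.sum_const, nsmul_eq_mul, mul_one]
    have hs : (Finset.Icc k (fun t => k t + r)).erase k
        ⊆ (cubes q).filter (fun k' => (∀ t, k t ≤ k' t ∧ k' t ≤ k t + r) ∧ k ≠ k') := by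
      intro k' hk'
      rw [Finset.mem_erase, Finset.mem_Icc] at hk'
      obtain ⟨hne, h3, h4⟩ := hk'
      rw [Finset.mem_filter, mem_cubes]
      rw [mem_cubes] at hk
      refine ⟨fun t => ?_, fun t => ⟨h3 t, h4 t⟩, hne.symm⟩
      obtain ⟨h5, h6⟩ := hk t
      have h7 : k t ≤ k' t := h3 t
      have h8 : k' t ≤ k t + (r:ℤ) := h4 t
      push_cast [hq] at h6
      constructor <;> omega
    have hc := Finset.card_le_card hs
    have hc2 : ((Finset.Icc k (fun t => k t + r)).erase k).card = (r+1)^3 - 1 := by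
      rw [Finset.card_erase_of_mem]
      · rw [Pi.card_Icc]
        simp only [Int.card_Icc]
        have : ∀ t : Fin 3, (k t + (r:ℤ) + 1 - k t).toNat = r + 1 := by intro t; omega
        simp_rw [this]
        simp
      · rw [Finset.mem_Icc]
        exact ⟨le_rfl, fun t => by simp⟩
    rw [hc2] at hc
    have : r^3 ≤ (r+1)^3 - 1 := by
      have : r^3 + 1 ≤ (r+1)^3 := by nlinarith
      omega
    exact_mod_cast this.trans hc
  calc ((q - r : ℕ) : ℝ)^3 * (r:ℝ)^3 = ∑ k ∈ cubes (q - r), (r:ℝ)^3 := by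
        rw [Finset.sum_const, card_cubes, nsmul_eq_mul]; push_cast; ring
    _ ≤ _ := Finset.sum_le_sum h2

/-- lower bound of the attraction in the trial arrangement -/
lemma trial_ker {q : ℕ} {n : ℕ} (x : Fin n → E3) (hx : ∀ i, ∃ e ∈ cubes q, x i ∈ T2 e)
    (hone : ∀ e ∈ cubes q, (res (T2 e) (conf x)).card = 1) (j : ℕ) (hj : j + 1 ≤ q) :
    ((q - (j+1) : ℕ) : ℝ)^3 ≤ ∑ i, ∑ i', ker j (dist (x i) (x i')) := by
  classical
  set r : ℕ := j + 1 with hr
  have hr0 : (0:ℝ) < r := by positivity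
  set M : (Fin 3 → ℤ) → (Fin 3 → ℤ) → ℝ := fun k k' =>
    if (∀ t, k t ≤ k' t ∧ k' t ≤ k t + r) ∧ k ≠ k' then (1:ℝ) else 0 with hM
  have hlab : ∀ e ∈ cubes q, ∀ x ∈ T2 e, cb 2 x = e := fun e _ x hx => lab_T2 hx
  have hsum : ∀ f : (Fin 3 → ℤ) → ℝ, ∑ i, f (cb 2 (x i)) = ∑ k ∈ cubes q, f k := by
    intro f
    rw [← sum_card_split (cubes q) T2 (cb 2) hlab x hx f]
    refine Finset.sum_congr rfl (fun e he => ?_)
    rw [hone e he]
    simp
  have h1 : ∑ i, ∑ i', M (cb 2 (x i)) (cb 2 (x i')) = ∑ k ∈ cubes q, ∑ k' ∈ cubes q, M k k' := by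
    have : ∀ i, ∑ i', M (cb 2 (x i)) (cb 2 (x i')) = ∑ k' ∈ cubes q, M (cb 2 (x i)) k' := fun i =>
      hsum (fun k' => M (cb 2 (x i)) k')
    simp_rw [this]
    exact hsum (fun k => ∑ k' ∈ cubes q, M k k')
  have h2 : ∀ i i', ((r:ℝ)^3)⁻¹ * M (cb 2 (x i)) (cb 2 (x i')) ≤ ker j (dist (x i) (x i')) := by
    intro i i'
    simp only [hM]
    split_ifs with hc
    · obtain ⟨hle, hne⟩ := hc
      obtain ⟨e, he, hxe⟩ := hx i
      obtain ⟨e', he', hxe'⟩ := hx i'
      rw [lab_T2 hxe, lab_T2 hxe'] at hle hne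
      have hxx : x i ≠ x i' := by
        intro h
        apply hne
        rw [← lab_T2 hxe, ← lab_T2 hxe', h]
      have hd0 : 0 < dist (x i) (x i') := dist_pos.2 hxx
      have hb : ∀ t, |x i t - x i' t| ≤ 2 * (r:ℝ) + 1 := by
        intro t
        obtain ⟨a1, a2⟩ := mem_T2.1 hxe t
        obtain ⟨b1, b2⟩ := mem_T2.1 hxe' t
        obtain ⟨c1, c2⟩ := hle t
        have c1' : (e t : ℝ) ≤ e' t := by exact_mod_cast c1
        have c2' : (e' t : ℝ) ≤ e t + r := by exact_mod_cast c2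
        rw [abs_le]
        constructor <;> linarith
      have hd2 := dist_sq_le hb
      have hr1 : (1:ℝ) ≤ r := by exact_mod_cast (by omega : 1 ≤ r)
      have hlt : dist (x i) (x i') < 6 * (r:ℝ) := by
        by_contra hcon
        push Not at hcon
        nlinarith
      unfold ker
      have hcast : ((j:ℝ) + 1) = (r:ℝ) := by rw [hr]; push_cast; ring
      rw [hcast, if_pos ⟨hd0, hlt⟩]
      linarith
    · rw [mul_zero]
      exact ker_nonneg _ _
  have h3 := count_pairs q r (by omega) hj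
  calc ((q - r : ℕ) : ℝ)^3 = ((r:ℝ)^3)⁻¹ * (((q - r : ℕ) : ℝ)^3 * (r:ℝ)^3) := by field_simp
    _ ≤ ((r:ℝ)^3)⁻¹ * ∑ i, ∑ i', M (cb 2 (x i)) (cb 2 (x i')) := by
        rw [h1]; exact mul_le_mul_of_nonneg_left h3 (by positivity)
    _ = ∑ i, ∑ i', ((r:ℝ)^3)⁻¹ * M (cb 2 (x i)) (cb 2 (x i')) := by
        simp_rw [Finset.mul_sum]
    _ ≤ _ := Finset.sum_le_sum (fun i _ => Finset.sum_le_sum (fun i' _ => h2 i i'))

lemma trial_phi {a : ℕ → ℝ} {q : ℕ} {n : ℕ} (x : Fin n → E3)
    (hx : ∀ i, ∃ e ∈ cubes q, x i ∈ T2 e)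
    (hone : ∀ e ∈ cubes q, (res (T2 e) (conf x)).card = 1) (i i' : Fin n) :
    phi a (dist (x i) (x i')) = - psi a (dist (x i) (x i')) := by
  classical
  rw [phi_eq]
  have : phi0 (dist (x i) (x i')) = 0 := by
    by_cases hii : i = i'
    · subst hii; simp [phi0]
    · obtain ⟨e, he, hxe⟩ := hx i
      obtain ⟨e', he', hxe'⟩ := hx i'
      have hne : e ≠ e' := by
        intro h
        subst h
        have h1 := hone e he
        have h2 : ((res (T2 e) (conf x)).card : ℝ) = ∑ i, if x i ∈ T2 e then (1:ℝ) else 0 := card_res_conf _ _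
        rw [h1] at h2
        have h3 : ∑ k ∈ ({i, i'} : Finset (Fin n)), (if x k ∈ T2 e then (1:ℝ) else 0)
            ≤ ∑ i, if x i ∈ T2 e then (1:ℝ) else 0 :=
          Finset.sum_le_sum_of_subset_of_nonneg (Finset.subset_univ _) (fun _ _ _ => by positivity)
        rw [Finset.sum_pair hii, if_pos hxe, if_pos hxe', ← h2] at h3
        norm_num at h3
      obtain ⟨t, ht⟩ := Function.ne_iff.1 hne
      have hd : 1 ≤ dist (x i) (x i') := by
        refine le_trans ?_ (abs_coord_le (x i) (x i') t)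
        obtain ⟨a1, a2⟩ := mem_T2.1 hxe t
        obtain ⟨b1, b2⟩ := mem_T2.1 hxe' t
        rcases lt_or_gt_of_ne ht with hlt | hgt
        · have : (e t : ℝ) + 1 ≤ e' t := by exact_mod_cast hlt
          rw [le_abs]; right; linarith
        · have : (e' t : ℝ) + 1 ≤ e t := by exact_mod_cast hgt
          rw [le_abs]; left; linarith
      unfold phi0
      rw [if_neg]
      rintro ⟨_, h⟩
      linarith
  rw [this, zero_sub]

lemma trial_lnXi {a : ℕ → ℝ} (ha : Adm a) (μ : ℝ) (q J : ℕ) (hJ : J ≤ q) :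
    μ * (q:ℝ)^3 + (1/2) * ∑ j ∈ Finset.range J, a j * ((q - (j+1) : ℕ) : ℝ)^3 ≤ lnXi a μ (2 * q) := by
  classical
  rw [le_lnXi_iff ha]
  set c : ℝ := μ * (q:ℝ)^3 + (1/2) * ∑ j ∈ Finset.range J, a j * ((q - (j+1) : ℕ) : ℝ)^3 with hc
  have hd : ∀ c ∈ cubes q, ∀ d ∈ cubes q, c ≠ d → Disjoint (T2 c) (T2 d) := by
    intro c _ d _ hcd
    rw [Set.disjoint_left]
    intro x hxc hxd
    exact hcd ((lab_T2 hxc).symm.trans (lab_T2 hxd))
  have h1 := G_prod_res (cubes q) T2 (fun e _ => measurableSet_T2 e) hd (fun _ => one1) (fun _ _ => meas_one1)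
  rw [Finset.prod_congr rfl (fun e _ => G_one1 e), Finset.prod_const_one] at h1
  have h2 := G_linear (A := ⋃ e ∈ cubes q, T2 e) (fun s => ∏ e ∈ cubes q, one1 (res (T2 e) s)) (fun _ => 0)
    (Meas.prod _ _ (fun e _ => meas_one1.res (measurableSet_T2 e))) (ENNReal.ofReal (Real.exp c)) 0
    ENNReal.ofReal_ne_top ENNReal.zero_ne_top
  rw [h1] at h2
  simp only [zero_mul, add_zero, mul_one] at h2
  rw [← h2]
  unfold Xi
  refine G_mono (Finset.measurableSet_biUnion _ (fun e _ => measurableSet_T2 e)) ?_ ae_inj ?_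
  · rw [mul_comm, B_eq_biUnion q 2 two_pos]
    intro x hx
    simp only [Set.mem_iUnion, exists_prop] at hx ⊢
    obtain ⟨e, he, hxe⟩ := hx
    exact ⟨e, he, lab_T2 hxe⟩
  · intro s hs hsA
    obtain ⟨n, x, rfl⟩ := exists_conf s
    have hx : ∀ i, ∃ e ∈ cubes q, x i ∈ T2 e := by
      intro i
      have := hsA (x i) ((mem_conf x _).2 ⟨i, rfl⟩)
      simpa using this
    have hinj : Function.Injective x := by
      intro i j hij
      exact (Multiset.inj_on_of_nodup_map hs) i (by simp) j (by simp) hij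
    by_cases hone : ∀ e ∈ cubes q, (res (T2 e) (conf x)).card = 1
    · have h3 : ∏ e ∈ cubes q, one1 (res (T2 e) (conf x)) = 1 :=
        Finset.prod_eq_one (fun e he => by simp [one1, hone e he])
      rw [h3, mul_one, Ex_conf]
      refine ENNReal.ofReal_le_ofReal (Real.exp_le_exp.2 ?_)
      have hn : (n:ℝ) = (q:ℝ)^3 := by
        have := sum_card_split (cubes q) T2 (cb 2) (fun e _ x hx => lab_T2 hx) x hx (fun _ => 1)
        rw [Finset.sum_congr rfl (fun e he => by rw [hone e he])] at this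
        simp [card_cubes] at this
        exact this.symm
      have hK : ∑ i, ∑ j, Kphi a (x i) (x j) = (1/2) * ∑ i, ∑ i', psi a (dist (x i) (x i')) := by
        simp_rw [Finset.mul_sum]
        refine Finset.sum_congr rfl (fun i _ => Finset.sum_congr rfl (fun i' _ => ?_))
        unfold Kphi
        rw [trial_phi x hx hone]
        ring
      have hpsi : ∑ j ∈ Finset.range J, a j * ((q - (j+1) : ℕ) : ℝ)^3 ≤ ∑ i, ∑ i', psi a (dist (x i) (x i')) := by
        have h0 := sum_psi ha x (fun _ _ => True)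
        have hsm := sum_psi_summable ha x (fun _ _ => True)
        simp only [if_true] at h0 hsm
        rw [h0]
        refine le_trans ?_ (hsm.sum_le_tsum (Finset.range J) (fun j _ => mul_nonneg (ha.nn j)
          (Finset.sum_nonneg (fun i _ => Finset.sum_nonneg (fun i' _ => ker_nonneg _ _)))))
        refine Finset.sum_le_sum (fun j hj => ?_)
        refine mul_le_mul_of_nonneg_left ?_ (ha.nn j)
        exact trial_ker x hx hone j (by have := Finset.mem_range.1 hj; omega)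
      rw [hK, hn, hc]
      linarith
    · push Not at hone
      obtain ⟨e, he, hne⟩ := hone
      have h3 : ∏ e ∈ cubes q, one1 (res (T2 e) (conf x)) = 0 :=
        Finset.prod_eq_zero he (by simp [one1, hne])
      rw [h3]
      simp

/-- The lower bound of the pressure. -/
lemma P_ge {a : ℕ → ℝ} (ha : Adm a) (μ : ℝ) : (1/8) * μ + (1/16) * mass a ≤ P a μ := by
  have key : ∀ J : ℕ, (1/8) * μ + (1/16) * ∑ j ∈ Finset.range J, a j ≤ P a μ := by
    intro J
    have ht : Tendsto (fun q : ℕ => lnXi a μ (2 * q) / ((2 * q : ℕ) : ℝ)^3) atTop (𝓝 (P a μ)) :=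
      (tendsto_lnXi ha μ).comp (tendsto_id.const_mul_atTop' two_pos)
    have hlow : Tendsto (fun q : ℕ => (μ * (q:ℝ)^3 + (1/2) * ∑ j ∈ Finset.range J, a j * ((q:ℝ) - (j+1))^3) / ((2 * q : ℕ) : ℝ)^3)
        atTop (𝓝 ((1/8) * μ + (1/16) * ∑ j ∈ Finset.range J, a j)) := by
      have e1 : (fun q : ℕ => (μ * (q:ℝ)^3 + (1/2) * ∑ j ∈ Finset.range J, a j * ((q:ℝ) - (j+1))^3) / ((2 * q : ℕ) : ℝ)^3)
          =ᶠ[atTop] fun q : ℕ => (1/8) * μ + (1/16) * ∑ j ∈ Finset.range J, a j * (1 - ((j:ℝ)+1)/(q:ℝ))^3 := by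
        filter_upwards [eventually_gt_atTop 0] with q hq
        have hq' : (0:ℝ) < q := by exact_mod_cast hq
        have : ∀ j : ℕ, ((q:ℝ) - (j+1))^3 = (q:ℝ)^3 * (1 - ((j:ℝ)+1)/(q:ℝ))^3 := by
          intro j; rw [← mul_pow]; congr 1; field_simp
        simp_rw [this]
        have h2 : ∑ j ∈ Finset.range J, a j * ((q:ℝ)^3 * (1 - ((j:ℝ)+1)/(q:ℝ))^3)
            = (q:ℝ)^3 * ∑ j ∈ Finset.range J, a j * (1 - ((j:ℝ)+1)/(q:ℝ))^3 := by
          rw [Finset.mul_sum]
          refine Finset.sum_congr rfl (fun j _ => ?_)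
          ring
        rw [h2]
        push_cast
        field_simp
        ring
      refine Tendsto.congr' e1.symm ?_
      refine tendsto_const_nhds.add (Tendsto.const_mul _ (tendsto_finsetSum _ (fun j _ => ?_)))
      have h3 : Tendsto (fun q : ℕ => (1 - ((j:ℝ)+1)/(q:ℝ))^3) atTop (𝓝 ((1 - 0)^3)) :=
        (tendsto_const_nhds.sub (tendsto_const_div_atTop_nhds_zero_nat _)).pow 3
      have h4 := h3.const_mul (a j)
      simpa using h4
    refine le_of_tendsto_of_tendsto hlow ht ?_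
    filter_upwards [eventually_ge_atTop (J+1)] with q hq
    refine div_le_div_of_nonneg_right ?_ (by positivity)
    have h := trial_lnXi ha μ q J (by omega)
    refine le_trans (le_of_eq ?_) h
    congr 2
    refine Finset.sum_congr rfl (fun j hj => ?_)
    have := Finset.mem_range.1 hj
    rw [Nat.cast_sub (by omega)]
    push_cast
    ring
  have hlim : Tendsto (fun J : ℕ => (1/8) * μ + (1/16) * ∑ j ∈ Finset.range J, a j) atTop
      (𝓝 ((1/8) * μ + (1/16) * mass a)) :=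
    tendsto_const_nhds.add (ha.sm.hasSum.tendsto_sum_nat.const_mul _)
  exact le_of_tendsto' hlim key

end Vale.Agent.Lib.P171
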