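import Mathlib
import Vale.Agent.Lib.P171.Lower

/-! Upper bound of the pressure by decoupling of cells. -/

open MeasureTheory Set Filter Topology
open scoped ENNReal

namespace Vale.Agent.Lib.P171

/-- one-term perturbation -/
def bump (j0 : ℕ) (t : ℝ) (j : ℕ) : ℝ := if j = j0 then t else 0

lemma summable_bump (j0 : ℕ) (t : ℝ) : Summable (bump j0 t) := by
  refine summable_of_ne_finset_zero (s := {j0}) (fun j hj => ?_)
  unfold bump
  rw [if_neg (by simpa using hj)]

lemma mass_bump (j0 : ℕ) (t : ℝ) : ∑' j, bump j0 t j = t := by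
  unfold bump
  rw [tsum_ite_eq]

lemma adm_bump {a : ℕ → ℝ} (ha : Adm a) (j0 : ℕ) {t : ℝ} (ht : 0 ≤ t) : Adm (fun j => a j + bump j0 t j) := by
  refine ⟨fun j => add_nonneg (ha.nn j) ?_, ha.sm.add (summable_bump j0 t)⟩
  unfold bump
  split_ifs
  · exact ht
  · exact le_rfl

lemma psi_bump {a : ℕ → ℝ} (ha : Adm a) (j0 : ℕ) (t : ℝ) (r : ℝ) :
    psi (fun j => a j + bump j0 t j) r = psi a r + t * ker j0 r := by
  unfold psi
  have h1 : Summable (fun j => bump j0 t j * ker j r) := by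
    refine summable_of_ne_finset_zero (s := {j0}) (fun j hj => ?_)
    unfold bump
    rw [if_neg (by simpa using hj), zero_mul]
  have h2 : ∑' j, bump j0 t j * ker j r = t * ker j0 r := by
    rw [tsum_eq_single j0]
    · simp [bump]
    · intro j hj
      simp [bump, hj]
  simp_rw [add_mul]
  rw [(summable_ker ha r).tsum_add h1, h2]

/-- kernel of the cell integrals -/
noncomputable def Kcell (a : ℕ → ℝ) (t : ℝ) (j0 D : ℕ) (x y : E3) : ℝ :=
  Kphi a x y + t * KK * (((j0 + 1 : ℕ) : ℝ)^3)⁻¹ + Kcube (ww a (j0+1) D) x y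

lemma measurable_Kcell {a : ℕ → ℝ} (ha : Adm a) (t : ℝ) (j0 D : ℕ) :
    Measurable (Function.uncurry (Kcell a t j0 D)) :=
  ((measurable_Kphi ha).add_const _).add (measurable_Kcube _)

lemma decouple {a : ℕ → ℝ} (ha : Adm a) {t : ℝ} (ht : 0 ≤ t) (j0 D : ℕ) {n : ℕ} (x : Fin n → E3) :
    ∑ i, ∑ j, Kphi (fun j => a j + bump j0 t j) (x i) (x j)
      ≤ ∑ i, ∑ j, if cb ((j0+1 : ℕ) : ℝ) (x i) = cb ((j0+1 : ℕ) : ℝ) (x j) then Kcell a t j0 D (x i) (x j) else 0 := by
  classical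
  have h1 := psi_cross ha x (j0+1) D
  have h2 := ker_cell_bound x j0
  have hcast : ((j0 + 1 : ℕ) : ℝ) = (j0:ℝ) + 1 := by push_cast; ring
  rw [← hcast] at h2
  set l : ℝ := ((j0+1 : ℕ) : ℝ) with hl
  have e1 : ∑ i, ∑ j, Kphi (fun j => a j + bump j0 t j) (x i) (x j)
      = ∑ i, ∑ j, Kphi a (x i) (x j) + (t/2) * ∑ i, ∑ j, ker j0 (dist (x i) (x j)) := by
    simp_rw [Finset.mul_sum, ← Finset.sum_add_distrib]
    refine Finset.sum_congr rfl (fun i _ => Finset.sum_congr rfl (fun j _ => ?_))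
    unfold Kphi
    rw [phi_eq, phi_eq, psi_bump ha]
    ring
  have e2 : ∑ i, ∑ j, Kphi a (x i) (x j)
      ≤ ∑ i, ∑ j, (if cb l (x i) = cb l (x j) then Kphi a (x i) (x j) else 0)
        + (1/2) * ∑ i, ∑ i', (if cb l (x i) ≠ cb l (x i') then psi a (dist (x i) (x i')) else 0) := by
    simp_rw [Finset.mul_sum, ← Finset.sum_add_distrib]
    refine Finset.sum_le_sum (fun i _ => Finset.sum_le_sum (fun j _ => ?_))
    by_cases hc : cb l (x i) = cb l (x j)
    · simp [hc]
    · simp only [hc, if_false, ne_eq, not_false_eq_true, if_true]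
      unfold Kphi
      rw [phi_eq]
      have := phi0_nonneg (dist (x i) (x j))
      linarith
  have e3 : ∑ i, ∑ j, (if cb l (x i) = cb l (x j) then Kcell a t j0 D (x i) (x j) else 0)
      = ∑ i, ∑ j, (if cb l (x i) = cb l (x j) then Kphi a (x i) (x j) else 0)
        + (t * KK * (l^3)⁻¹) * ∑ i, ∑ j, (if cb l (x i) = cb l (x j) then (1:ℝ) else 0)
        + ∑ i, ∑ i', (if cb 1 (x i) = cb 1 (x i') then ww a (j0+1) D (cb 1 (x i)) else 0) := by
    simp_rw [Finset.mul_sum, ← Finset.sum_add_distrib]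
    refine Finset.sum_congr rfl (fun i _ => Finset.sum_congr rfl (fun j _ => ?_))
    by_cases hc : cb l (x i) = cb l (x j)
    · rw [if_pos hc, if_pos hc, if_pos hc, mul_one]
      rfl
    · have hc1 : ¬ cb 1 (x i) = cb 1 (x j) := by
        intro h
        apply hc
        rw [hl, cb_nat, cb_nat, h]
      simp [hc, hc1]
  rw [e1, e3]
  have h3 : (t/2) * ∑ i, ∑ j, ker j0 (dist (x i) (x j))
      ≤ (t * KK * (l^3)⁻¹) * ∑ i, ∑ j, (if cb l (x i) = cb l (x j) then (1:ℝ) else 0) := by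
    calc (t/2) * ∑ i, ∑ j, ker j0 (dist (x i) (x j))
        ≤ (t/2) * (2197 * (l^3)⁻¹ * ∑ i, ∑ i', if cb l (x i) = cb l (x i') then (1:ℝ) else 0) :=
          mul_le_mul_of_nonneg_left h2 (by positivity)
      _ = _ := by unfold KK; ring
  linarith

lemma cb_one_add_vec (l : ℕ) (e : Fin 3 → ℤ) (x : E3) :
    cb 1 (x + vec l e) = fun t => cb 1 x t + l * e t := by
  funext t
  unfold cb
  simp only [PiLp.add_apply, vec_apply, div_one]
  have : (l:ℝ) * (e t : ℝ) = ((l * e t : ℤ) : ℝ) := by push_cast; ring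
  rw [this, Int.floor_add_intCast]

lemma Bdl_periodic (l D : ℕ) (hl : 0 < l) (e k : Fin 3 → ℤ) :
    Bdl l D (fun t => k t + l * e t) ↔ Bdl l D k := by
  have hl' : (l:ℤ) ≠ 0 := by omega
  constructor
  · rintro ⟨k', hk', hne⟩
    refine ⟨fun t => k' t - l * e t, fun t => ?_, fun h => hne ?_⟩
    · have := hk' t
      have e1 : k t - (k' t - l * e t) = k t + l * e t - k' t := by ring
      rw [e1]; exact this
    · funext t
      have := congrFun h t
      simp only at this ⊢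
      have h2 : k' t = (k' t - l * e t) + l * e t := by ring
      rw [h2, Int.add_mul_ediv_left _ _ hl', Int.add_mul_ediv_left _ _ hl', this]
  · rintro ⟨k', hk', hne⟩
    refine ⟨fun t => k' t + l * e t, fun t => ?_, fun h => hne ?_⟩
    · have := hk' t
      have e1 : k t + l * e t - (k' t + l * e t) = k t - k' t := by ring
      rw [e1]; exact this
    · funext t
      have := congrFun h t
      simp only at this ⊢
      rw [Int.add_mul_ediv_left _ _ hl', Int.add_mul_ediv_left _ _ hl'] at this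
      linarith

lemma Kcell_translate (a : ℕ → ℝ) (t : ℝ) (j0 D : ℕ) (e : Fin 3 → ℤ) (x y : E3) :
    Kcell a t j0 D (x + vec ((j0+1 : ℕ) : ℝ) e) (y + vec ((j0+1 : ℕ) : ℝ) e) = Kcell a t j0 D x y := by
  unfold Kcell
  rw [Kphi_translate]
  congr 1
  unfold Kcube
  rw [cb_one_add_vec, cb_one_add_vec]
  have h1 : ((fun t => cb 1 x t + ((j0+1 : ℕ):ℤ) * e t) = fun t => cb 1 y t + ((j0+1 : ℕ):ℤ) * e t) ↔ cb 1 x = cb 1 y := by
    constructor
    · intro h
      funext t
      have := congrFun h t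
      linarith
    · intro h; rw [h]
  have h2 : ww a (j0+1) D (fun t => cb 1 x t + ((j0+1 : ℕ):ℤ) * e t) = ww a (j0+1) D (cb 1 x) := by
    have hb := Bdl_periodic (j0+1) D (by omega) e (cb 1 x)
    unfold ww
    by_cases hB : Bdl (j0+1) D (cb 1 x)
    · rw [if_pos (hb.2 hB), if_pos hB]
    · rw [if_neg (fun h => hB (hb.1 h)), if_neg hB]
  by_cases hc : cb 1 x = cb 1 y
  · rw [if_pos (h1.2 hc), if_pos hc, h2]
  · rw [if_neg (fun h => hc (h1.1 h)), if_neg hc]

/-- The pressure is bounded by the cell integral. -/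
lemma P_le_cell {a : ℕ → ℝ} (ha : Adm a) {t : ℝ} (ht : 0 ≤ t) (j0 D : ℕ) (μ : ℝ) {c : ℝ}
    (h : G (B (j0+1)) (Ex μ (Kcell a t j0 D)) ≤ ENNReal.ofReal (Real.exp c)) :
    P (fun j => a j + bump j0 t j) μ ≤ c / ((j0 + 1 : ℕ) : ℝ)^3 := by
  have ha' := adm_bump ha j0 ht
  have hl0 : (0:ℝ) < ((j0 + 1 : ℕ) : ℝ) := by positivity
  have key : ∀ q : ℕ, lnXi (fun j => a j + bump j0 t j) μ (q * (j0+1)) ≤ (q:ℝ)^3 * c := by
    intro q
    rw [lnXi_le_iff ha']
    unfold Xi
    rw [B_eq_biUnion q (j0+1) (by omega)]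
    have h1 := G_le_prod (cubes q) (Q ((j0+1 : ℕ) : ℝ)) (cb ((j0+1 : ℕ) : ℝ))
      (fun e _ => measurableSet_Q _ e) (fun e _ x hx => hx) μ
      (Kphi (fun j => a j + bump j0 t j)) (Kcell a t j0 D) (measurable_Kcell ha t j0 D)
      (fun n x _ _ => decouple ha ht j0 D x)
    refine h1.trans ?_
    have h2 : ∀ e ∈ cubes q, G (Q ((j0+1 : ℕ) : ℝ) e) (Ex μ (Kcell a t j0 D)) = G (B (j0+1)) (Ex μ (Kcell a t j0 D)) := by
      intro e _
      rw [Q_eq_translate (j0+1) (by omega) e]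
      exact G_Ex_translate (measurableSet_B _) _ μ (measurable_Kcell ha t j0 D)
        (fun x y => Kcell_translate a t j0 D e x y)
    rw [Finset.prod_congr rfl h2, Finset.prod_const, card_cubes]
    calc G (B (j0+1)) (Ex μ (Kcell a t j0 D)) ^ q^3 ≤ (ENNReal.ofReal (Real.exp c))^(q^3) := by gcongr
      _ = ENNReal.ofReal (Real.exp ((q:ℝ)^3 * c)) := by
        rw [← ENNReal.ofReal_pow (Real.exp_pos _).le, ← Real.exp_nat_mul]
        push_cast
        rfl
  have ht1 : Tendsto (fun q : ℕ => q * (j0+1)) atTop atTop :=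
    tendsto_id.atTop_mul_const' (by omega)
  have ht2 := (tendsto_lnXi ha' μ).comp ht1
  refine le_of_tendsto ht2 ?_
  filter_upwards [eventually_gt_atTop 0] with q hq
  have hq' : (0:ℝ) < q := by exact_mod_cast hq
  simp only [Function.comp_apply]
  rw [div_le_div_iff₀ (by positivity) (by positivity)]
  calc lnXi (fun j => a j + bump j0 t j) μ (q * (j0+1)) * ((j0 + 1 : ℕ) : ℝ)^3
      ≤ ((q:ℝ)^3 * c) * ((j0 + 1 : ℕ) : ℝ)^3 := mul_le_mul_of_nonneg_right (key q) (by positivity)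
    _ = c * ((q * (j0+1) : ℕ) : ℝ)^3 := by push_cast; ring

end Vale.Agent.Lib.P171
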