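import Mathlib
import Vale.Agent.Lib.P171.Upper

/-! Bounds for the cell integrals. -/

open MeasureTheory Set Filter Topology
open scoped ENNReal

namespace Vale.Agent.Lib.P171

lemma card_slab (l D : ℕ) (t : Fin 3) (c : ℤ) :
    ((cubes l).filter (fun e => c ≤ e t ∧ e t < c + D)).card ≤ D * l^2 := by
  classical
  have hsub : (cubes l).filter (fun e => c ≤ e t ∧ e t < c + D)
      ⊆ Fintype.piFinset (fun i => if i = t then Finset.Ico c (c + D) else Finset.Ico (0:ℤ) l) := by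
    intro e he
    rw [Finset.mem_filter, mem_cubes] at he
    rw [Fintype.mem_piFinset]
    intro i
    by_cases hi : i = t
    · subst hi
      rw [if_pos rfl, Finset.mem_Ico]
      exact he.2
    · rw [if_neg hi, Finset.mem_Ico]
      exact he.1 i
  refine (Finset.card_le_card hsub).trans (le_of_eq ?_)
  rw [Fintype.card_piFinset, Fin.prod_univ_three]
  fin_cases t <;> simp <;> ring

lemma card_boundary (l D : ℕ) : ∃ T : Finset (Fin 3 → ℤ), T.card ≤ 6 * (D * l^2) ∧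
    ∀ e ∈ cubes l, Bdl l D e → e ∈ T := by
  classical
  refine ⟨(Finset.univ : Finset (Fin 3)).biUnion (fun t =>
    ((cubes l).filter (fun e => (0:ℤ) ≤ e t ∧ e t < 0 + D)) ∪
      ((cubes l).filter (fun e => (l:ℤ) - D ≤ e t ∧ e t < (l:ℤ) - D + D))), ?_, ?_⟩
  · refine Finset.card_biUnion_le.trans ?_
    calc _ ≤ ∑ _t : Fin 3, (D * l^2 + D * l^2) := Finset.sum_le_sum (fun t _ =>
          (Finset.card_union_le _ _).trans (add_le_add (card_slab l D t 0) (card_slab l D t _)))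
      _ = 6 * (D * l^2) := by simp; ring
  · intro e he hB
    obtain ⟨k', hk', hne⟩ := hB
    obtain ⟨t, ht⟩ := Function.ne_iff.1 hne
    rw [Finset.mem_biUnion]
    refine ⟨t, Finset.mem_univ _, ?_⟩
    rw [Finset.mem_union, Finset.mem_filter, Finset.mem_filter]
    have he' := mem_cubes.1 he t
    have h0 : e t / (l:ℤ) = 0 := Int.ediv_eq_zero_of_lt he'.1 he'.2
    rw [h0] at ht
    have hk := abs_le.1 (hk' t)
    by_cases hneg : k' t < 0
    · left
      exact ⟨he, he'.1, by omega⟩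
    · right
      have hge : (l:ℤ) ≤ k' t := by
        by_contra hcon
        push Not at hcon hneg
        exact ht (Int.ediv_eq_zero_of_lt hneg hcon).symm
      exact ⟨he, by omega, by omega⟩

lemma zst_mono (a : ℕ → ℝ) (μ : ℝ) {c c' : ℝ} (h : c ≤ c') : zst a μ c ≤ zst a μ c' := by
  unfold zst
  refine Real.exp_le_exp.2 ?_
  have : mst a c ≤ mst a c' := by
    unfold mst
    refine Nat.add_le_add_right (Nat.ceil_mono ?_) 2
    linarith
  have h2 : (mst a c : ℝ) ≤ mst a c' := by exact_mod_cast this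
  gcongr

/-- The second factor. -/
lemma cell_two {a : ℕ → ℝ} (ha : Adm a) (μ : ℝ) {s : ℝ} (hs : 0 < s) (l D : ℕ)
    (hD : KK * tailA a D ≤ s) :
    G (B l) (Ex μ (fun x y => Kphi a x y + Kcube (fun k => ww a l D k / s) x y))
      ≤ ENNReal.ofReal (Real.exp ((l:ℝ)^3 * zst a μ 1
          + 6 * ((D:ℝ) * (l:ℝ)^2) * zst a μ (KK * (mass a + tailA a D) / s))) := by
  classical
  rw [B_eq_unit]
  have hKK : (0:ℝ) ≤ KK := by unfold KK; norm_num
  have h := G_stab ha (cubes l) μ (fun k => ww a l D k / s) (fun k => mst a (ww a l D k / s))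
    (fun k => mst_ge_two a _) (fun k => mst_ge a _)
  refine h.trans (ENNReal.ofReal_le_ofReal (Real.exp_le_exp.2 ?_))
  obtain ⟨T, hT, hTB⟩ := card_boundary l D
  set Cb := KK * (mass a + tailA a D) / s with hCb
  have hpt : ∀ e ∈ cubes l, Real.exp (μ + (1/18) * ((mst a (ww a l D e / s) : ℕ) : ℝ)^4)
      ≤ zst a μ 1 + if e ∈ T then zst a μ Cb else 0 := by
    intro e he
    have h0 : Real.exp (μ + (1/18) * ((mst a (ww a l D e / s) : ℕ) : ℝ)^4) = zst a μ (ww a l D e / s) := rfl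
    rw [h0]
    by_cases hB : Bdl l D e
    · rw [if_pos (hTB e he hB)]
      have : ww a l D e / s = Cb := by
        rw [hCb]; unfold ww; rw [if_pos hB]
      rw [this]
      linarith [zst_pos a μ 1]
    · have h1 : ww a l D e / s ≤ 1 := by
        unfold ww
        rw [if_neg hB, zero_add, div_le_one hs]
        exact hD
      have h2 := zst_mono a μ h1
      have h3 : 0 ≤ if e ∈ T then zst a μ Cb else 0 := by
        split_ifs
        · exact (zst_pos _ _ _).le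
        · exact le_rfl
      linarith
  calc ∑ e ∈ cubes l, Real.exp (μ + (1/18) * ((mst a (ww a l D e / s) : ℕ) : ℝ)^4)
      ≤ ∑ e ∈ cubes l, (zst a μ 1 + if e ∈ T then zst a μ Cb else 0) := Finset.sum_le_sum hpt
    _ = (l:ℝ)^3 * zst a μ 1 + (((cubes l).filter (fun e => e ∈ T)).card : ℝ) * zst a μ Cb := by
        rw [Finset.sum_add_distrib, Finset.sum_const, card_cubes, ← Finset.sum_filter, Finset.sum_const]
        simp [nsmul_eq_mul]
    _ ≤ (l:ℝ)^3 * zst a μ 1 + 6 * ((D:ℝ) * (l:ℝ)^2) * zst a μ Cb := by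
        have h1 : ((cubes l).filter (fun e => e ∈ T)).card ≤ 6 * (D * l^2) := by
          refine le_trans (Finset.card_le_card ?_) hT
          intro e he
          exact (Finset.mem_filter.1 he).2
        have h2 : (((cubes l).filter (fun e => e ∈ T)).card : ℝ) ≤ 6 * ((D:ℝ) * (l:ℝ)^2) := by exact_mod_cast h1
        have := (zst_pos a μ Cb).le
        gcongr

/-- canonical partition function -/
noncomputable def Zn (a : ℕ → ℝ) (l n : ℕ) : ℝ≥0∞ :=
  ((n.factorial : ℝ≥0∞))⁻¹ * I n (B l) (fun s => ENNReal.ofReal (Real.exp (pS (Kphi a) s)))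

lemma term_eq {a : ℕ → ℝ} (μ u : ℝ) (l n : ℕ) :
    ((n.factorial : ℝ≥0∞))⁻¹ * I n (B l) (Ex μ (fun x y => Kphi a x y + u))
      = ENNReal.ofReal (Real.exp (μ * n + u * (n:ℝ)^2)) * Zn a l n := by
  unfold Zn I
  rw [← mul_assoc, mul_comm (ENNReal.ofReal _), mul_assoc]
  congr 1
  rw [← lintegral_const_mul' _ _ ENNReal.ofReal_ne_top]
  refine lintegral_congr (fun x => ?_)
  simp only [Ex_conf, pS_conf]
  rw [← ENNReal.ofReal_mul (Real.exp_pos _).le, ← Real.exp_add]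
  congr 2
  simp_rw [Finset.sum_add_distrib]
  simp
  ring

lemma Xi_eq_tsum (a : ℕ → ℝ) (μ : ℝ) (l : ℕ) :
    Xi a μ l = ∑' n : ℕ, ENNReal.ofReal (Real.exp (μ * n)) * Zn a l n := by
  unfold Xi G
  refine tsum_congr (fun n => ?_)
  have := term_eq (a := a) μ 0 l n
  simpa using this

lemma Zn_le {a : ℕ → ℝ} (ha : Adm a) (μ : ℝ) (l n : ℕ) :
    ENNReal.ofReal (Real.exp (μ * n)) * Zn a l n ≤ ENNReal.ofReal (Real.exp (((l:ℝ) + 1)^3 * P a μ)) := by
  calc ENNReal.ofReal (Real.exp (μ * n)) * Zn a l n ≤ Xi a μ l := by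
        rw [Xi_eq_tsum]; exact ENNReal.le_tsum n
    _ ≤ _ := by
        rw [← lnXi_le_iff ha]
        exact le_P ha μ l

lemma sq_le_cube {l n : ℕ} (x : Fin n → E3) (hx : ∀ i, x i ∈ B l) :
    ∑ _i : Fin n, ∑ _j : Fin n, (1:ℝ) ≤ (l:ℝ)^3 * ∑ i, ∑ j, if cb 1 (x i) = cb 1 (x j) then (1:ℝ) else 0 := by
  have hlab : ∀ i, cb 1 (x i) ∈ cubes l := by
    intro i
    have := hx i
    rw [B_eq_unit] at this
    simp only [Set.mem_iUnion, exists_prop] at this
    obtain ⟨e, he, hxe⟩ := this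
    have hxe' : cb 1 (x i) = e := hxe
    rw [hxe']; exact he
  have h := schur (fun i => cb 1 (x i)) (fun _ _ => (1:ℝ)) (fun _ _ => rfl) (fun _ _ => zero_le_one)
    (fun _ => (l:ℝ)^3) (by
      intro i
      rw [Finset.sum_const, nsmul_eq_mul, mul_one]
      have : (Finset.univ.image (fun i => cb 1 (x i))).card ≤ (cubes l).card := by
        refine Finset.card_le_card ?_
        intro e he
        obtain ⟨i, _, rfl⟩ := Finset.mem_image.1 he
        exact hlab i
      rw [card_cubes] at this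
      exact_mod_cast this)
  refine h.trans (le_of_eq ?_)
  simp_rw [Finset.mul_sum]
  refine Finset.sum_congr rfl (fun i _ => Finset.sum_congr rfl (fun j _ => ?_))
  split_ifs <;> simp

/-- A priori bound with the full quadratic term. -/
lemma quad_bound {a : ℕ → ℝ} (ha : Adm a) (μ : ℝ) {l : ℕ} (hl : 0 < l) :
    ∑' n : ℕ, ENNReal.ofReal (Real.exp (μ * n + (KK * ((l:ℝ)^3)⁻¹) * (n:ℝ)^2)) * Zn a l n
      ≤ ENNReal.ofReal (Real.exp ((l:ℝ)^3 * zst a μ KK)) := by
  have h1 : ∑' n : ℕ, ENNReal.ofReal (Real.exp (μ * n + (KK * ((l:ℝ)^3)⁻¹) * (n:ℝ)^2)) * Zn a l n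
      = G (B l) (Ex μ (fun x y => Kphi a x y + KK * ((l:ℝ)^3)⁻¹)) := by
    unfold G
    exact tsum_congr (fun n => (term_eq μ _ l n).symm)
  rw [h1]
  have hKK : (0:ℝ) ≤ KK := by unfold KK; norm_num
  have h2 : G (B l) (Ex μ (fun x y => Kphi a x y + KK * ((l:ℝ)^3)⁻¹))
      ≤ G (B l) (Ex μ (fun x y => Kphi a x y + Kcube (fun _ => KK) x y)) := by
    refine G_mono (measurableSet_B l) (subset_refl _) ae_inj ?_
    intro s hs hsA
    obtain ⟨n, x, rfl⟩ := exists_conf s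
    have hx : ∀ i, x i ∈ B l := fun i => hsA (x i) ((mem_conf x _).2 ⟨i, rfl⟩)
    rw [Ex_conf, Ex_conf]
    refine ENNReal.ofReal_le_ofReal (Real.exp_le_exp.2 ?_)
    have h3 := sq_le_cube x hx
    have hl3 : (0:ℝ) < (l:ℝ)^3 := by positivity
    have h4 : ∑ i, ∑ j, (Kphi a (x i) (x j) + KK * ((l:ℝ)^3)⁻¹)
        = ∑ i, ∑ j, Kphi a (x i) (x j) + (KK * ((l:ℝ)^3)⁻¹) * ∑ _i : Fin n, ∑ _j : Fin n, (1:ℝ) := by
      simp_rw [Finset.mul_sum, ← Finset.sum_add_distrib, mul_one]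
    have h5 : ∑ i, ∑ j, (Kphi a (x i) (x j) + Kcube (fun _ => KK) (x i) (x j))
        = ∑ i, ∑ j, Kphi a (x i) (x j) + KK * ∑ i, ∑ j, if cb 1 (x i) = cb 1 (x j) then (1:ℝ) else 0 := by
      simp_rw [Finset.mul_sum, ← Finset.sum_add_distrib]
      refine Finset.sum_congr rfl (fun i _ => Finset.sum_congr rfl (fun j _ => ?_))
      unfold Kcube
      split_ifs <;> simp
    rw [h4, h5]
    have h6 : (KK * ((l:ℝ)^3)⁻¹) * ∑ _i : Fin n, ∑ _j : Fin n, (1:ℝ)
        ≤ KK * ∑ i, ∑ j, if cb 1 (x i) = cb 1 (x j) then (1:ℝ) else 0 := by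
      calc (KK * ((l:ℝ)^3)⁻¹) * ∑ _i : Fin n, ∑ _j : Fin n, (1:ℝ)
          ≤ (KK * ((l:ℝ)^3)⁻¹) * ((l:ℝ)^3 * ∑ i, ∑ j, if cb 1 (x i) = cb 1 (x j) then (1:ℝ) else 0) :=
            mul_le_mul_of_nonneg_left h3 (by positivity)
        _ = _ := by field_simp
    linarith
  refine h2.trans ?_
  rw [B_eq_unit]
  have h := G_stab ha (cubes l) μ (fun _ => KK) (fun _ => mst a KK) (fun _ => mst_ge_two a _) (fun _ => mst_ge a _)
  refine h.trans (le_of_eq ?_)
  simp [card_cubes, zst]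

/-- The first factor: domination by the homogeneous pressure near the density `ρ`. -/
lemma cell_one {a : ℕ → ℝ} (ha : Adm a) (μ : ℝ) {l : ℕ} (hl : 0 < l) {ρ η θ M t : ℝ}
    (hρ : 0 ≤ ρ) (hη : 0 < η) (hθ : 0 < θ) (hM : 0 < M) (ht0 : 0 ≤ t) (ht1 : t ≤ 1/2)
    (hder : P a (μ + θ) ≤ P a μ + θ * (ρ + η/2))
    (hMz : zst a μ KK ≤ KK / 2 * M^2)
    (htθ : t * (KK * M^2) ≤ θ * η / 4)
    (hlρ : ((l:ℝ) + 1)^3 * (ρ + η/2) ≤ (l:ℝ)^3 * (ρ + 3 * η / 4)) :
    G (B l) (Ex μ (fun x y => Kphi a x y + t * KK * ((l:ℝ)^3)⁻¹))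
      ≤ ENNReal.ofReal ((M * (l:ℝ)^3 + 2) * Real.exp (((l:ℝ) + 1)^3 * P a μ + t * KK * (ρ + η)^2 * (l:ℝ)^3)) := by
  have hKK : (0:ℝ) < KK := by unfold KK; norm_num
  have hl3 : (0:ℝ) < (l:ℝ)^3 := by positivity
  set E := ((l:ℝ) + 1)^3 * P a μ + t * KK * (ρ + η)^2 * (l:ℝ)^3 with hE
  have hE0 : 0 ≤ E := by
    have := P_nonneg ha μ
    positivity
  set u := t * KK * ((l:ℝ)^3)⁻¹ with hu
  set f : ℕ → ℝ≥0∞ := fun n => ENNReal.ofReal (Real.exp (μ * n + u * (n:ℝ)^2)) * Zn a l n with hf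
  have h1 : G (B l) (Ex μ (fun x y => Kphi a x y + u)) = ∑' n : ℕ, f n := by
    unfold G
    exact tsum_congr (fun n => term_eq μ _ l n)
  rw [h1]
  set N0 : ℕ := ⌊M * (l:ℝ)^3⌋₊ with hN0
  -- small n
  have hsmall : ∀ n ∈ Finset.range (N0 + 1), f n ≤ ENNReal.ofReal (Real.exp E) := by
    intro n hn
    have hnM : (n:ℝ) ≤ M * (l:ℝ)^3 := by
      have : n ≤ N0 := by have := Finset.mem_range.1 hn; omega
      exact (Nat.le_floor_iff (by positivity)).1 this
    have hn0 : (0:ℝ) ≤ n := Nat.cast_nonneg n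
    by_cases hc : (n:ℝ) ≤ (ρ + η) * (l:ℝ)^3
    · have h2 : f n = ENNReal.ofReal (Real.exp (u * (n:ℝ)^2)) * (ENNReal.ofReal (Real.exp (μ * n)) * Zn a l n) := by
        rw [hf]
        simp only
        rw [← mul_assoc, ← ENNReal.ofReal_mul (Real.exp_pos _).le, ← Real.exp_add, add_comm]
      rw [h2]
      calc ENNReal.ofReal (Real.exp (u * (n:ℝ)^2)) * (ENNReal.ofReal (Real.exp (μ * n)) * Zn a l n)
          ≤ ENNReal.ofReal (Real.exp (u * (n:ℝ)^2)) * ENNReal.ofReal (Real.exp (((l:ℝ) + 1)^3 * P a μ)) := by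
            gcongr
            exact Zn_le ha μ l n
        _ = ENNReal.ofReal (Real.exp (u * (n:ℝ)^2 + ((l:ℝ) + 1)^3 * P a μ)) := by
            rw [← ENNReal.ofReal_mul (Real.exp_pos _).le, ← Real.exp_add]
        _ ≤ ENNReal.ofReal (Real.exp E) := by
            refine ENNReal.ofReal_le_ofReal (Real.exp_le_exp.2 ?_)
            have h3 : (n:ℝ)^2 ≤ ((ρ + η) * (l:ℝ)^3)^2 := pow_le_pow_left₀ hn0 hc 2
            have h4 : u * (n:ℝ)^2 ≤ t * KK * (ρ + η)^2 * (l:ℝ)^3 := by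
              calc u * (n:ℝ)^2 ≤ u * ((ρ + η) * (l:ℝ)^3)^2 := by
                    refine mul_le_mul_of_nonneg_left h3 ?_
                    rw [hu]; positivity
                _ = t * KK * (ρ + η)^2 * (l:ℝ)^3 := by
                    rw [hu]; field_simp
            rw [hE]; linarith
    · push Not at hc
      have h2 : f n = ENNReal.ofReal (Real.exp (u * (n:ℝ)^2 - θ * n)) * (ENNReal.ofReal (Real.exp ((μ + θ) * n)) * Zn a l n) := by
        rw [hf]
        simp only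
        rw [← mul_assoc, ← ENNReal.ofReal_mul (Real.exp_pos _).le, ← Real.exp_add]
        congr 3
        ring
      rw [h2]
      calc ENNReal.ofReal (Real.exp (u * (n:ℝ)^2 - θ * n)) * (ENNReal.ofReal (Real.exp ((μ + θ) * n)) * Zn a l n)
          ≤ ENNReal.ofReal (Real.exp (u * (n:ℝ)^2 - θ * n)) * ENNReal.ofReal (Real.exp (((l:ℝ) + 1)^3 * P a (μ + θ))) := by
            gcongr
            exact Zn_le ha (μ + θ) l n
        _ = ENNReal.ofReal (Real.exp (u * (n:ℝ)^2 - θ * n + ((l:ℝ) + 1)^3 * P a (μ + θ))) := by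
            rw [← ENNReal.ofReal_mul (Real.exp_pos _).le, ← Real.exp_add]
        _ ≤ ENNReal.ofReal (Real.exp E) := by
            refine ENNReal.ofReal_le_ofReal (Real.exp_le_exp.2 ?_)
            have h3 : (n:ℝ)^2 ≤ (M * (l:ℝ)^3)^2 := pow_le_pow_left₀ hn0 hnM 2
            have h4 : u * (n:ℝ)^2 ≤ t * (KK * M^2) * (l:ℝ)^3 := by
              calc u * (n:ℝ)^2 ≤ u * (M * (l:ℝ)^3)^2 := by
                    refine mul_le_mul_of_nonneg_left h3 ?_
                    rw [hu]; positivity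
                _ = t * (KK * M^2) * (l:ℝ)^3 := by
                    rw [hu]; field_simp
            have h5 : t * (KK * M^2) * (l:ℝ)^3 ≤ θ * η / 4 * (l:ℝ)^3 := mul_le_mul_of_nonneg_right htθ hl3.le
            have h6 : ((l:ℝ) + 1)^3 * P a (μ + θ) ≤ ((l:ℝ) + 1)^3 * P a μ + θ * (((l:ℝ) + 1)^3 * (ρ + η/2)) := by
              calc ((l:ℝ) + 1)^3 * P a (μ + θ) ≤ ((l:ℝ) + 1)^3 * (P a μ + θ * (ρ + η/2)) :=
                    mul_le_mul_of_nonneg_left hder (by positivity)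
                _ = _ := by ring
            have h7 : θ * (((l:ℝ) + 1)^3 * (ρ + η/2)) ≤ θ * ((l:ℝ)^3 * (ρ + 3 * η / 4)) :=
              mul_le_mul_of_nonneg_left hlρ hθ.le
            have h8 : θ * ((ρ + η) * (l:ℝ)^3) ≤ θ * n := mul_le_mul_of_nonneg_left hc.le hθ.le
            have h9 : 0 ≤ t * KK * (ρ + η)^2 * (l:ℝ)^3 := by positivity
            rw [hE]
            nlinarith
  -- large n
  have hlarge : ∑' n : ℕ, (if n ∈ Finset.range (N0 + 1) then 0 else f n) ≤ 1 := by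
    have h2 : ∀ n : ℕ, (if n ∈ Finset.range (N0 + 1) then 0 else f n)
        ≤ ENNReal.ofReal (Real.exp (-(KK / 2 * M^2 * (l:ℝ)^3))) *
          (ENNReal.ofReal (Real.exp (μ * n + (KK * ((l:ℝ)^3)⁻¹) * (n:ℝ)^2)) * Zn a l n) := by
      intro n
      split_ifs with hn
      · exact zero_le
      · have hn' : M * (l:ℝ)^3 < n := by
          rw [Finset.mem_range] at hn
          push Not at hn
          exact (Nat.floor_lt (by positivity)).1 (by omega)
        rw [← mul_assoc, ← ENNReal.ofReal_mul (Real.exp_pos _).le, ← Real.exp_add, hf]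
        refine mul_le_mul' (ENNReal.ofReal_le_ofReal (Real.exp_le_exp.2 ?_)) le_rfl
        have h3 : (M * (l:ℝ)^3)^2 ≤ (n:ℝ)^2 := pow_le_pow_left₀ (by positivity) hn'.le 2
        have h4 : KK / 2 * M^2 * (l:ℝ)^3 ≤ (1/2) * (KK * ((l:ℝ)^3)⁻¹) * (n:ℝ)^2 := by
          calc KK / 2 * M^2 * (l:ℝ)^3 = (1/2) * (KK * ((l:ℝ)^3)⁻¹) * (M * (l:ℝ)^3)^2 := by field_simp
            _ ≤ _ := mul_le_mul_of_nonneg_left h3 (by positivity)
        have h5 : u * (n:ℝ)^2 ≤ (1/2) * (KK * ((l:ℝ)^3)⁻¹) * (n:ℝ)^2 := by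
          refine mul_le_mul_of_nonneg_right ?_ (sq_nonneg _)
          rw [hu, mul_assoc]
          exact mul_le_mul_of_nonneg_right ht1 (by positivity)
        linarith
    refine (ENNReal.tsum_le_tsum h2).trans ?_
    rw [ENNReal.tsum_mul_left]
    calc ENNReal.ofReal (Real.exp (-(KK / 2 * M^2 * (l:ℝ)^3))) *
          ∑' n : ℕ, (ENNReal.ofReal (Real.exp (μ * n + (KK * ((l:ℝ)^3)⁻¹) * (n:ℝ)^2)) * Zn a l n)
        ≤ ENNReal.ofReal (Real.exp (-(KK / 2 * M^2 * (l:ℝ)^3))) * ENNReal.ofReal (Real.exp ((l:ℝ)^3 * zst a μ KK)) := by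
          gcongr
          exact quad_bound ha μ hl
      _ = ENNReal.ofReal (Real.exp (-(KK / 2 * M^2 * (l:ℝ)^3) + (l:ℝ)^3 * zst a μ KK)) := by
          rw [← ENNReal.ofReal_mul (Real.exp_pos _).le, ← Real.exp_add]
      _ ≤ ENNReal.ofReal 1 := by
          refine ENNReal.ofReal_le_ofReal (Real.exp_le_one_iff.2 ?_)
          have : (l:ℝ)^3 * zst a μ KK ≤ (l:ℝ)^3 * (KK / 2 * M^2) := mul_le_mul_of_nonneg_left hMz hl3.le
          linarith
      _ = 1 := ENNReal.ofReal_one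
  have hsplit : ∑' n : ℕ, f n = ∑ n ∈ Finset.range (N0+1), f n + ∑' n : ℕ, (if n ∈ Finset.range (N0 + 1) then 0 else f n) := by
    have e1 : ∀ n, f n = (if n ∈ Finset.range (N0+1) then f n else 0) + (if n ∈ Finset.range (N0 + 1) then 0 else f n) := by
      intro n; split_ifs <;> simp
    conv_lhs => rw [tsum_congr e1]
    rw [ENNReal.tsum_add]
    congr 1
    rw [tsum_eq_sum (s := Finset.range (N0+1))]
    · exact Finset.sum_congr rfl (fun n hn => if_pos hn)
    · intro n hn; exact if_neg hn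
  rw [hsplit]
  calc ∑ n ∈ Finset.range (N0+1), f n + ∑' n : ℕ, (if n ∈ Finset.range (N0 + 1) then 0 else f n)
      ≤ ∑ n ∈ Finset.range (N0+1), ENNReal.ofReal (Real.exp E) + 1 := add_le_add (Finset.sum_le_sum hsmall) hlarge
    _ = ENNReal.ofReal ((N0 + 1) * Real.exp E + 1) := by
        rw [Finset.sum_const, Finset.card_range, nsmul_eq_mul,
          ENNReal.ofReal_add (by positivity) zero_le_one, ENNReal.ofReal_mul (by positivity), ENNReal.ofReal_one]
        congr 2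
        rw [ENNReal.ofReal_add (by positivity) zero_le_one, ENNReal.ofReal_natCast, ENNReal.ofReal_one]
        push_cast
        rfl
    _ ≤ _ := by
        refine ENNReal.ofReal_le_ofReal ?_
        have h2 : (N0:ℝ) ≤ M * (l:ℝ)^3 := Nat.floor_le (by positivity)
        have h3 : 1 ≤ Real.exp E := Real.one_le_exp hE0
        nlinarith

end Vale.Agent.Lib.P171
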