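import Mathlib

/-! Definitions for continuum particle systems in three dimensions, as in the problem statement. -/

open MeasureTheory Filter Topology

namespace Vale.Agent.Lib.P171

/-- Three-dimensional Euclidean space. -/
abbrev Space := EuclideanSpace ℝ (Fin 3)

/-- The energy `U_N(x_1, …, x_N)`: the sum over pairs `i < j` of `φ (|x_i - x_j|)`. -/
noncomputable def energy (φ : ℝ → ℝ) {N : ℕ} (x : Fin N → Space) : ℝ :=
  ∑ i : Fin N, ∑ j ∈ Finset.Ioi i, φ (dist (x i) (x j))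

/-- Stability: `U_N ≥ -B N` for all `N` and all configurations of distinct points. -/
def Stable (φ : ℝ → ℝ) : Prop :=
  ∃ B : ℝ, ∀ (N : ℕ) (x : Fin N → Space), Function.Injective x → -(B * N) ≤ energy φ x

/-- Temperedness: `φ r ≤ C r ^ (-3 - ε)` for all `r ≥ R₀`. -/
def Tempered (φ : ℝ → ℝ) : Prop :=
  ∃ C ε R₀ : ℝ, 0 < C ∧ 0 < ε ∧ 0 < R₀ ∧ ∀ r : ℝ, R₀ ≤ r → φ r ≤ C * r ^ (-3 - ε)

/-- Boundedness on every compact subinterval of `(0, ∞)`. -/
def LocallyBounded (φ : ℝ → ℝ) : Prop :=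
  ∀ a b : ℝ, 0 < a → a ≤ b → ∃ M : ℝ, ∀ r ∈ Set.Icc a b, |φ r| ≤ M

/-- The box `[0, L]^3`. -/
def box (L : ℝ) : Set Space := {x | ∀ i, x i ∈ Set.Icc 0 L}

/-- The box `([0, L]^3)^N` of labelled configurations. -/
def boxN (L : ℝ) (N : ℕ) : Set (Fin N → Space) := {x | ∀ i, x i ∈ box L}

/-- The canonical partition function `Z_{L,N}(β)`. -/
noncomputable def canonicalZ (φ : ℝ → ℝ) (β L : ℝ) (N : ℕ) : ℝ :=
  (1 / (N.factorial : ℝ)) * ∫ x in boxN L N, Real.exp (-β * energy φ x)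

/-- The grand canonical partition function. -/
noncomputable def grandZ (φ : ℝ → ℝ) (β z L : ℝ) : ℝ := ∑' N : ℕ, z ^ N * canonicalZ φ β L N

/-- `p` is the function `Π(β, ·)` on `(0, ∞)`: all integrals and series converge and the limit exists. -/
def IsPressure (φ : ℝ → ℝ) (β : ℝ) (p : ℝ → ℝ) : Prop :=
  (∀ (L : ℝ) (N : ℕ), IntegrableOn (fun x => Real.exp (-β * energy φ x)) (boxN L N)) ∧
  ∀ z : ℝ, 0 < z → (∀ L : ℝ, Summable (fun N : ℕ => z ^ N * canonicalZ φ β L N)) ∧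
    Tendsto (fun L : ℝ => (L ^ 3)⁻¹ * Real.log (grandZ φ β z L)) atTop (𝓝 (p z))

/-- Phase transition of type (a): for some `β > 0`, `z ↦ Π(β, z)` exists and is not differentiable
at some point of `(0, ∞)`. -/
def HasPhaseTransition (φ : ℝ → ℝ) : Prop :=
  ∃ β : ℝ, 0 < β ∧ ∃ p : ℝ → ℝ, IsPressure φ β p ∧ ∃ z : ℝ, 0 < z ∧ ¬ DifferentiableAt ℝ p z

end Vale.Agent.Lib.P171
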