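import Mathlib

/-! Ekeland's variational principle. -/

open Filter Topology

namespace Vale.Agent.Lib.P171

theorem ekeland {X : Type*} [MetricSpace X] [CompleteSpace X] [Nonempty X] (Q : X → ℝ)
    (hb : ∀ x, 0 ≤ Q x)
    (hlsc : ∀ (u : ℕ → X) (x : X), Tendsto u atTop (𝓝 x) → ∀ c, (∀ n, Q (u n) ≤ c) → Q x ≤ c)
    {ε : ℝ} (hε : 0 < ε) : ∃ x, ∀ y, Q x ≤ Q y + ε * dist x y := by
  classical
  set S : X → Set X := fun x => {y | Q y + ε * dist x y ≤ Q x} with hS
  have hself : ∀ x, x ∈ S x := fun x => by simp [hS]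
  have htrans : ∀ x y z, y ∈ S x → z ∈ S y → z ∈ S x := by
    intro x y z h1 h2
    simp only [hS, Set.mem_ofPred_eq] at h1 h2 ⊢
    have := dist_triangle x y z
    nlinarith
  have hchoose : ∀ (n : ℕ) (x : X), ∃ y ∈ S x, ∀ z ∈ S x, Q y ≤ Q z + (1/2)^n := by
    intro n x
    have hne : (Q '' S x).Nonempty := ⟨Q x, x, hself x, rfl⟩
    have hbd : BddBelow (Q '' S x) := ⟨0, by rintro _ ⟨y, _, rfl⟩; exact hb y⟩
    obtain ⟨_, ⟨y, hy, rfl⟩, hlt⟩ := exists_lt_of_csInf_lt hne
      (show sInf (Q '' S x) < sInf (Q '' S x) + (1/2)^n by linarith [pow_pos (show (0:ℝ) < 1/2 by norm_num) n])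
    refine ⟨y, hy, fun z hz => ?_⟩
    have := csInf_le hbd ⟨z, hz, rfl⟩
    linarith
  choose f hf1 hf2 using hchoose
  obtain ⟨x0⟩ := ‹Nonempty X›
  set u : ℕ → X := fun n => Nat.rec x0 (fun n x => f n x) n with hu
  have hu_succ : ∀ n, u (n+1) = f n (u n) := fun n => rfl
  have hmem : ∀ n m, n ≤ m → u m ∈ S (u n) := by
    intro n m hnm
    induction m, hnm using Nat.le_induction with
    | base => exact hself _
    | succ m _ ih =>
      refine htrans _ _ _ ih ?_
      rw [hu_succ]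
      exact hf1 m (u m)
  have hsmall : ∀ n, ∀ y ∈ S (u (n+1)), ε * dist (u (n+1)) y ≤ (1/2)^n := by
    intro n y hy
    have h1 : y ∈ S (u n) := htrans _ _ _ (hmem n (n+1) (by omega)) hy
    have h2 := hf2 n (u n) y h1
    rw [← hu_succ] at h2
    simp only [hS, Set.mem_ofPred_eq] at hy
    linarith
  have hcauchy : CauchySeq u := by
    refine Metric.cauchySeq_iff'.2 (fun δ hδ => ?_)
    obtain ⟨n, hn⟩ := exists_pow_lt_of_lt_one (show (0:ℝ) < ε * δ by positivity) (show (1/2:ℝ) < 1 by norm_num)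
    refine ⟨n+1, fun m hm => ?_⟩
    have := hsmall n (u m) (hmem (n+1) m hm)
    rw [dist_comm]
    have h3 : ε * dist (u (n+1)) (u m) < ε * δ := this.trans_lt hn
    exact lt_of_mul_lt_mul_left h3 hε.le
  obtain ⟨x, hx⟩ := cauchySeq_tendsto_of_complete hcauchy
  have hxS : ∀ n, x ∈ S (u n) := by
    intro n
    simp only [hS, Set.mem_ofPred_eq]
    refine le_of_forall_pos_le_add (fun δ hδ => ?_)
    have hdist : Tendsto (fun m => dist (u n) (u m)) atTop (𝓝 (dist (u n) x)) := tendsto_const_nhds.dist hx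
    have hev := hdist.eventually_const_lt (show dist (u n) x - δ / ε < dist (u n) x by
      have : 0 < δ / ε := by positivity
      linarith)
    obtain ⟨N, hN⟩ := (hev.and (eventually_ge_atTop n)).exists_forall_of_atTop
    have h1 : Q x ≤ Q (u n) - ε * dist (u n) x + δ := by
      refine hlsc (fun m => u (m + N)) x (hx.comp (tendsto_add_atTop_nat N)) _ (fun m => ?_)
      obtain ⟨h2, h3⟩ := hN (m + N) (by omega)
      have h4 := hmem n (m + N) h3
      simp only [hS, Set.mem_ofPred_eq] at h4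
      have h5 : ε * (dist (u n) x - δ / ε) ≤ ε * dist (u n) (u (m + N)) := mul_le_mul_of_nonneg_left h2.le hε.le
      have h6 : ε * (dist (u n) x - δ / ε) = ε * dist (u n) x - δ := by field_simp
      linarith
    linarith
  refine ⟨x, fun y => ?_⟩
  by_contra hcon
  push Not at hcon
  have hy : y ∈ S x := by
    simp only [hS, Set.mem_ofPred_eq]
    exact hcon.le
  have hyx : y = x := by
    have h1 : ∀ n, ε * dist (u (n+1)) y ≤ (1/2)^n := fun n => hsmall n y (htrans _ _ _ (hxS (n+1)) hy)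
    have h2 : Tendsto (fun n => ε * dist (u (n+1)) y) atTop (𝓝 (ε * dist x y)) :=
      ((hx.comp (tendsto_add_atTop_nat 1)).dist tendsto_const_nhds).const_mul ε
    have h3 : Tendsto (fun n : ℕ => (1/2:ℝ)^n) atTop (𝓝 0) := tendsto_pow_atTop_nhds_zero_of_lt_one (by norm_num) (by norm_num)
    have h4 : ε * dist x y ≤ 0 := le_of_tendsto_of_tendsto' h2 h3 h1
    have h5 : dist x y ≤ 0 := by
      by_contra h
      push Not at h
      have := mul_pos hε h
      linarith
    exact (dist_le_zero.1 h5).symm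
  rw [hyx, dist_self] at hcon
  simp at hcon

end Vale.Agent.Lib.P171
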