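import Mathlib
import Vale.Agent.Lib.P171.Cell

/-! At a point of differentiability, long range attraction raises the pressure only by the square of the density. -/

open MeasureTheory Set Filter Topology
open scoped ENNReal

namespace Vale.Agent.Lib.P171

lemma tailA_tendsto {a : ℕ → ℝ} (ha : Adm a) : Tendsto (fun D => tailA a D) atTop (𝓝 0) := by
  have h : Tendsto (fun D : ℕ => ∑' j, (if D < 6 * (j+1) then a j else 0)) atTop (𝓝 (∑' _j : ℕ, (0:ℝ))) := by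
    refine tendsto_tsum_of_dominated_convergence ha.sm ?_ ?_
    · intro j
      refine tendsto_const_nhds.congr' ?_
      filter_upwards [eventually_ge_atTop (6 * (j+1))] with D hD
      rw [if_neg (by omega)]
    · refine Eventually.of_forall (fun D j => ?_)
      split_ifs
      · rw [Real.norm_of_nonneg (ha.nn j)]
      · simpa using ha.nn j
  simpa [tailA] using h

lemma pS_lin (K₁ K₂ : E3 → E3 → ℝ) (p q : ℝ) (s : Multiset E3) :
    pS (fun x y => p * K₁ x y + q * K₂ x y) s = p * pS K₁ s + q * pS K₂ s := by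
  unfold pS
  simp only [Multiset.sum_map_add, Multiset.sum_map_mul_left]

lemma inv_nat_tendsto : Tendsto (fun l : ℕ => ((l:ℝ))⁻¹) atTop (𝓝 0) := tendsto_inv_atTop_nhds_zero_nat

/-- The main upper bound at fixed scale. -/
lemma cell_total {a : ℕ → ℝ} (ha : Adm a) (μ : ℝ) (j0 D : ℕ) {ρ η θ M t' s : ℝ}
    (hρ : 0 ≤ ρ) (hη : 0 < η) (hθ : 0 < θ) (hM : 0 < M) (ht0 : 0 ≤ t') (ht1 : t' ≤ 1/2)
    (hs0 : 0 < s) (hs1 : s < 1)
    (hder : P a (μ + θ) ≤ P a μ + θ * (ρ + η/2))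
    (hMz : zst a μ KK ≤ KK / 2 * M^2)
    (htθ : t' * (KK * M^2) ≤ θ * η / 4)
    (hlρ : (((j0+1 : ℕ):ℝ) + 1)^3 * (ρ + η/2) ≤ ((j0+1 : ℕ):ℝ)^3 * (ρ + 3 * η / 4))
    (hD : KK * tailA a D ≤ s) :
    P (fun j => a j + bump j0 ((1 - s) * t') j) μ
      ≤ ((1 - s) * (Real.log (M + 2) + 3 * ((j0+1 : ℕ):ℝ)
            + ((((j0+1 : ℕ):ℝ) + 1)^3 * P a μ + t' * KK * (ρ + η)^2 * ((j0+1 : ℕ):ℝ)^3))
          + s * (((j0+1 : ℕ):ℝ)^3 * zst a μ 1
            + 6 * ((D:ℝ) * ((j0+1 : ℕ):ℝ)^2) * zst a μ (KK * (mass a + tailA a D) / s))) / ((j0+1 : ℕ):ℝ)^3 := by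
  set l : ℕ := j0 + 1 with hl
  have hlpos : 0 < l := by omega
  have hl1 : (1:ℝ) ≤ l := by exact_mod_cast hlpos
  have hs1' : (0:ℝ) < 1 - s := by linarith
  refine P_le_cell ha (mul_nonneg hs1'.le ht0) j0 D μ ?_
  rw [← hl]
  set K₁ : E3 → E3 → ℝ := fun x y => Kphi a x y + t' * KK * ((l:ℝ)^3)⁻¹ with hK₁
  set K₂ : E3 → E3 → ℝ := fun x y => Kphi a x y + Kcube (fun k => ww a l D k / s) x y with hK₂
  have hE : Ex μ (Kcell a ((1 - s) * t') j0 D)
      = fun σ => ENNReal.ofReal (Real.exp ((1 - s) * (μ * Multiset.card σ + pS K₁ σ) + s * (μ * Multiset.card σ + pS K₂ σ))) := by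
    funext σ
    unfold Ex
    congr 2
    have hk : Kcell a ((1 - s) * t') j0 D = fun x y => (1 - s) * K₁ x y + s * K₂ x y := by
      funext x y
      simp only [hK₁, hK₂]
      unfold Kcell Kcube
      rw [← hl]
      by_cases hc : cb 1 x = cb 1 y
      · simp only [hc, if_true]
        field_simp
        ring
      · simp only [hc, if_false]
        ring
    rw [hk, pS_lin]
    ring
  rw [hE]
  have h1 := cell_one ha μ hlpos hρ hη hθ hM ht0 ht1 hder hMz htθ hlρ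
  have h2 := cell_two ha μ hs0 l D hD
  have h1' : G (B l) (fun σ => ENNReal.ofReal (Real.exp (μ * Multiset.card σ + pS K₁ σ)))
      ≤ ENNReal.ofReal (Real.exp (Real.log (M + 2) + 3 * (l:ℝ) + (((l:ℝ) + 1)^3 * P a μ + t' * KK * (ρ + η)^2 * (l:ℝ)^3))) := by
    refine h1.trans (ENNReal.ofReal_le_ofReal ?_)
    rw [Real.exp_add (Real.log (M + 2) + 3 * (l:ℝ))]
    refine mul_le_mul_of_nonneg_right ?_ (Real.exp_pos _).le
    rw [Real.exp_add, Real.exp_log (by linarith)]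
    have h3 : M * (l:ℝ)^3 + 2 ≤ (M + 2) * (l:ℝ)^3 := by
      have : (1:ℝ) ≤ (l:ℝ)^3 := one_le_pow₀ hl1
      nlinarith
    refine h3.trans (mul_le_mul_of_nonneg_left ?_ (by linarith))
    have h4 : (l:ℝ) ≤ Real.exp l := by linarith [Real.add_one_le_exp (l:ℝ)]
    calc (l:ℝ)^3 ≤ (Real.exp l)^3 := pow_le_pow_left₀ (by linarith) h4 3
      _ = Real.exp (3 * (l:ℝ)) := by rw [← Real.exp_nat_mul]; norm_num
  have hm₁ : Meas (fun σ => ENNReal.ofReal (Real.exp (μ * Multiset.card σ + pS K₁ σ))) :=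
    meas_Ex μ ((measurable_Kphi ha).add_const _)
  exact G_convex (fun σ => μ * Multiset.card σ + pS K₁ σ) (fun σ => μ * Multiset.card σ + pS K₂ σ) hm₁ h1' h2 hs0.le hs1.le

/-- The slope bound. -/
lemma slope_bound {a : ℕ → ℝ} (ha : Adm a) {μ ρ κ : ℝ} (hd : HasDerivAt (P a) ρ μ) (hρ : 0 ≤ ρ)
    (hκ : KK * ρ^2 < κ) :
    ∃ t : ℝ, 0 < t ∧ ∃ j0 : ℕ, P (fun j => a j + bump j0 t j) μ < P a μ + t * κ := by
  have hKK : (0:ℝ) < KK := by unfold KK; norm_num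
  -- choice of η
  obtain ⟨η, hη, hηκ⟩ : ∃ η : ℝ, 0 < η ∧ KK * (ρ + η)^2 < κ := by
    have hc : Tendsto (fun η : ℝ => KK * (ρ + η)^2) (𝓝 0) (𝓝 (KK * (ρ + 0)^2)) :=
      ((tendsto_const_nhds.add tendsto_id).pow 2).const_mul KK
    rw [add_zero] at hc
    have h1 := hc.eventually_lt_const hκ
    obtain ⟨δ, hδ, hball⟩ := Metric.eventually_nhds_iff.1 h1
    refine ⟨δ/2, by linarith, hball ?_⟩
    rw [Real.dist_eq, sub_zero, abs_of_pos (by linarith)]
    linarith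
  set κ' := KK * (ρ + η)^2 with hκ'
  -- choice of M
  set M : ℝ := 1 + 2 * zst a μ KK / KK with hM
  have hz := zst_pos a μ KK
  have hM1 : 1 ≤ M := by
    have : 0 ≤ 2 * zst a μ KK / KK := by positivity
    linarith
  have hM0 : 0 < M := by linarith
  have hMz : zst a μ KK ≤ KK / 2 * M^2 := by
    have h1 : M ≤ M^2 := by nlinarith
    have h2 : zst a μ KK ≤ KK / 2 * M := by
      rw [hM]
      have : KK / 2 * (1 + 2 * zst a μ KK / KK) = KK / 2 + zst a μ KK := by field_simp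
      rw [this]; linarith
    nlinarith
  -- choice of θ
  obtain ⟨θ, hθ, hder⟩ : ∃ θ : ℝ, 0 < θ ∧ P a (μ + θ) ≤ P a μ + θ * (ρ + η/2) := by
    have h1 := (hasDerivAt_iff_tendsto_slope_zero.1 hd).eventually_lt_const (show ρ < ρ + η/2 by linarith)
    rw [eventually_nhdsWithin_iff] at h1
    obtain ⟨δ, hδ, hball⟩ := Metric.eventually_nhds_iff.1 h1
    refine ⟨δ/2, by linarith, ?_⟩
    have hne : (δ/2 : ℝ) ∈ ({0}ᶜ : Set ℝ) := by
      simp; linarith
    have h2 := hball (y := δ/2) (by rw [Real.dist_eq, sub_zero, abs_of_pos (by linarith)]; linarith) hne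
    rw [smul_eq_mul, inv_mul_lt_iff₀ (by linarith)] at h2
    linarith
  -- choice of t'
  set t' : ℝ := min (1/2) (θ * η / 4 / (KK * M^2)) with ht'
  have ht'0 : 0 < t' := by
    rw [ht']; refine lt_min (by norm_num) (by positivity)
  have ht'1 : t' ≤ 1/2 := min_le_left _ _
  have htθ : t' * (KK * M^2) ≤ θ * η / 4 := by
    have : t' ≤ θ * η / 4 / (KK * M^2) := min_le_right _ _
    rwa [le_div_iff₀ (by positivity)] at this
  -- choice of s
  set s : ℝ := min (1/2) (t' * (κ - κ') / (4 * zst a μ 1)) with hs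
  have hz1 := zst_pos a μ 1
  have hs0 : 0 < s := by
    rw [hs]
    refine lt_min (by norm_num) ?_
    have : 0 < κ - κ' := by linarith
    positivity
  have hs1 : s ≤ 1/2 := min_le_left _ _
  have hs2 : s * zst a μ 1 ≤ t' * (κ - κ') / 4 := by
    have : s ≤ t' * (κ - κ') / (4 * zst a μ 1) := min_le_right _ _
    rw [le_div_iff₀ (by positivity)] at this
    linarith
  -- choice of D
  obtain ⟨D, hD⟩ : ∃ D : ℕ, KK * tailA a D ≤ s := by
    have h1 := (tailA_tendsto ha).const_mul KK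
    rw [mul_zero] at h1
    obtain ⟨D, hD⟩ := (h1.eventually_lt_const hs0).exists
    exact ⟨D, hD.le⟩
  set zb := zst a μ (KK * (mass a + tailA a D) / s) with hzb
  -- limits
  have hinv := (inv_nat_tendsto.comp (tendsto_add_atTop_nat 1))
  have hg : Tendsto (fun j0 : ℕ => (1 - s) * (Real.log (M + 2) * (((j0+1 : ℕ):ℝ)⁻¹)^3 + 3 * (((j0+1 : ℕ):ℝ)⁻¹)^2
      + ((1 + ((j0+1 : ℕ):ℝ)⁻¹)^3 * P a μ + t' * κ')) + s * (zst a μ 1 + 6 * D * zb * ((j0+1 : ℕ):ℝ)⁻¹)) atTop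
      (𝓝 ((1 - s) * (Real.log (M + 2) * 0^3 + 3 * 0^2
      + ((1 + 0)^3 * P a μ + t' * κ')) + s * (zst a μ 1 + 6 * D * zb * 0))) := by
    have hi : Tendsto (fun j0 : ℕ => ((j0+1 : ℕ):ℝ)⁻¹) atTop (𝓝 0) := hinv
    exact ((((hi.pow 3).const_mul _).add ((hi.pow 2).const_mul _)).add
      ((((tendsto_const_nhds.add hi).pow 3).mul_const _).add tendsto_const_nhds)).const_mul _ |>.add
      ((tendsto_const_nhds.add (hi.const_mul _)).const_mul _)
  have hlim : (1 - s) * (Real.log (M + 2) * 0^3 + 3 * 0^2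
      + ((1 + 0)^3 * P a μ + t' * κ')) + s * (zst a μ 1 + 6 * D * zb * 0) < P a μ + ((1 - s) * t') * κ := by
    have hP := P_nonneg ha μ
    have h1 : 0 < κ - κ' := by linarith
    have h2 : t' * (κ - κ') / 4 < (1 - s) * t' * (κ - κ') := by nlinarith [mul_pos ht'0 h1]
    nlinarith
  have hev1 := hg.eventually_lt_const hlim
  have hρlim : Tendsto (fun j0 : ℕ => (1 + ((j0+1 : ℕ):ℝ)⁻¹)^3 * (ρ + η/2)) atTop (𝓝 ((1 + 0)^3 * (ρ + η/2))) := by
    have hi : Tendsto (fun j0 : ℕ => ((j0+1 : ℕ):ℝ)⁻¹) atTop (𝓝 0) := hinv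
    exact ((tendsto_const_nhds.add hi).pow 3).mul_const _
  have hev2 := hρlim.eventually_lt_const (show (1 + 0)^3 * (ρ + η/2) < ρ + 3 * η / 4 by linarith)
  obtain ⟨j0, h1, h2⟩ := (hev1.and hev2).exists
  refine ⟨(1 - s) * t', by nlinarith, j0, ?_⟩
  have hl0 : (0:ℝ) < ((j0+1 : ℕ):ℝ) := by positivity
  have hlρ : (((j0+1 : ℕ):ℝ) + 1)^3 * (ρ + η/2) ≤ ((j0+1 : ℕ):ℝ)^3 * (ρ + 3 * η / 4) := by
    calc (((j0+1 : ℕ):ℝ) + 1)^3 * (ρ + η/2) = ((j0+1 : ℕ):ℝ)^3 * ((1 + ((j0+1 : ℕ):ℝ)⁻¹)^3 * (ρ + η/2)) := by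
          field_simp
      _ ≤ _ := mul_le_mul_of_nonneg_left h2.le (by positivity)
  have h3 := cell_total ha μ j0 D hρ hη hθ hM0 ht'0.le ht'1 hs0 (by linarith) hder hMz htθ hlρ hD
  refine h3.trans_lt (lt_of_le_of_lt (le_of_eq ?_) h1)
  rw [← hzb]
  field_simp
  ring

end Vale.Agent.Lib.P171
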