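import Mathlib
import Vale.Agent.Lib.P171.Ekeland
import Vale.Agent.Lib.P171.Slope

/-! Existence of coefficients with a kink of the pressure. -/

open MeasureTheory Set Filter Topology
open scoped ENNReal

namespace Vale.Agent.Lib.P171

/-- Nonnegative summable sequences, as a closed subset of `lp 1`. -/
def Xpos : Set (lp (fun _ : ℕ => ℝ) 1) := {a | ∀ j, 0 ≤ a j}

lemma summable_lp (a : lp (fun _ : ℕ => ℝ) 1) : Summable (fun j => |a j|) := by
  have h := lp.memℓp a
  rw [memℓp_gen_iff (by simp)] at h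
  simpa using h

lemma norm_lp (a : lp (fun _ : ℕ => ℝ) 1) : ‖a‖ = ∑' j, |a j| := by
  rw [lp.norm_eq_tsum_rpow (by simp)]
  simp

lemma adm_lp {a : lp (fun _ : ℕ => ℝ) 1} (ha : a ∈ Xpos) : Adm (fun j => a j) :=
  ⟨ha, (summable_lp a).of_abs⟩

lemma isClosed_Xpos : IsClosed Xpos := by
  have : Xpos = ⋂ j, {a : lp (fun _ : ℕ => ℝ) 1 | 0 ≤ a j} := by
    ext a; simp [Xpos]
  rw [this]
  refine isClosed_iInter (fun j => ?_)
  refine isClosed_le continuous_const ?_
  refine Metric.continuous_iff.2 (fun b ε hε => ⟨ε, hε, fun a hab => ?_⟩)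
  refine lt_of_le_of_lt ?_ hab
  rw [Real.dist_eq, dist_eq_norm, norm_lp]
  have hs := summable_lp (a - b)
  have h1 := hs.le_tsum j (fun _ _ => abs_nonneg _)
  simpa using h1

lemma psi_diff {a b : ℕ → ℝ} (ha : Adm a) (hb : Adm b) (r : ℝ) :
    |psi a r - psi b r| ≤ ∑' j, |a j - b j| := by
  have hs : Summable (fun j => |a j - b j|) := (ha.sm.sub hb.sm).abs
  unfold psi
  rw [← (summable_ker ha r).tsum_sub (summable_ker hb r)]
  have h1 : ∀ j, |a j * ker j r - b j * ker j r| ≤ |a j - b j| := by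
    intro j
    rw [← sub_mul, abs_mul, abs_of_nonneg (ker_nonneg j r)]
    exact mul_le_of_le_one_right (abs_nonneg _) (ker_le_one j r)
  have hs2 : Summable (fun j => |a j * ker j r - b j * ker j r|) :=
    Summable.of_nonneg_of_le (fun _ => abs_nonneg _) h1 hs
  calc |∑' j, (a j * ker j r - b j * ker j r)| ≤ ∑' j, |a j * ker j r - b j * ker j r| := by
        have := norm_tsum_le_tsum_norm (f := fun j => a j * ker j r - b j * ker j r) (by simpa using hs2)
        simpa using this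
    _ ≤ _ := hs2.tsum_le_tsum h1 hs

lemma I_compare {a b : ℕ → ℝ} (ha : Adm a) (hb : Adm b) (μ ν : ℝ) (N k : ℕ) :
    I k (B N) (Ex μ (Kphi a)) ≤ ENNReal.ofReal (Real.exp (|μ - ν| * k + (∑' j, |a j - b j|) * (k:ℝ)^2)) *
      I k (B N) (Ex ν (Kphi b)) := by
  unfold I
  rw [← lintegral_const_mul' _ _ ENNReal.ofReal_ne_top]
  refine lintegral_mono (fun x => ?_)
  rw [Ex_conf, Ex_conf, ← ENNReal.ofReal_mul (Real.exp_pos _).le, ← Real.exp_add]
  refine ENNReal.ofReal_le_ofReal (Real.exp_le_exp.2 ?_)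
  have h1 : μ * k ≤ |μ - ν| * k + ν * k := by
    have := le_abs_self (μ - ν)
    have hk : (0:ℝ) ≤ k := Nat.cast_nonneg k
    nlinarith
  have h2 : ∑ i, ∑ j, Kphi a (x i) (x j) ≤ (∑' j, |a j - b j|) * (k:ℝ)^2 + ∑ i, ∑ j, Kphi b (x i) (x j) := by
    have h3 : ∀ i j, Kphi a (x i) (x j) ≤ (∑' j, |a j - b j|) + Kphi b (x i) (x j) := by
      intro i j
      unfold Kphi
      rw [phi_eq, phi_eq]
      have h4 := le_abs_self (psi a (dist (x i) (x j)) - psi b (dist (x i) (x j)))
      have h5 := psi_diff ha hb (dist (x i) (x j))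
      have h6 : 0 ≤ ∑' j, |a j - b j| := tsum_nonneg (fun _ => abs_nonneg _)
      linarith
    calc ∑ i, ∑ j, Kphi a (x i) (x j) ≤ ∑ i : Fin k, ∑ j : Fin k, ((∑' j, |a j - b j|) + Kphi b (x i) (x j)) :=
          Finset.sum_le_sum (fun i _ => Finset.sum_le_sum (fun j _ => h3 i j))
      _ = _ := by
          simp_rw [Finset.sum_add_distrib]
          simp
          ring
  linarith

/-- Closedness of sublevel sets of the pressure. -/
lemma P_lsc {a : ℕ → ℝ} (ha : Adm a) (μ : ℝ) {b : ℕ → ℕ → ℝ} (hb : ∀ n, Adm (b n)) {ν : ℕ → ℝ} {c : ℕ → ℝ} {c' : ℝ}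
    (h1 : Tendsto (fun n => ∑' j, |a j - b n j|) atTop (𝓝 0)) (h2 : Tendsto ν atTop (𝓝 μ))
    (hc : Tendsto c atTop (𝓝 c')) (h : ∀ n, P (b n) (ν n) ≤ c n) : P a μ ≤ c' := by
  unfold P
  refine ciSup_le (fun N => ?_)
  rw [div_le_iff₀ (by positivity), mul_comm, lnXi_le_iff ha]
  unfold Xi G
  rw [ENNReal.tsum_eq_iSup_nat]
  refine iSup_le (fun K => ?_)
  have hn : ∀ n, ∑ k ∈ Finset.range K, ((k.factorial : ℝ≥0∞))⁻¹ * I k (B N) (Ex μ (Kphi a))
      ≤ ENNReal.ofReal (Real.exp ((|μ - ν n| * K + (∑' j, |a j - b n j|) * (K:ℝ)^2) + ((N:ℝ) + 1)^3 * c n)) := by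
    intro n
    have hS : 0 ≤ ∑' j, |a j - b n j| := tsum_nonneg (fun _ => abs_nonneg _)
    calc ∑ k ∈ Finset.range K, ((k.factorial : ℝ≥0∞))⁻¹ * I k (B N) (Ex μ (Kphi a))
        ≤ ∑ k ∈ Finset.range K, ENNReal.ofReal (Real.exp (|μ - ν n| * K + (∑' j, |a j - b n j|) * (K:ℝ)^2)) *
            (((k.factorial : ℝ≥0∞))⁻¹ * I k (B N) (Ex (ν n) (Kphi (b n)))) := by
          refine Finset.sum_le_sum (fun k hk => ?_)
          have hkK : (k:ℝ) ≤ K := by exact_mod_cast (Finset.mem_range.1 hk).le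
          have hk0 : (0:ℝ) ≤ k := Nat.cast_nonneg k
          calc ((k.factorial : ℝ≥0∞))⁻¹ * I k (B N) (Ex μ (Kphi a))
              ≤ ((k.factorial : ℝ≥0∞))⁻¹ * (ENNReal.ofReal (Real.exp (|μ - ν n| * k + (∑' j, |a j - b n j|) * (k:ℝ)^2)) *
                  I k (B N) (Ex (ν n) (Kphi (b n)))) := by
                gcongr
                exact I_compare ha (hb n) μ (ν n) N k
            _ ≤ ((k.factorial : ℝ≥0∞))⁻¹ * (ENNReal.ofReal (Real.exp (|μ - ν n| * K + (∑' j, |a j - b n j|) * (K:ℝ)^2)) *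
                  I k (B N) (Ex (ν n) (Kphi (b n)))) := by
                gcongr
            _ = _ := by ring
      _ = ENNReal.ofReal (Real.exp (|μ - ν n| * K + (∑' j, |a j - b n j|) * (K:ℝ)^2)) *
            ∑ k ∈ Finset.range K, (((k.factorial : ℝ≥0∞))⁻¹ * I k (B N) (Ex (ν n) (Kphi (b n)))) := by
          rw [Finset.mul_sum]
      _ ≤ ENNReal.ofReal (Real.exp (|μ - ν n| * K + (∑' j, |a j - b n j|) * (K:ℝ)^2)) * Xi (b n) (ν n) N := by
          gcongr
          exact ENNReal.sum_le_tsum _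
      _ ≤ ENNReal.ofReal (Real.exp (|μ - ν n| * K + (∑' j, |a j - b n j|) * (K:ℝ)^2)) *
            ENNReal.ofReal (Real.exp (((N:ℝ) + 1)^3 * c n)) := by
          gcongr
          rw [← lnXi_le_iff (hb n)]
          exact (le_P (hb n) (ν n) N).trans (mul_le_mul_of_nonneg_left (h n) (by positivity))
      _ = _ := by
          rw [← ENNReal.ofReal_mul (Real.exp_pos _).le, ← Real.exp_add]
  have hlim : Tendsto (fun n => ENNReal.ofReal (Real.exp ((|μ - ν n| * K + (∑' j, |a j - b n j|) * (K:ℝ)^2) + ((N:ℝ) + 1)^3 * c n)))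
      atTop (𝓝 (ENNReal.ofReal (Real.exp ((|μ - μ| * K + 0 * (K:ℝ)^2) + ((N:ℝ) + 1)^3 * c')))) := by
    refine (ENNReal.continuous_ofReal.tendsto _).comp ((Real.continuous_exp.tendsto _).comp ?_)
    exact (((tendsto_const_nhds.sub h2).abs.mul_const _).add (h1.mul_const _)).add (hc.const_mul _)
  have := ge_of_tendsto' hlim hn
  simpa using this

lemma P_mono_mu {a : ℕ → ℝ} (ha : Adm a) {μ μ' : ℝ} (h : μ ≤ μ') : P a μ ≤ P a μ' := by
  unfold P
  refine ciSup_mono (bdd ha μ') (fun n => ?_)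
  refine div_le_div_of_nonneg_right ?_ (by positivity)
  rw [lnXi_le_iff ha, ← Xi_eq_exp ha]
  unfold Xi
  refine G_mono (measurableSet_B n) (subset_refl _) ae_inj (fun s _ _ => ?_)
  unfold Ex
  refine ENNReal.ofReal_le_ofReal (Real.exp_le_exp.2 ?_)
  gcongr

/-- The kink. -/
theorem exists_kink : ∃ (a : ℕ → ℝ) (μ : ℝ), Adm a ∧ ¬ DifferentiableAt ℝ (P a) μ := by
  have hcomplete : CompleteSpace Xpos := isClosed_Xpos.completeSpace_coe
  have hne : Nonempty Xpos := ⟨⟨0, fun j => by simp⟩⟩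
  set p : ℝ := 1 / 1000 with hp
  set Qf : (Xpos × ℝ) → ℝ := fun x => P (fun j => x.1.1 j) x.2 - p * ((1/8) * x.2 + (1/16) * mass (fun j => x.1.1 j)) with hQ
  have hb : ∀ x, 0 ≤ Qf x := by
    rintro ⟨⟨a, ha⟩, μ⟩
    have ha' := adm_lp ha
    have h1 := P_ge ha' μ
    have h2 := P_nonneg ha' μ
    simp only [hQ]
    rw [hp]
    by_cases hpos : 0 ≤ (1/8) * μ + (1/16) * mass (fun j => a j)
    · linarith
    · push Not at hpos; linarith
  have hdist : ∀ (a b : Xpos), dist a b = ∑' j, |a.1 j - b.1 j| := by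
    intro a b
    rw [Subtype.dist_eq, dist_eq_norm, norm_lp]
    rfl
  have hlsc : ∀ (u : ℕ → Xpos × ℝ) (x : Xpos × ℝ), Tendsto u atTop (𝓝 x) → ∀ c, (∀ n, Qf (u n) ≤ c) → Qf x ≤ c := by
    intro u x hu c huc
    have hx1 : Tendsto (fun n => (u n).1) atTop (𝓝 x.1) := (continuous_fst.tendsto x).comp hu
    have hx2 : Tendsto (fun n => (u n).2) atTop (𝓝 x.2) := (continuous_snd.tendsto x).comp hu
    have hd : Tendsto (fun n => ∑' j, |x.1.1 j - (u n).1.1 j|) atTop (𝓝 0) := by
      have h1 : Tendsto (fun n => dist x.1 (u n).1) atTop (𝓝 (dist x.1 x.1)) := tendsto_const_nhds.dist hx1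
      rw [dist_self] at h1
      refine h1.congr (fun n => ?_)
      rw [hdist]
    have hmass : Tendsto (fun n => mass (fun j => (u n).1.1 j)) atTop (𝓝 (mass (fun j => x.1.1 j))) := by
      rw [tendsto_iff_dist_tendsto_zero]
      refine squeeze_zero (fun _ => dist_nonneg) (fun n => ?_) hd
      rw [dist_comm, Real.dist_eq]
      unfold mass
      have hA := (adm_lp x.1.2).sm
      have hB := (adm_lp (u n).1.2).sm
      rw [← hA.tsum_sub hB]
      have hs : Summable (fun j => |x.1.1 j - (u n).1.1 j|) := (hA.sub hB).abs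
      have := norm_tsum_le_tsum_norm (f := fun j => x.1.1 j - (u n).1.1 j) (by simpa using hs)
      simpa using this
    have hP : P (fun j => x.1.1 j) x.2 ≤ c + p * ((1/8) * x.2 + (1/16) * mass (fun j => x.1.1 j)) := by
      refine P_lsc (adm_lp x.1.2) x.2 (b := fun n j => (u n).1.1 j) (fun n => adm_lp (u n).1.2) (ν := fun n => (u n).2)
        (c := fun n => c + p * ((1/8) * (u n).2 + (1/16) * mass (fun j => (u n).1.1 j))) hd hx2 ?_ ?_
      · exact tendsto_const_nhds.add (((hx2.const_mul _).add (hmass.const_mul _)).const_mul _)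
      · intro n
        have := huc n
        simp only [hQ] at this
        linarith
    simp only [hQ]
    linarith
  obtain ⟨x, hx⟩ := ekeland Qf hb hlsc (ε := p / 32) (by rw [hp]; norm_num)
  refine ⟨fun j => x.1.1 j, x.2, adm_lp x.1.2, ?_⟩
  intro hdiff
  have ha := adm_lp x.1.2
  set a : ℕ → ℝ := fun j => x.1.1 j with ha_def
  set μ := x.2 with hμ
  obtain ⟨ρ, hρd⟩ : ∃ ρ, HasDerivAt (P a) ρ μ := ⟨_, hdiff.hasDerivAt⟩
  -- monotone in μ
  have hρ0 : 0 ≤ ρ := by
    have h1 := (hasDerivAt_iff_tendsto_slope_zero.1 hρd)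
    refine ge_of_tendsto h1 ?_
    filter_upwards [self_mem_nhdsWithin] with t ht
    rcases lt_or_gt_of_ne (show t ≠ 0 from ht) with h | h
    · have := P_mono_mu ha (show μ + t ≤ μ by linarith)
      rw [smul_eq_mul]
      exact mul_nonneg_of_nonpos_of_nonpos (inv_nonpos.2 h.le) (by linarith)
    · have := P_mono_mu ha (show μ ≤ μ + t by linarith)
      rw [smul_eq_mul]
      exact mul_nonneg (inv_nonneg.2 h.le) (by linarith)
  -- upper bound for the derivative
  have hρ1 : ρ ≤ 5 * p / 32 := by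
    have h1 : Tendsto (fun t => t⁻¹ • (P a (μ + t) - P a μ)) (𝓝[<] 0) (𝓝 ρ) :=
      (hasDerivAt_iff_tendsto_slope_zero.1 hρd).mono_left
        (nhdsWithin_mono _ (fun t (ht : t < 0) => ne_of_lt ht))
    refine le_of_tendsto h1 ?_
    filter_upwards [self_mem_nhdsWithin] with t ht
    have ht' : t < 0 := ht
    have h2 := hx (x.1, x.2 + t)
    simp only [hQ] at h2
    have hdd : dist x (x.1, x.2 + t) = -t := by
      rw [Prod.dist_eq]
      simp only [dist_self, Real.dist_eq]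
      rw [show x.2 - (x.2 + t) = -t by ring, abs_of_pos (by linarith)]
      exact max_eq_right (by linarith)
    rw [hdd] at h2
    rw [smul_eq_mul, inv_mul_eq_div, div_le_iff_of_neg ht']
    have h3 : P a μ - p * ((1/8) * μ + (1/16) * mass a) ≤ P a (μ + t) - p * ((1/8) * (μ + t) + (1/16) * mass a) + p/32 * (-t) := h2
    linarith
  -- slope bound
  have hκ : KK * ρ^2 < p / 32 := by
    have h1 : ρ^2 ≤ (5 * p / 32)^2 := pow_le_pow_left₀ hρ0 hρ1 2
    have h2 : KK * ρ^2 ≤ KK * (5 * p / 32)^2 := mul_le_mul_of_nonneg_left h1 (by unfold KK; norm_num)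
    refine h2.trans_lt ?_
    rw [hp]; unfold KK; norm_num
  obtain ⟨t, ht, j0, hlt⟩ := slope_bound ha hρd hρ0 hκ
  -- the perturbed point
  have hmem : Memℓp (fun j => a j + bump j0 t j) 1 := by
    rw [memℓp_gen_iff (by simp)]
    have := (adm_bump ha j0 ht.le).sm.abs
    simpa using this
  set y : Xpos := ⟨⟨fun j => a j + bump j0 t j, hmem⟩, fun j => (adm_bump ha j0 ht.le).nn j⟩ with hy
  have h2 := hx (y, x.2)
  simp only [hQ] at h2
  have hdd : dist x (y, x.2) = t := by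
    rw [Prod.dist_eq]
    simp only [dist_self]
    rw [hdist]
    have : ∀ j, |x.1.1 j - y.1 j| = bump j0 t j := by
      intro j
      have hyj : y.1 j = a j + bump j0 t j := rfl
      rw [hyj, ha_def]
      simp only
      rw [show (x.1.1 j - (x.1.1 j + bump j0 t j)) = - bump j0 t j by ring, abs_neg, abs_of_nonneg]
      unfold bump; split_ifs
      · exact ht.le
      · exact le_rfl
    simp_rw [this]
    rw [mass_bump]
    exact max_eq_left ht.le
  rw [hdd] at h2
  have hmass : mass (fun j => y.1 j) = mass a + t := by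
    have : (fun j => (y.1 : ℕ → ℝ) j) = fun j => a j + bump j0 t j := rfl
    rw [this]
    unfold mass
    rw [ha.sm.tsum_add (summable_bump j0 t), mass_bump]
  have h3 : P a μ - p * ((1/8) * μ + (1/16) * mass a)
      ≤ P (fun j => a j + bump j0 t j) μ - p * ((1/8) * μ + (1/16) * (mass a + t)) + p/32 * t := by
    rw [← hmass]; exact h2
  linarith

end Vale.Agent.Lib.P171
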