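import Mathlib
import Vale.Agent.Lib.P171.Defs
import Vale.Agent.Lib.P171.Exist

/-! Translation to the definitions of the problem. -/

open MeasureTheory Set Filter Topology
open scoped ENNReal

namespace Vale.Agent.Lib.P171

lemma energy_eq {a : ℕ → ℝ} {N : ℕ} (x : Fin N → E3) :
    -1 * energy (phi a) x = ∑ i, ∑ j, Kphi a (x i) (x j) := by
  unfold energy Kphi
  have h1 : ∀ i : Fin N, ∑ j, phi a (dist (x i) (x j))
      = ∑ j ∈ Finset.Ioi i, phi a (dist (x i) (x j)) + ∑ j ∈ Finset.Iio i, phi a (dist (x i) (x j)) := by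
    intro i
    have hu : (Finset.univ : Finset (Fin N)) = insert i (Finset.Ioi i ∪ Finset.Iio i) := by
      ext j
      simp only [Finset.mem_univ, Finset.mem_insert, Finset.mem_union, Finset.mem_Ioi, Finset.mem_Iio, true_iff]
      rcases lt_trichotomy i j with h | h | h
      · exact Or.inr (Or.inl h)
      · exact Or.inl h.symm
      · exact Or.inr (Or.inr h)
    have hd : Disjoint (Finset.Ioi i) (Finset.Iio i) := by
      rw [Finset.disjoint_left]
      intro j h1 h2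
      rw [Finset.mem_Ioi] at h1
      rw [Finset.mem_Iio] at h2
      exact lt_asymm h1 h2
    rw [hu, Finset.sum_insert (by simp), dist_self, phi_zero, zero_add, Finset.sum_union hd]
  have h2 : ∑ i : Fin N, ∑ j ∈ Finset.Iio i, phi a (dist (x i) (x j))
      = ∑ i : Fin N, ∑ j ∈ Finset.Ioi i, phi a (dist (x i) (x j)) := by
    rw [Finset.sum_comm' (s := Finset.univ) (t := fun i => Finset.Iio i) (t' := Finset.univ) (s' := fun j => Finset.Ioi j)
      (by intro i j; simp)]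
    refine Finset.sum_congr rfl (fun i _ => Finset.sum_congr rfl (fun j _ => ?_))
    rw [dist_comm]
  simp_rw [← Finset.mul_sum]
  rw [Finset.sum_congr rfl (fun i _ => h1 i), Finset.sum_add_distrib, h2]
  ring

lemma stable_phi {a : ℕ → ℝ} (ha : Adm a) : Stable (phi a) := by
  refine ⟨(1/18) * (mst a 0 : ℝ)^4, fun N x hx => ?_⟩
  have h := stab ha x hx (fun _ => 0) (fun _ => mst a 0) (fun _ => mst_ge_two a 0) (fun _ => mst_ge a 0)
  have h2 := energy_eq (a := a) x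
  unfold Kphi at h2
  simp_rw [← Finset.mul_sum] at h2
  simp only [ite_self, Finset.sum_const_zero, add_zero, Finset.sum_const, Finset.card_univ, Fintype.card_fin,
    nsmul_eq_mul] at h
  linarith

lemma tempered_phi {a : ℕ → ℝ} (ha : Adm a) : Tempered (phi a) := by
  refine ⟨1, 1, 1, one_pos, one_pos, one_pos, fun r hr => ?_⟩
  have h1 := phi_nonpos ha hr
  have : 0 ≤ 1 * r ^ (-3 - 1 : ℝ) := by positivity
  linarith

lemma locBdd_phi {a : ℕ → ℝ} (ha : Adm a) : LocallyBounded (phi a) := by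
  intro c b hc _
  refine ⟨(c^4)⁻¹ + mass a, fun r hr => ?_⟩
  have hr0 : 0 < r := lt_of_lt_of_le hc hr.1
  rw [phi_eq]
  have h1 : phi0 r ≤ (c^4)⁻¹ := by
    unfold phi0
    split_ifs
    · exact inv_anti₀ (by positivity) (pow_le_pow_left₀ hc.le hr.1 4)
    · positivity
  have h2 := phi0_nonneg r
  have h3 := psi_nonneg ha r
  have h4 := psi_le ha r
  rw [abs_le]
  constructor
  · have : 0 ≤ (c^4)⁻¹ := by positivity
    linarith
  · have := mass_nonneg ha
    linarith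

lemma boxN_eq (L : ℝ) (N : ℕ) : boxN L N = cyl N (box L) := rfl

lemma measurableSet_box (L : ℝ) : MeasurableSet (box L) := by
  have : box L = ⋂ t, ((fun x : E3 => x t) ⁻¹' (Set.Icc 0 L)) := by
    ext x; simp [box]
  rw [this]
  exact MeasurableSet.iInter (fun t => measurable_coord t measurableSet_Icc)

lemma B_subset_box {L : ℝ} (hL : 0 ≤ L) : B ⌊L⌋₊ ⊆ box L := by
  intro x hx t
  obtain ⟨h1, h2⟩ := hx t
  exact ⟨h1, h2.le.trans (Nat.floor_le hL)⟩

lemma box_subset_B (L : ℝ) : box L ⊆ B (⌊L⌋₊ + 1) := by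
  intro x hx t
  obtain ⟨h1, h2⟩ := hx t
  refine ⟨h1, h2.trans_lt ?_⟩
  push_cast
  exact Nat.lt_floor_add_one L

lemma G_box_le {a : ℕ → ℝ} (μ L : ℝ) : G (box L) (Ex μ (Kphi a)) ≤ Xi a μ (⌊L⌋₊ + 1) :=
  G_mono (measurableSet_box L) (box_subset_B L) ae_inj (fun _ _ _ => le_rfl)

lemma le_G_box {a : ℕ → ℝ} (μ : ℝ) {L : ℝ} (hL : 0 ≤ L) : Xi a μ ⌊L⌋₊ ≤ G (box L) (Ex μ (Kphi a)) :=
  G_mono (measurableSet_B _) (B_subset_box hL) ae_inj (fun _ _ _ => le_rfl)

lemma measurable_pairsum {K : E3 → E3 → ℝ} (hK : Measurable (Function.uncurry K)) (N : ℕ) :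
    Measurable (fun x : Fin N → E3 => ∑ i, ∑ j, K (x i) (x j)) := by
  refine Finset.measurable_fun_sum _ (fun i _ => Finset.measurable_fun_sum _ (fun j _ => ?_))
  have h2 : Measurable (fun x : Fin N → E3 => (x i, x j)) := (measurable_pi_apply i).prodMk (measurable_pi_apply j)
  exact hK.comp h2

lemma measurable_boltz {a : ℕ → ℝ} (ha : Adm a) (N : ℕ) :
    Measurable (fun x : Fin N → E3 => Real.exp (-1 * energy (phi a) x)) := by
  have h1 : (fun x : Fin N → E3 => Real.exp (-1 * energy (phi a) x))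
      = fun x : Fin N → E3 => Real.exp (∑ i, ∑ j, Kphi a (x i) (x j)) := by
    funext x
    rw [energy_eq]
  rw [h1]
  exact Real.measurable_exp.comp (measurable_pairsum (measurable_Kphi ha) N)

/-- term of the grand canonical sum -/
lemma term_conv {a : ℕ → ℝ} {z : ℝ} (hz : 0 < z) (L : ℝ) (N : ℕ) :
    ((N.factorial : ℝ≥0∞))⁻¹ * I N (box L) (Ex (Real.log z) (Kphi a))
      = ENNReal.ofReal (z ^ N * (1 / (N.factorial : ℝ))) * ∫⁻ x in boxN L N, ENNReal.ofReal (Real.exp (-1 * energy (phi a) x)) := by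
  unfold I
  rw [boxN_eq]
  have h1 : ∀ x : Fin N → E3, Ex (Real.log z) (Kphi a) (conf x)
      = ENNReal.ofReal (z^N) * ENNReal.ofReal (Real.exp (-1 * energy (phi a) x)) := by
    intro x
    rw [Ex_conf, energy_eq, ← ENNReal.ofReal_mul (by positivity), Real.exp_add]
    congr 2
    rw [mul_comm, Real.exp_nat_mul, Real.exp_log hz]
  simp_rw [h1]
  rw [lintegral_const_mul' _ _ ENNReal.ofReal_ne_top, ← mul_assoc]
  congr 1
  rw [ENNReal.ofReal_mul (by positivity), one_div, ENNReal.ofReal_inv_of_pos (by positivity),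
    ENNReal.ofReal_natCast, mul_comm]

lemma lint_ne_top {a : ℕ → ℝ} (ha : Adm a) (L : ℝ) (N : ℕ) :
    ∫⁻ x in boxN L N, ENNReal.ofReal (Real.exp (-1 * energy (phi a) x)) ≠ ⊤ := by
  have h1 := term_conv (a := a) one_pos L N
  have h2 : G (box L) (Ex (Real.log 1) (Kphi a)) ≠ ⊤ :=
    ne_top_of_le_ne_top (Xi_ne_top ha _ _) (G_box_le _ _)
  have h3 : ((N.factorial : ℝ≥0∞))⁻¹ * I N (box L) (Ex (Real.log 1) (Kphi a)) ≠ ⊤ := by
    refine ne_top_of_le_ne_top h2 ?_
    unfold G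
    exact ENNReal.le_tsum N
  rw [h1] at h3
  intro htop
  rw [htop] at h3
  apply h3
  rw [ENNReal.mul_top]
  simp
  positivity

lemma integrable_boltz {a : ℕ → ℝ} (ha : Adm a) (L : ℝ) (N : ℕ) :
    IntegrableOn (fun x => Real.exp (-1 * energy (phi a) x)) (boxN L N) := by
  refine ⟨(measurable_boltz ha N).aestronglyMeasurable, ?_⟩
  rw [hasFiniteIntegral_iff_ofReal (Eventually.of_forall (fun x => (Real.exp_pos _).le))]
  exact lt_top_iff_ne_top.2 (lint_ne_top ha L N)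

lemma canonicalZ_eq {a : ℕ → ℝ} (ha : Adm a) (L : ℝ) (N : ℕ) :
    canonicalZ (phi a) 1 L N = (1 / (N.factorial : ℝ)) *
      (∫⁻ x in boxN L N, ENNReal.ofReal (Real.exp (-1 * energy (phi a) x))).toReal := by
  unfold canonicalZ
  rw [integral_eq_lintegral_of_nonneg_ae (Eventually.of_forall (fun x => (Real.exp_pos _).le))
    (measurable_boltz ha N).aestronglyMeasurable]

lemma term_real {a : ℕ → ℝ} (ha : Adm a) {z : ℝ} (hz : 0 < z) (L : ℝ) (N : ℕ) :
    z ^ N * canonicalZ (phi a) 1 L N = (((N.factorial : ℝ≥0∞))⁻¹ * I N (box L) (Ex (Real.log z) (Kphi a))).toReal := by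
  rw [term_conv hz, ENNReal.toReal_mul, ENNReal.toReal_ofReal (by positivity), canonicalZ_eq ha]
  ring

lemma term_ne_top {a : ℕ → ℝ} (ha : Adm a) {z : ℝ} (L : ℝ) (N : ℕ) :
    ((N.factorial : ℝ≥0∞))⁻¹ * I N (box L) (Ex (Real.log z) (Kphi a)) ≠ ⊤ := by
  have h2 : G (box L) (Ex (Real.log z) (Kphi a)) ≠ ⊤ :=
    ne_top_of_le_ne_top (Xi_ne_top ha _ _) (G_box_le _ _)
  refine ne_top_of_le_ne_top h2 ?_
  unfold G
  exact ENNReal.le_tsum N

lemma grandZ_eq {a : ℕ → ℝ} (ha : Adm a) {z : ℝ} (hz : 0 < z) (L : ℝ) :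
    grandZ (phi a) 1 z L = (G (box L) (Ex (Real.log z) (Kphi a))).toReal := by
  unfold grandZ G
  rw [ENNReal.tsum_toReal_eq (fun N => term_ne_top ha L N)]
  exact tsum_congr (fun N => term_real ha hz L N)

lemma summable_terms {a : ℕ → ℝ} (ha : Adm a) {z : ℝ} (hz : 0 < z) (L : ℝ) :
    Summable (fun N : ℕ => z ^ N * canonicalZ (phi a) 1 L N) := by
  have h2 : G (box L) (Ex (Real.log z) (Kphi a)) ≠ ⊤ :=
    ne_top_of_le_ne_top (Xi_ne_top ha _ _) (G_box_le _ _)
  have := ENNReal.summable_toReal h2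
  refine this.congr (fun N => ?_)
  exact (term_real ha hz L N).symm

lemma log_grandZ_bounds {a : ℕ → ℝ} (ha : Adm a) {z : ℝ} (hz : 0 < z) {L : ℝ} (hL : 0 ≤ L) :
    lnXi a (Real.log z) ⌊L⌋₊ ≤ Real.log (grandZ (phi a) 1 z L) ∧
      Real.log (grandZ (phi a) 1 z L) ≤ lnXi a (Real.log z) (⌊L⌋₊ + 1) := by
  rw [grandZ_eq ha hz]
  have h2 : G (box L) (Ex (Real.log z) (Kphi a)) ≠ ⊤ :=
    ne_top_of_le_ne_top (Xi_ne_top ha _ _) (G_box_le _ _)
  have h3 := ENNReal.toReal_mono h2 (le_G_box (a := a) (Real.log z) hL)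
  have h4 := ENNReal.toReal_mono (Xi_ne_top ha (Real.log z) (⌊L⌋₊ + 1)) (G_box_le (a := a) (Real.log z) L)
  have h5 := Xi_toReal_ge_one ha (Real.log z) ⌊L⌋₊
  constructor
  · exact Real.log_le_log (by linarith) h3
  · exact Real.log_le_log (by linarith) h4

lemma isPressure_phi {a : ℕ → ℝ} (ha : Adm a) : IsPressure (phi a) 1 (fun z => P a (Real.log z)) := by
  refine ⟨fun L N => integrable_boltz ha L N, fun z hz => ⟨fun L => summable_terms ha hz L, ?_⟩⟩
  have ht := tendsto_lnXi ha (Real.log z)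
  have hfloor : Tendsto (fun L : ℝ => (⌊L⌋₊ : ℝ) / L) atTop (𝓝 1) := tendsto_nat_floor_div_atTop
  have hfl : Tendsto (fun L : ℝ => ⌊L⌋₊) atTop atTop := tendsto_nat_floor_atTop
  have hlow : Tendsto (fun L : ℝ => ((⌊L⌋₊ : ℝ) / L)^3 * (lnXi a (Real.log z) ⌊L⌋₊ / (⌊L⌋₊ : ℝ)^3)) atTop
      (𝓝 (1^3 * P a (Real.log z))) := (hfloor.pow 3).mul (ht.comp hfl)
  have hfloor1 : Tendsto (fun L : ℝ => ((⌊L⌋₊ + 1 : ℕ) : ℝ) / L) atTop (𝓝 1) := by
    have h1 : Tendsto (fun L : ℝ => (⌊L⌋₊ : ℝ) / L + 1 / L) atTop (𝓝 (1 + 0)) :=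
      hfloor.add (tendsto_const_nhds.div_atTop tendsto_id)
    rw [add_zero] at h1
    refine h1.congr (fun L => ?_)
    push_cast
    ring
  have hfl1 : Tendsto (fun L : ℝ => ⌊L⌋₊ + 1) atTop atTop := (tendsto_add_atTop_nat 1).comp hfl
  have hup : Tendsto (fun L : ℝ => (((⌊L⌋₊ + 1 : ℕ) : ℝ) / L)^3 *
      (lnXi a (Real.log z) (⌊L⌋₊ + 1) / ((⌊L⌋₊ + 1 : ℕ) : ℝ)^3)) atTop
      (𝓝 (1^3 * P a (Real.log z))) := (hfloor1.pow 3).mul (ht.comp hfl1)
  rw [one_pow, one_mul] at hlow hup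
  refine tendsto_of_tendsto_of_tendsto_of_le_of_le' hlow hup ?_ ?_
  · filter_upwards [eventually_ge_atTop 1] with L hL
    have hL0 : 0 < L := by linarith
    have hf : (0:ℝ) < (⌊L⌋₊ : ℝ) := by
      have : 1 ≤ ⌊L⌋₊ := (Nat.one_le_floor_iff L).2 hL
      exact_mod_cast this
    have h := (log_grandZ_bounds ha hz hL0.le).1
    calc ((⌊L⌋₊ : ℝ) / L)^3 * (lnXi a (Real.log z) ⌊L⌋₊ / (⌊L⌋₊ : ℝ)^3) = (L^3)⁻¹ * lnXi a (Real.log z) ⌊L⌋₊ := by
          field_simp
      _ ≤ _ := mul_le_mul_of_nonneg_left h (by positivity)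
  · filter_upwards [eventually_ge_atTop 1] with L hL
    have hL0 : 0 < L := by linarith
    have h := (log_grandZ_bounds ha hz hL0.le).2
    have hf : (0:ℝ) < ((⌊L⌋₊ + 1 : ℕ) : ℝ) := by positivity
    calc (L^3)⁻¹ * Real.log (grandZ (phi a) 1 z L) ≤ (L^3)⁻¹ * lnXi a (Real.log z) (⌊L⌋₊ + 1) :=
          mul_le_mul_of_nonneg_left h (by positivity)
      _ = _ := by field_simp

/-- The tail of the potential is absolutely integrable. -/
lemma tail_phi {a : ℕ → ℝ} (ha : Adm a) : IntegrableOn (fun r : ℝ => r^2 * phi a r) (Set.Ici 1) := by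
  have hm : Measurable (fun r : ℝ => r^2 * phi a r) := (measurable_id.pow_const 2).mul (measurable_phi ha)
  refine ⟨hm.aestronglyMeasurable, ?_⟩
  unfold HasFiniteIntegral
  have h1 : ∀ r ∈ Set.Ici (1:ℝ), ‖r^2 * phi a r‖ₑ ≤ ∑' j, ENNReal.ofReal (a j * (r^2 * ker j r)) := by
    intro r hr
    have hr1 : (1:ℝ) ≤ r := hr
    have h2 : phi0 r = 0 := by
      unfold phi0
      rw [if_neg]
      rintro ⟨_, h⟩
      linarith
    have h3 : r^2 * phi a r = -(∑' j, a j * (r^2 * ker j r)) := by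
      rw [phi_eq, h2, zero_sub, mul_neg]
      congr 1
      unfold psi
      rw [← tsum_mul_left]
      refine tsum_congr (fun j => ?_)
      ring
    have hs : Summable (fun j => a j * (r^2 * ker j r)) := by
      have := (summable_ker ha r).mul_left (r^2)
      refine this.congr (fun j => ?_)
      ring
    have hnn : ∀ j, 0 ≤ a j * (r^2 * ker j r) := fun j =>
      mul_nonneg (ha.nn j) (mul_nonneg (sq_nonneg _) (ker_nonneg _ _))
    rw [h3, enorm_neg, Real.enorm_of_nonneg (tsum_nonneg hnn), ENNReal.ofReal_tsum_of_nonneg hnn hs]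
  have h4 : ∀ j : ℕ, ∫⁻ r in Set.Ici (1:ℝ), ENNReal.ofReal (a j * (r^2 * ker j r)) ≤ ENNReal.ofReal (216 * a j) := by
    intro j
    have hj : (0:ℝ) < (j:ℝ) + 1 := by positivity
    have h5 : ∀ r : ℝ, ENNReal.ofReal (a j * (r^2 * ker j r))
        ≤ (Set.Icc (0:ℝ) (6 * ((j:ℝ)+1))).indicator (fun _ => ENNReal.ofReal (36 * ((j:ℝ)+1)⁻¹ * a j)) r := by
      intro r
      by_cases hr : 0 < r ∧ r < 6 * ((j:ℝ) + 1)
      · rw [Set.indicator_of_mem (show r ∈ Set.Icc (0:ℝ) (6 * ((j:ℝ)+1)) from ⟨hr.1.le, hr.2.le⟩)]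
        refine ENNReal.ofReal_le_ofReal ?_
        have hk : ker j r = (((j:ℝ) + 1)^3)⁻¹ := by unfold ker; rw [if_pos hr]
        rw [hk]
        have h6 : r^2 ≤ (6 * ((j:ℝ) + 1))^2 := pow_le_pow_left₀ hr.1.le hr.2.le 2
        calc a j * (r^2 * (((j:ℝ) + 1)^3)⁻¹) ≤ a j * ((6 * ((j:ℝ) + 1))^2 * (((j:ℝ) + 1)^3)⁻¹) := by
              refine mul_le_mul_of_nonneg_left ?_ (ha.nn j)
              exact mul_le_mul_of_nonneg_right h6 (by positivity)
          _ = 36 * ((j:ℝ)+1)⁻¹ * a j := by field_simp; ring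
      · have hk : ker j r = 0 := by unfold ker; rw [if_neg hr]
        rw [hk]
        simp
    calc ∫⁻ r in Set.Ici (1:ℝ), ENNReal.ofReal (a j * (r^2 * ker j r))
        ≤ ∫⁻ r in Set.univ, ENNReal.ofReal (a j * (r^2 * ker j r)) := lintegral_mono_set (Set.subset_univ _)
      _ = ∫⁻ r, ENNReal.ofReal (a j * (r^2 * ker j r)) := by rw [Measure.restrict_univ]
      _ ≤ ∫⁻ r, (Set.Icc (0:ℝ) (6 * ((j:ℝ)+1))).indicator (fun _ => ENNReal.ofReal (36 * ((j:ℝ)+1)⁻¹ * a j)) r :=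
          lintegral_mono h5
      _ = ENNReal.ofReal (36 * ((j:ℝ)+1)⁻¹ * a j) * ENNReal.ofReal (6 * ((j:ℝ)+1)) := by
          rw [lintegral_indicator_const measurableSet_Icc, Real.volume_Icc, sub_zero]
      _ = ENNReal.ofReal (216 * a j) := by
          have := ha.nn j
          rw [← ENNReal.ofReal_mul (by positivity)]
          congr 1
          field_simp
          ring
  calc ∫⁻ r in Set.Ici (1:ℝ), ‖r^2 * phi a r‖ₑ
      ≤ ∫⁻ r in Set.Ici (1:ℝ), ∑' j, ENNReal.ofReal (a j * (r^2 * ker j r)) :=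
        setLIntegral_mono' measurableSet_Ici h1
    _ = ∑' j, ∫⁻ r in Set.Ici (1:ℝ), ENNReal.ofReal (a j * (r^2 * ker j r)) := by
        refine lintegral_tsum (fun j => ?_)
        refine (ENNReal.measurable_ofReal.comp ?_).aemeasurable
        exact (((measurable_id.pow_const 2).mul (measurable_ker j)).const_mul _)
    _ ≤ ∑' j, ENNReal.ofReal (216 * a j) := ENNReal.tsum_le_tsum h4
    _ < ⊤ := by
        rw [← ENNReal.ofReal_tsum_of_nonneg (fun j => by have := ha.nn j; positivity) (ha.sm.mul_left 216)]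
        exact ENNReal.ofReal_lt_top

/-- The main theorem. -/
theorem main : ∃ φ : ℝ → ℝ, Measurable φ ∧ LocallyBounded φ ∧ Stable φ ∧ Tempered φ ∧
    IntegrableOn (fun r : ℝ => r^2 * φ r) (Set.Ici 1) ∧ HasPhaseTransition φ := by
  obtain ⟨a, μ, ha, hnd⟩ := exists_kink
  refine ⟨phi a, measurable_phi ha, locBdd_phi ha, stable_phi ha, tempered_phi ha, tail_phi ha, 1, one_pos,
    fun z => P a (Real.log z), isPressure_phi ha, Real.exp μ, Real.exp_pos μ, fun hdiff => hnd ?_⟩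
  have h1 : P a = (fun z => P a (Real.log z)) ∘ Real.exp := by
    funext ν
    simp
  rw [h1]
  exact DifferentiableAt.comp μ hdiff Real.differentiableAt_exp

end Vale.Agent.Lib.P171
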